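import Vale.Agent.P245.H607.Final

open MeasureTheory Real Set Filter Topology
open scoped ENNReal ContDiff

namespace Vale.Agent.P245.H607

variable {n : ℕ} {μ : Measure (EuclideanSpace ℝ (Fin n))} {F : EuclideanSpace ℝ (Fin n) → ℝ}

/-- exponential moments, concave functions -/
theorem cor_concave [IsProbabilityMeasure μ] {a C0 : ℝ} (ha : 0 < a) (hC0 : 0 < C0) (hK : KLS C0)
    (hlc : HasLogConcaveDensity μ) (hsub : LinearlySubgaussian μ a)
    {f : EuclideanSpace ℝ (Fin n) → ℝ} (hf : LipschitzWith 1 f) (hconc : ConcaveOn ℝ univ f)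
    {t : ℝ} (ht : 0 ≤ t) :
    ∫ x, exp (t * (f x - ∫ y, f y ∂μ)) ∂μ ≤ exp ((8 * C0 + 26) * a ^ 2 * t ^ 2) := by
  have h1 := conc ha hC0 hK hlc hsub (F := fun x => -f x) hf.neg hconc.neg ht
  rw [integral_neg] at h1
  refine le_trans (le_of_eq ?_) h1
  apply integral_congr_ae
  refine Eventually.of_forall fun x => ?_
  simp only
  congr 1; ring

theorem lip_integrable [IsProbabilityMeasure μ] {a : ℝ} (ha : 0 < a)
    (hsub : LinearlySubgaussian μ a) (hF : LipschitzWith 1 F) : Integrable F μ := by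
  have h := std_of ha hsub hF
  have h1 := integrable_lip h 0 h.lip
  have e : nu μ F 0 = μ := by unfold nu; simp
  rwa [e] at h1

/-- exponential integrability around the mean -/
theorem exp_int [IsProbabilityMeasure μ] {a : ℝ} (ha : 0 < a)
    (hsub : LinearlySubgaussian μ a) (hF : LipschitzWith 1 F) (t m : ℝ) :
    Integrable (fun x => exp (-t * (F x - m))) μ := by
  have h1 := (H767.tilt_int ha hsub hF t).mul_const (exp (t * m))
  refine h1.congr (Eventually.of_forall fun x => ?_)
  simp only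
  rw [← exp_add]; congr 1; ring

/-- Gaussian lower deviations of convex Lipschitz functions -/
theorem cor_tail [IsProbabilityMeasure μ] {a C0 : ℝ} (ha : 0 < a) (hC0 : 0 < C0) (hK : KLS C0)
    (hlc : HasLogConcaveDensity μ) (hsub : LinearlySubgaussian μ a)
    (hF : LipschitzWith 1 F) (hconvF : ConvexOn ℝ univ F) {r : ℝ} (hr : 0 ≤ r) :
    μ.real {x | F x ≤ (∫ y, F y ∂μ) - r} ≤ exp (-(r ^ 2 / (4 * (8 * C0 + 26) * a ^ 2))) := by
  set C := 8 * C0 + 26 with hC
  have hCp : 0 < C := by positivity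
  set m := ∫ y, F y ∂μ with hm
  set t := r / (2 * C * a ^ 2) with ht
  have ht0 : 0 ≤ t := by positivity
  have h1 := conc ha hC0 hK hlc hsub hF hconvF ht0
  rw [← hm, ← hC] at h1
  have h2 : exp (t * r) * μ.real {x | F x ≤ m - r} ≤ ∫ x, exp (-t * (F x - m)) ∂μ := by
    have h3 := mul_meas_ge_le_integral_of_nonneg (μ := μ) (f := fun x => exp (-t * (F x - m)))
      (Eventually.of_forall fun x => (exp_pos _).le) (exp_int ha hsub hF t m) (exp (t * r))
    refine le_trans ?_ h3
    apply mul_le_mul_of_nonneg_left _ (exp_pos _).le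
    refine measureReal_mono (fun x hx => ?_) (measure_ne_top _ _)
    have hx' : F x ≤ m - r := hx
    change exp (t * r) ≤ exp (-t * (F x - m))
    apply exp_le_exp.2
    nlinarith
  have h4 : exp (t * r) * μ.real {x | F x ≤ m - r} ≤ exp (C * a ^ 2 * t ^ 2) := h2.trans h1
  have h5 : μ.real {x | F x ≤ m - r} ≤ exp (C * a ^ 2 * t ^ 2 - t * r) := by
    rw [exp_sub, le_div_iff₀ (exp_pos _), mul_comm]
    exact h4
  refine h5.trans (le_of_eq ?_)
  congr 1
  rw [ht]
  field_simp
  ring

/-- optimisation in `t` -/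
theorem opt {x y : ℝ} {k : ℝ} (hk : 0 < k) (hy : 0 ≤ y) (h : ∀ t, 0 ≤ t → t * x ≤ k ^ 2 * t ^ 2 + y) :
    x ≤ 2 * k * √y := by
  rcases hy.eq_or_lt with h0 | hpos
  · rw [← h0, sqrt_zero, mul_zero]
    by_contra hcon
    push Not at hcon
    have h1 := h (x / (2 * k ^ 2)) (by positivity)
    rw [← h0, add_zero] at h1
    have e1 : x / (2 * k ^ 2) * x = 2 * (k ^ 2 * (x / (2 * k ^ 2)) ^ 2) := by
      field_simp
    have h2 : 0 < k ^ 2 * (x / (2 * k ^ 2)) ^ 2 := by positivity
    linarith
  · have hs : 0 < √y := sqrt_pos.2 hpos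
    have h1 := h (√y / k) (by positivity)
    have e : k ^ 2 * (√y / k) ^ 2 = y := by
      rw [div_pow, sq_sqrt hy]; field_simp
    rw [e] at h1
    have h2 : √y * √y = y := mul_self_sqrt hy
    have h3 : √y / k * x ≤ 2 * (√y * √y) := by rw [h2]; linarith
    have h4 : √y * x ≤ √y * (2 * k * √y) := by
      have : √y * x = k * (√y / k * x) := by field_simp
      rw [this]
      nlinarith
    exact le_of_mul_le_mul_left h4 hs

/-- one-sided transport inequality: the mean of a convex function can only be decreased by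
`2a√(C·entropy)` under a change of measure -/
theorem cor_transport [IsProbabilityMeasure μ] {a C0 : ℝ} (ha : 0 < a) (hC0 : 0 < C0)
    (hK : KLS C0) (hlc : HasLogConcaveDensity μ) (hsub : LinearlySubgaussian μ a)
    (hF : LipschitzWith 1 F) (hconvF : ConvexOn ℝ univ F)
    {h : EuclideanSpace ℝ (Fin n) → ℝ} (h0 : ∀ x, 0 ≤ h x) (hi : Integrable h μ)
    (h1 : ∫ x, h x ∂μ = 1) (hl : Integrable (fun x => h x * log (h x)) μ) :
    (∫ x, F x ∂μ) - ∫ x, F x * h x ∂μ
      ≤ 2 * (√(8 * C0 + 26) * a) * √(∫ x, h x * log (h x) ∂μ) := by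
  have hFi := lip_integrable ha hsub hF
  set m := ∫ x, F x ∂μ with hm
  -- Young's inequality
  have young : ∀ (b c : ℝ), 0 ≤ b → b * c ≤ b * log b - b + exp c := by
    intro b c hb
    rcases hb.eq_or_lt with hb0 | hb0
    · rw [← hb0]; simp [(exp_pos c).le]
    · have h2 := add_one_le_exp (c - log b)
      rw [exp_sub, exp_log hb0, le_div_iff₀ hb0] at h2
      nlinarith
  have hc : Continuous F := hF.continuous
  -- integrability of `F h`
  have hFh : Integrable (fun x => F x * h x) μ := by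
    have i1 : Integrable (fun x => |h x * log (h x)| + h x
        + (exp (-(-1 : ℝ) * (F x - 0)) + exp (-(1 : ℝ) * (F x - 0)))) μ :=
      (hl.abs.add hi).add ((exp_int ha hsub hF (-1) 0).add (exp_int ha hsub hF 1 0))
    refine i1.mono' (hc.aestronglyMeasurable.mul hi.aestronglyMeasurable)
      (Eventually.of_forall fun x => ?_)
    rw [norm_mul, Real.norm_eq_abs, Real.norm_eq_abs, abs_of_nonneg (h0 x)]
    have y1 := young (h x) |F x| (h0 x)
    have y2 : exp |F x| ≤ exp (-(-1 : ℝ) * (F x - 0)) + exp (-(1 : ℝ) * (F x - 0)) := by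
      rcases abs_cases (F x) with ⟨h3, _⟩ | ⟨h3, _⟩
      · rw [h3]
        have e1 : -(-1 : ℝ) * (F x - 0) = F x := by ring
        rw [e1]
        linarith [exp_pos (-(1 : ℝ) * (F x - 0))]
      · rw [h3]
        have e1 : -(1 : ℝ) * (F x - 0) = -F x := by ring
        rw [e1]
        linarith [exp_pos (-(-1 : ℝ) * (F x - 0))]
    have y3 := le_abs_self (h x * log (h x))
    have y4 := h0 x
    nlinarith
  have hent : 0 ≤ ∫ x, h x * log (h x) ∂μ := by
    have h2 : ∫ x, (h x - 1) ∂μ ≤ ∫ x, h x * log (h x) ∂μ := by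
      apply integral_mono (hi.sub (integrable_const _)) hl
      intro x
      have := young (h x) 0 (h0 x)
      simp only [mul_zero, exp_zero] at this
      change h x - 1 ≤ h x * log (h x)
      linarith
    rw [integral_sub hi (integrable_const _), h1] at h2
    simpa using h2
  have hCp : 0 < 8 * C0 + 26 := by positivity
  refine opt (by positivity) hent fun t ht => ?_
  have hconc := conc ha hC0 hK hlc hsub hF hconvF ht
  rw [← hm] at hconc
  set c := (8 * C0 + 26) * a ^ 2 * t ^ 2 with hcdef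
  have key : ∀ x, h x * (-t * (F x - m) - c) ≤ h x * log (h x) - h x
      + exp (-c) * exp (-t * (F x - m)) := by
    intro x
    have := young (h x) (-t * (F x - m) - c) (h0 x)
    have e1 : exp (-t * (F x - m) - c) = exp (-c) * exp (-t * (F x - m)) := by
      rw [← exp_add]; congr 1; ring
    rw [e1] at this
    exact this
  have iE := exp_int ha hsub hF t m
  have iL : Integrable (fun x => h x * (-t * (F x - m) - c)) μ := by
    have e1 : (fun x => h x * (-t * (F x - m) - c))
        = fun x => (-t) * (F x * h x) + (t * m - c) * h x := by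
      funext x; ring
    rw [e1]
    exact (hFh.const_mul _).add (hi.const_mul _)
  have h2 : ∫ x, h x * (-t * (F x - m) - c) ∂μ
      ≤ ∫ x, (h x * log (h x) - h x + exp (-c) * exp (-t * (F x - m))) ∂μ :=
    integral_mono iL ((hl.sub hi).add (iE.const_mul _)) key
  have e2 : ∫ x, h x * (-t * (F x - m) - c) ∂μ = -t * (∫ x, F x * h x ∂μ) + (t * m - c) := by
    have e1 : (fun x => h x * (-t * (F x - m) - c))
        = fun x => (-t) * (F x * h x) + (t * m - c) * h x := by
      funext x; ring
    rw [e1, integral_add (hFh.const_mul _) (hi.const_mul _), integral_const_mul,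
      integral_const_mul, h1, mul_one]
  have e3 : ∫ x, (h x * log (h x) - h x + exp (-c) * exp (-t * (F x - m))) ∂μ
      = (∫ x, h x * log (h x) ∂μ) - 1 + exp (-c) * ∫ x, exp (-t * (F x - m)) ∂μ := by
    have c1 : ∫ x, (h x * log (h x) - h x + exp (-c) * exp (-t * (F x - m))) ∂μ
        = ∫ x, (h x * log (h x) - h x) ∂μ + ∫ x, exp (-c) * exp (-t * (F x - m)) ∂μ :=
      integral_add (hl.sub hi) (iE.const_mul _)
    rw [c1, integral_sub hl hi, h1, integral_const_mul]
  have h3 : exp (-c) * ∫ x, exp (-t * (F x - m)) ∂μ ≤ 1 := by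
    have := mul_le_mul_of_nonneg_left hconc (exp_pos (-c)).le
    rw [← exp_add] at this
    simpa using this
  rw [e2, e3] at h2
  have e4 : (√(8 * C0 + 26) * a) ^ 2 * t ^ 2 = c := by
    rw [hcdef, mul_pow, sq_sqrt hCp.le]
  rw [e4]
  linarith

theorem convexOn_infDist {A : Set (EuclideanSpace ℝ (Fin n))} (hA : Convex ℝ A)
    (hne : A.Nonempty) : ConvexOn ℝ univ (fun x => Metric.infDist x A) := by
  refine ⟨convex_univ, fun x _ y _ s t hs ht hst => ?_⟩
  simp only [smul_eq_mul]
  refine le_of_forall_pos_le_add fun e he => ?_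
  obtain ⟨p, hp, hxp⟩ := (Metric.infDist_lt_iff hne).1 (lt_add_of_pos_right (Metric.infDist x A) he)
  obtain ⟨q, hq, hyq⟩ := (Metric.infDist_lt_iff hne).1 (lt_add_of_pos_right (Metric.infDist y A) he)
  have h1 := Metric.infDist_le_dist_of_mem (x := s • x + t • y) (hA hp hq hs ht hst)
  refine h1.trans ?_
  rw [dist_eq_norm] at hxp hyq ⊢
  have e1 : s • x + t • y - (s • p + t • q) = s • (x - p) + t • (y - q) := by
    rw [smul_sub, smul_sub]; abel
  rw [e1]
  calc ‖s • (x - p) + t • (y - q)‖ ≤ ‖s • (x - p)‖ + ‖t • (y - q)‖ := norm_add_le _ _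
    _ = s * ‖x - p‖ + t * ‖y - q‖ := by
        rw [norm_smul, norm_smul, Real.norm_of_nonneg hs, Real.norm_of_nonneg ht]
    _ ≤ s * (Metric.infDist x A + e) + t * (Metric.infDist y A + e) := by
        have := mul_le_mul_of_nonneg_left hxp.le hs
        have := mul_le_mul_of_nonneg_left hyq.le ht
        linarith
    _ = s * Metric.infDist x A + t * Metric.infDist y A + e := by
        have : s * e + t * e = e := by rw [← add_mul, hst, one_mul]
        linarith

/-- mean distance to a convex set -/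
theorem cor_set [IsProbabilityMeasure μ] {a C0 : ℝ} (ha : 0 < a) (hC0 : 0 < C0)
    (hK : KLS C0) (hlc : HasLogConcaveDensity μ) (hsub : LinearlySubgaussian μ a)
    {A : Set (EuclideanSpace ℝ (Fin n))} (hA : Convex ℝ A) (hpos : 0 < μ.real A) :
    ∫ x, Metric.infDist x A ∂μ ≤ 2 * (√(8 * C0 + 26) * a) * √(log (1 / μ.real A)) := by
  have hne : A.Nonempty := by
    rw [Set.nonempty_iff_ne_empty]
    rintro rfl
    simp at hpos
  have hF : LipschitzWith 1 (fun x => Metric.infDist x A) := Metric.lipschitz_infDist_pt A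
  have hc := convexOn_infDist hA hne
  have hle : μ.real A ≤ 1 := measureReal_le_one
  have hlog : 0 ≤ log (1 / μ.real A) := by
    apply log_nonneg
    rw [le_div_iff₀ hpos, one_mul]; exact hle
  have hCp : 0 < 8 * C0 + 26 := by positivity
  set m := ∫ x, Metric.infDist x A ∂μ with hm
  refine opt (by positivity) hlog fun t ht => ?_
  have h1 := conc ha hC0 hK hlc hsub hF hc ht
  rw [← hm] at h1
  have h2 : exp (t * m) * μ.real A ≤ ∫ x, exp (-t * (Metric.infDist x A - m)) ∂μ := by
    have h3 := mul_meas_ge_le_integral_of_nonneg (μ := μ)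
      (f := fun x => exp (-t * (Metric.infDist x A - m)))
      (Eventually.of_forall fun x => (exp_pos _).le) (exp_int ha hsub hF t m) (exp (t * m))
    refine le_trans ?_ h3
    apply mul_le_mul_of_nonneg_left _ (exp_pos _).le
    refine measureReal_mono (fun x hx => ?_) (measure_ne_top _ _)
    change exp (t * m) ≤ exp (-t * (Metric.infDist x A - m))
    rw [Metric.infDist_zero_of_mem hx]
    apply exp_le_exp.2
    linarith
  have h4 := h2.trans h1
  have h5 : t * m + log (μ.real A) ≤ (8 * C0 + 26) * a ^ 2 * t ^ 2 := by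
    have := log_le_log (by positivity) h4
    rwa [log_mul (exp_pos _).ne' hpos.ne', log_exp, log_exp] at this
  have e4 : (√(8 * C0 + 26) * a) ^ 2 * t ^ 2 = (8 * C0 + 26) * a ^ 2 * t ^ 2 := by
    rw [mul_pow, sq_sqrt hCp.le]
  rw [e4, one_div, log_inv]
  linarith

/-- logarithmic Sobolev inequality with the supremum of the gradient, log-concave test functions -/
theorem cor_lsi [IsProbabilityMeasure μ] {a C0 : ℝ} (ha : 0 < a) (hC0 : 0 < C0)
    (hK : KLS C0) (hlc : HasLogConcaveDensity μ) (hsub : LinearlySubgaussian μ a)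
    (hF : LipschitzWith 1 F) (hconvF : ConvexOn ℝ univ F) {t : ℝ} (ht : 0 ≤ t) :
    Entropy μ (fun x => exp (-t * F x))
      ≤ (8 * C0 + 26) * a ^ 2 * t ^ 2 * ∫ x, exp (-t * F x) ∂μ := by
  have h := std_of ha hsub hF
  have h1 : (∫ x, -t * F x ∂(nu μ F t)) - GG μ F t ≤ (8 * C0 + 26) * a ^ 2 * t ^ 2 := by
    have h2 := ent_le h ht le_rfl
    have e2 : log (∫ x, exp (-t * F x) ∂μ) = GG μ F t := rfl
    rw [e2] at h2
    rcases ht.eq_or_lt with h0 | htp
    · rw [← h0] at h2 ⊢
      simp only [zero_mul] at h2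
      have : (8 * C0 + 26) * a ^ 2 * (0 : ℝ) ^ 2 = 0 := by ring
      rw [this]; exact h2
    · have h3 := shift_bound ha hC0 hK hlc hsub hF hconvF htp
      nlinarith
  have h4 := integral_nu (fun x => -t * F x) t h
  have h5 : Entropy μ (fun x => exp (-t * F x))
      = exp (GG μ F t) * ((∫ x, -t * F x ∂(nu μ F t)) - GG μ F t) := by
    unfold Entropy
    simp only [log_exp]
    have e2 : log (∫ x, exp (-t * F x) ∂μ) = GG μ F t := rfl
    rw [e2, h4, ← h.exp_GG, mul_sub, ← mul_assoc, ← exp_add]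
    simp
  rw [h5, ← h.exp_GG, mul_comm]
  exact mul_le_mul_of_nonneg_right h1 (exp_pos _).le

end Vale.Agent.P245.H607
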