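import Vale.Agent.P245.H607.Main

open MeasureTheory Real Set Filter Topology
open scoped ENNReal ContDiff

namespace Vale.Agent.P245.H607

variable {n : ℕ} {μ : Measure (EuclideanSpace ℝ (Fin n))} {F : EuclideanSpace ℝ (Fin n) → ℝ}

theorem std_of [IsProbabilityMeasure μ] {a : ℝ} (ha : 0 < a) (hsub : LinearlySubgaussian μ a)
    (hF : LipschitzWith 1 F) : Std μ F := by
  refine ⟨inferInstance, fun x y => ?_, H767.tilt_int ha hsub hF, H767.tilt_int_sq ha hsub hF⟩
  have h1 := hF.dist_le_mul x y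
  rw [Real.dist_eq, dist_eq_norm, NNReal.coe_one, one_mul] at h1
  exact (le_abs_self _).trans h1

/-- the shift of the mean of a convex function under its own tilt -/
theorem shift_bound [IsProbabilityMeasure μ] {a C0 : ℝ} (ha : 0 < a) (hC0 : 0 < C0) (hK : KLS C0)
    (hlc : HasLogConcaveDensity μ) (hsub : LinearlySubgaussian μ a)
    (hF : LipschitzWith 1 F) (hconvF : ConvexOn ℝ univ F) {t : ℝ} (ht : 0 < t) :
    mm μ F 0 - mm μ F t ≤ (8 * C0 + 26) * a ^ 2 * t := by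
  have h := std_of ha hsub hF
  set D := mm μ F 0 - mm μ F t with hD
  have hD0 : 0 ≤ D := sub_nonneg.2 (mm_anti h ht.le)
  have hcont : Continuous (mm μ F) := H767.continuous_tilted ha hsub hF
  have hinv : Tendsto (fun N : ℕ => t / (N : ℝ)) atTop (𝓝 0) :=
    tendsto_const_div_atTop_nhds_zero_nat t
  have stepA : ∀ A : ℝ, 0 < A → D ≤ (A⁻¹ + 2 * C0 * t * (4 * a ^ 2 + A⁻¹)) / 2
      + 0 + C0 / (2 * (2 * C0)) * (D * exp (0 * D)) + (D / 4 + 13 * a ^ 2 * t) := by
    intro A hA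
    set κ := 2 * a ^ 2 * (t * D + (0.6932 + 0.3466 * n)) + A⁻¹ with hκ
    have l1 : Tendsto (fun N : ℕ => (N : ℝ) * (A / 2 * (t / N * (2 * C0) * κ) ^ 2)) atTop
        (𝓝 0) := by
      have l0 : Tendsto (fun N : ℕ => (A / 2 * (t * (2 * C0) * κ) ^ 2) / (N : ℝ)) atTop (𝓝 0) :=
        tendsto_const_div_atTop_nhds_zero_nat _
      refine l0.congr' ?_
      filter_upwards [eventually_gt_atTop 0] with N hN
      have : (N : ℝ) ≠ 0 := Nat.cast_ne_zero.2 hN.ne'
      field_simp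
    have l2 : Tendsto (fun N : ℕ => mm μ F 0 - mm μ F (t + t / (N : ℝ))) atTop (𝓝 D) := by
      apply tendsto_const_nhds.sub
      have l3 : Tendsto (fun N : ℕ => t + t / (N : ℝ)) atTop (𝓝 t) := by
        simpa using tendsto_const_nhds.add hinv
      exact (hcont.tendsto t).comp l3
    have l4 : Tendsto (fun N : ℕ => exp (t / N * (mm μ F 0 - mm μ F (t + t / N)))) atTop
        (𝓝 (exp (0 * D))) := (continuous_exp.tendsto _).comp (hinv.mul l2)
    have l5 : Tendsto (fun N : ℕ => (A⁻¹ + 2 * C0 * t * (4 * a ^ 2 + A⁻¹)) / 2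
      + (N : ℝ) * (A / 2 * (t / N * (2 * C0) * κ) ^ 2)
      + C0 / (2 * (2 * C0)) * ((mm μ F 0 - mm μ F (t + t / N))
        * exp (t / N * (mm μ F 0 - mm μ F (t + t / N))))
      + (D / 4 + 13 * a ^ 2 * t)) atTop (𝓝 ((A⁻¹ + 2 * C0 * t * (4 * a ^ 2 + A⁻¹)) / 2
      + 0 + C0 / (2 * (2 * C0)) * (D * exp (0 * D)) + (D / 4 + 13 * a ^ 2 * t))) :=
      (((tendsto_const_nhds.add l1).add ((l2.mul l4).const_mul _)).add tendsto_const_nhds)
    refine ge_of_tendsto l5 ?_
    filter_upwards [eventually_gt_atTop 0] with N hN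
    exact ineqN ha hC0 hK hlc hsub hF h hconvF hA ht hN
  have h2 : C0 / (2 * (2 * C0)) = 1 / 4 := by field_simp; norm_num
  have h3 : ∀ δ : ℝ, 0 < δ → D ≤ ((8 * C0 + 26) * a ^ 2 * t) + δ * (1 + 2 * C0 * t) := by
    intro δ hδ
    have := stepA δ⁻¹ (inv_pos.2 hδ)
    rw [inv_inv, h2, zero_mul, exp_zero] at this
    linarith
  have hpos : 0 < 1 + 2 * C0 * t := by positivity
  refine le_of_forall_pos_le_add fun e he => ?_
  have := h3 (e / (1 + 2 * C0 * t)) (by positivity)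
  rwa [div_mul_cancel₀ _ hpos.ne'] at this

/-- sub-Gaussian exponential moments of concave functions -/
theorem conc [IsProbabilityMeasure μ] {a C0 : ℝ} (ha : 0 < a) (hC0 : 0 < C0) (hK : KLS C0)
    (hlc : HasLogConcaveDensity μ) (hsub : LinearlySubgaussian μ a)
    (hF : LipschitzWith 1 F) (hconvF : ConvexOn ℝ univ F) {t : ℝ} (ht : 0 ≤ t) :
    ∫ x, exp (-t * (F x - ∫ y, F y ∂μ)) ∂μ ≤ exp ((8 * C0 + 26) * a ^ 2 * t ^ 2) := by
  have h := std_of ha hsub hF
  have hm0 : mm μ F 0 = ∫ y, F y ∂μ := by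
    unfold mm nu
    simp
  have e1 : ∫ x, exp (-t * (F x - ∫ y, F y ∂μ)) ∂μ = exp (GG μ F t + t * mm μ F 0) := by
    rw [exp_add, h.exp_GG, ← hm0, ← integral_mul_const]
    apply integral_congr_ae
    refine Eventually.of_forall fun x => ?_
    simp only
    rw [← exp_add]
    congr 1; ring
  rw [e1]
  apply exp_le_exp.2
  rcases ht.eq_or_lt with h0 | htp
  · rw [← h0, GG_zero h]; simp
  · have h1 := tangent h t 0
    rw [GG_zero h] at h1
    have h2 := shift_bound ha hC0 hK hlc hsub hF hconvF htp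
    nlinarith

end Vale.Agent.P245.H607
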