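import Vale.Agent.P245.H607.OneStep

open MeasureTheory Real Set Filter Topology
open scoped ENNReal ContDiff

namespace Vale.Agent.P245.H607

variable {n : ℕ} {μ : Measure (EuclideanSpace ℝ (Fin n))} {F : EuclideanSpace ℝ (Fin n) → ℝ}

/-- second differences of the log-Laplace transform -/
noncomputable def dd (μ : Measure (EuclideanSpace ℝ (Fin n))) (F : EuclideanSpace ℝ (Fin n) → ℝ)
    (r : ℝ) (i : ℕ) : ℝ :=
  GG μ F (i * r + 2 * r) - 2 * GG μ F (i * r + r) + GG μ F (i * r)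

theorem dd_nonneg (h : Std μ F) (r : ℝ) (i : ℕ) : 0 ≤ dd μ F r i := by
  have h1 := tangent h (i * r + r) (i * r + 2 * r)
  have h2 := tangent h (i * r + r) (i * r)
  unfold dd
  have e1 : (i * r + 2 * r - (i * r + r)) = r := by ring
  have e2 : (i * r - (i * r + r)) = -r := by ring
  rw [e1] at h1
  rw [e2] at h2
  linarith

theorem dd_sum (N : ℕ) (r : ℝ) : ∑ i ∈ Finset.range N, dd μ F r i
    = (GG μ F (N * r + r) - GG μ F (N * r)) - (GG μ F r - GG μ F 0) := by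
  induction N with
  | zero => simp
  | succ N ih =>
    rw [Finset.sum_range_succ, ih]
    unfold dd
    have e1 : ((N + 1 : ℕ) : ℝ) * r + r = N * r + 2 * r := by push_cast; ring
    have e2 : ((N + 1 : ℕ) : ℝ) * r = N * r + r := by push_cast; ring
    rw [e1, e2]
    ring

theorem dd_sum_exp (h : Std μ F) (N : ℕ) {r : ℝ} (hr : 0 ≤ r) :
    ∑ i ∈ Finset.range N, (exp (dd μ F r i) - 1)
      ≤ r * (mm μ F 0 - mm μ F (N * r + r)) * exp (r * (mm μ F 0 - mm μ F (N * r + r))) := by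
  set D := mm μ F 0 - mm μ F (N * r + r) with hD
  have hs : ∑ i ∈ Finset.range N, dd μ F r i ≤ r * D := by
    rw [dd_sum]
    have h1 := tangent h (N * r + r) (N * r)
    have h2 := tangent h 0 r
    have e1 : (N * r - (N * r + r)) = -r := by ring
    rw [e1] at h1
    rw [sub_zero] at h2
    rw [hD]
    linarith
  have h1 : ∀ i ∈ Finset.range N, exp (dd μ F r i) - 1 ≤ dd μ F r i * exp (r * D) := by
    intro i hi
    have h2 : dd μ F r i ≤ r * D :=
      (Finset.single_le_sum (fun j _ => dd_nonneg h r j) hi).trans hs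
    have h3 : 0 ≤ dd μ F r i := dd_nonneg h r i
    have h4 := Real.add_one_le_exp (-(dd μ F r i))
    have h5 : exp (dd μ F r i) * exp (-(dd μ F r i)) = 1 := by rw [← exp_add]; simp
    have h6 : exp (dd μ F r i) - 1 ≤ dd μ F r i * exp (dd μ F r i) := by
      nlinarith [exp_pos (dd μ F r i)]
    refine h6.trans (mul_le_mul_of_nonneg_left (exp_le_exp.2 h2) h3)
  calc ∑ i ∈ Finset.range N, (exp (dd μ F r i) - 1)
      ≤ ∑ i ∈ Finset.range N, dd μ F r i * exp (r * D) := Finset.sum_le_sum h1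
    _ = (∑ i ∈ Finset.range N, dd μ F r i) * exp (r * D) := by rw [Finset.sum_mul]
    _ ≤ r * D * exp (r * D) := mul_le_mul_of_nonneg_right hs (exp_pos _).le

/-- the operators of the scheme -/
noncomputable def TS (A τ ε : ℝ) (N : ℕ)
    (Kop : ℕ → (EuclideanSpace ℝ (Fin n) →L[ℝ] EuclideanSpace ℝ (Fin n))) :
    ℕ → (EuclideanSpace ℝ (Fin n) →L[ℝ] EuclideanSpace ℝ (Fin n))
  | 0 => (A⁻¹ : ℝ) • ContinuousLinearMap.id ℝ _
  | k + 1 => τ • (Kop (N - 1 - k) + ε • ContinuousLinearMap.id ℝ _)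

section

variable {A τ ε : ℝ} {N : ℕ} {Kop : ℕ → (EuclideanSpace ℝ (Fin n) →L[ℝ] EuclideanSpace ℝ (Fin n))}

theorem TS_succ_inner (k : ℕ) (w : EuclideanSpace ℝ (Fin n)) :
    inner ℝ (TS A τ ε N Kop (k + 1) w) w
      = τ * (inner ℝ (Kop (N - 1 - k) w) w + ε * ‖w‖ ^ 2) := by
  change inner ℝ (τ • (Kop (N - 1 - k) w + ε • w)) w = _
  rw [inner_smul_left, inner_add_left, inner_smul_left, real_inner_self_eq_norm_sq]
  simp

theorem TS_zero_inner (w : EuclideanSpace ℝ (Fin n)) :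
    inner ℝ (TS A τ ε N Kop 0 w) w = A⁻¹ * ‖w‖ ^ 2 := by
  change inner ℝ ((A⁻¹ : ℝ) • w) w = _
  rw [inner_smul_left, real_inner_self_eq_norm_sq]
  simp

theorem TS_coer (hA : 0 < A) (hτ : 0 < τ) (hε : 0 < ε) (hK0 : ∀ i, ∀ w, 0 ≤ inner ℝ (Kop i w) w)
    (k : ℕ) : ∃ e, 0 < e ∧ ∀ w, e * ‖w‖ ^ 2 ≤ inner ℝ (TS A τ ε N Kop k w) w := by
  cases k with
  | zero =>
    refine ⟨A⁻¹, inv_pos.2 hA, fun w => ?_⟩
    rw [TS_zero_inner]
  | succ k =>
    refine ⟨τ * ε, mul_pos hτ hε, fun w => ?_⟩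
    rw [TS_succ_inner]
    have := mul_nonneg hτ.le (hK0 (N - 1 - k) w)
    nlinarith

theorem TS_symm (hKs : ∀ i, ∀ w w', inner ℝ (Kop i w) w' = inner ℝ w (Kop i w'))
    (k : ℕ) (w w' : EuclideanSpace ℝ (Fin n)) :
    inner ℝ (TS A τ ε N Kop k w) w' = inner ℝ w (TS A τ ε N Kop k w') := by
  cases k with
  | zero =>
    change inner ℝ ((A⁻¹ : ℝ) • w) w' = inner ℝ w ((A⁻¹ : ℝ) • w')
    rw [inner_smul_left, inner_smul_right]; simp
  | succ k =>
    change inner ℝ (τ • (Kop (N - 1 - k) w + ε • w)) w'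
      = inner ℝ w (τ • (Kop (N - 1 - k) w' + ε • w'))
    rw [inner_smul_left, inner_smul_right, inner_add_left, inner_add_right, hKs,
      inner_smul_left, inner_smul_right]
    simp

end

/-- telescoping -/
theorem tele (h : Std μ F) {A : ℝ} (hA : 0 < A) {v : EuclideanSpace ℝ (Fin n) → ℝ}
    (hconv : ConvexOn ℝ univ v) (hlip : ∀ x y, v x - v y ≤ ‖x - y‖)
    {r C0 τ ε κ : ℝ} (hC0 : 0 < C0) (hτ : 0 < τ) (hε : 0 < ε) (hκ : 0 ≤ κ) (N : ℕ)
    (Kop : ℕ → (EuclideanSpace ℝ (Fin n) →L[ℝ] EuclideanSpace ℝ (Fin n)))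
    (hK0 : ∀ i, ∀ w, 0 ≤ inner ℝ (Kop i w) w)
    (hKκ : ∀ i, i < N → ∀ w, ‖Kop i w‖ ≤ κ * ‖w‖)
    (hP : ∀ i, i < N → ∀ u : EuclideanSpace ℝ (Fin n) → ℝ, UA A u →
      (∫ x, u x ^ 2 ∂(nu μ F (i * r))) - (∫ x, u x ∂(nu μ F (i * r))) ^ 2
      ≤ C0 * ∫ x, inner ℝ (Kop i (gradient u x)) (gradient u x) ∂(nu μ F (i * r))) :
    ∫ x, U (TS A τ ε N Kop) v (N + 1) x ∂(nu μ F 0) - ∫ x, v x ∂(nu μ F (N * r))
      ≤ N * (A / 2 * (τ * (κ + ε)) ^ 2)
        + C0 / (2 * τ) * ∑ i ∈ Finset.range N, (exp (dd μ F r i) - 1) := by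
  have hTc := TS_coer (N := N) (Kop := Kop) hA hτ hε hK0
  have key : ∀ k, k ≤ N → ∫ x, U (TS A τ ε N Kop) v (k + 1) x ∂(nu μ F (((N - k : ℕ) : ℝ) * r))
      - ∫ x, v x ∂(nu μ F (N * r))
      ≤ k * (A / 2 * (τ * (κ + ε)) ^ 2)
        + C0 / (2 * τ) * ∑ j ∈ Finset.range k, (exp (dd μ F r (N - 1 - j)) - 1) := by
    intro k
    induction k with
    | zero =>
      intro _
      simp only [Nat.sub_zero, Nat.cast_zero, zero_mul, Finset.range_zero, Finset.sum_empty,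
        mul_zero, add_zero]
      rw [sub_nonpos]
      apply integral_mono (integrable_lip h _ (U_lip hlip hTc _)) (integrable_lip h _ hlip)
      intro x
      exact U_le hlip hTc _ x
    | succ k ih =>
      intro hk
      have ih' := ih (by omega)
      have hi : N - 1 - k < N := by omega
      have hUA := U_UA (TT := TS A τ ε N Kop) hA hconv hlip hTc rfl k
      have h1 := one_step h hA.le hUA (s := ((N - 1 - k : ℕ) : ℝ) * r) (r := r) (κ := κ) hC0 hτ hε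
        (Kop (N - 1 - k)) (hK0 _) (hKκ _ hi) hκ (hP _ hi _ hUA)
      have e1 : ((N - 1 - k : ℕ) : ℝ) * r + r = ((N - k : ℕ) : ℝ) * r := by
        have : (N - k : ℕ) = (N - 1 - k) + 1 := by omega
        rw [this]; push_cast; ring
      have e2 : (N - (k + 1) : ℕ) = N - 1 - k := by omega
      have e3 : exp (GG μ F (((N - 1 - k : ℕ) : ℝ) * r + 2 * r)
          - 2 * GG μ F (((N - 1 - k : ℕ) : ℝ) * r + r) + GG μ F (((N - 1 - k : ℕ) : ℝ) * r))
          = exp (dd μ F r (N - 1 - k)) := rfl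
      rw [e3, e1] at h1
      rw [e2, Finset.sum_range_succ]
      have e4 : U (TS A τ ε N Kop) v (k + 1 + 1)
          = step (τ • (Kop (N - 1 - k) + ε • ContinuousLinearMap.id ℝ _))
            (U (TS A τ ε N Kop) v (k + 1)) := rfl
      rw [e4]
      push_cast
      nlinarith
  have h1 := key N le_rfl
  simp only [Nat.sub_self, Nat.cast_zero, zero_mul] at h1
  rw [Finset.sum_range_reflect (fun i => exp (dd μ F r i) - 1) N] at h1
  exact h1

end Vale.Agent.P245.H607
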