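import Mathlib
import Vale.Agent.P245.Defs

open MeasureTheory Real Set Filter Topology
open scoped ENNReal ContDiff

namespace Vale.Agent.P245.H607

variable {n : ℕ}

/-- the tilted laws -/
noncomputable def nu (μ : Measure (EuclideanSpace ℝ (Fin n))) (F : EuclideanSpace ℝ (Fin n) → ℝ)
    (s : ℝ) : Measure (EuclideanSpace ℝ (Fin n)) :=
  μ.tilted fun x => -s * F x

/-- the log-Laplace transform -/
noncomputable def GG (μ : Measure (EuclideanSpace ℝ (Fin n))) (F : EuclideanSpace ℝ (Fin n) → ℝ)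
    (s : ℝ) : ℝ :=
  Real.log (∫ x, exp (-s * F x) ∂μ)

/-- the mean of `F` -/
noncomputable def mm (μ : Measure (EuclideanSpace ℝ (Fin n))) (F : EuclideanSpace ℝ (Fin n) → ℝ)
    (s : ℝ) : ℝ :=
  ∫ x, F x ∂(nu μ F s)

/-- the standing hypotheses -/
structure Std (μ : Measure (EuclideanSpace ℝ (Fin n))) (F : EuclideanSpace ℝ (Fin n) → ℝ) : Prop where
  prob : IsProbabilityMeasure μ
  lip : ∀ x y, F x - F y ≤ ‖x - y‖
  int0 : ∀ s : ℝ, Integrable (fun x => exp (-s * F x)) μ
  int2 : ∀ s : ℝ, Integrable (fun x => ‖x‖ ^ 2 * exp (-s * F x)) μ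

variable {μ : Measure (EuclideanSpace ℝ (Fin n))} {F : EuclideanSpace ℝ (Fin n) → ℝ}

theorem lipschitz_of {u : EuclideanSpace ℝ (Fin n) → ℝ} (h : ∀ x y, u x - u y ≤ ‖x - y‖) :
    LipschitzWith 1 u := by
  apply LipschitzWith.of_dist_le_mul
  intro x y
  rw [Real.dist_eq, dist_eq_norm, NNReal.coe_one, one_mul, abs_le]
  constructor
  · have := h y x
    rw [norm_sub_rev] at this
    linarith
  · exact h x y

theorem lip_bound {u : EuclideanSpace ℝ (Fin n) → ℝ} (h : ∀ x y, u x - u y ≤ ‖x - y‖)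
    (x : EuclideanSpace ℝ (Fin n)) : |u x| ≤ |u 0| + ‖x‖ := by
  have h1 := h x 0
  have h2 := h 0 x
  rw [sub_zero] at h1
  rw [zero_sub, norm_neg] at h2
  rw [abs_le]
  constructor
  · have := neg_abs_le (u 0); linarith
  · have := le_abs_self (u 0); linarith

theorem Std.prob_nu (h : Std μ F) (s : ℝ) : IsProbabilityMeasure (nu μ F s) := by
  have := h.prob
  exact isProbabilityMeasure_tilted (h.int0 s)

theorem Std.pos (h : Std μ F) (s : ℝ) : 0 < ∫ x, exp (-s * F x) ∂μ := by
  have := h.prob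
  exact integral_exp_pos (h.int0 s)

theorem Std.exp_GG (h : Std μ F) (s : ℝ) : exp (GG μ F s) = ∫ x, exp (-s * F x) ∂μ := by
  unfold GG
  rw [exp_log (h.pos s)]

theorem integral_nu (g : EuclideanSpace ℝ (Fin n) → ℝ) (s : ℝ) (h : Std μ F) :
    ∫ x, g x ∂(nu μ F s) = exp (-GG μ F s) * ∫ x, exp (-s * F x) * g x ∂μ := by
  unfold nu
  rw [integral_tilted, ← integral_const_mul]
  apply integral_congr_ae
  refine Eventually.of_forall fun x => ?_
  simp only [smul_eq_mul]
  rw [exp_neg, h.exp_GG]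
  field_simp

theorem integrable_nu_iff (g : EuclideanSpace ℝ (Fin n) → ℝ) (s : ℝ) (h : Std μ F) :
    Integrable g (nu μ F s) ↔ Integrable (fun x => exp (-s * F x) * g x) μ := by
  unfold nu
  rw [integrable_tilted_iff (f := fun x => -s * F x) (h.int0 s)]
  simp only [smul_eq_mul]

theorem Std.cont (h : Std μ F) : Continuous F := (lipschitz_of h.lip).continuous

theorem integrable_quad (h : Std μ F) (s : ℝ) {g : EuclideanSpace ℝ (Fin n) → ℝ}
    (hg : AEStronglyMeasurable g μ) {c : ℝ} (hc : ∀ x, |g x| ≤ c * (1 + ‖x‖ ^ 2)) :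
    Integrable g (nu μ F s) := by
  rw [integrable_nu_iff g s h]
  have h1 : Integrable (fun x => c * (exp (-s * F x) + ‖x‖ ^ 2 * exp (-s * F x))) μ :=
    ((h.int0 s).add (h.int2 s)).const_mul c
  refine h1.mono' ?_ (Eventually.of_forall fun x => ?_)
  · have := h.cont
    exact (by fun_prop : Continuous fun x => exp (-s * F x)).aestronglyMeasurable.mul hg
  · rw [norm_mul, Real.norm_of_nonneg (exp_pos _).le, Real.norm_eq_abs]
    have := hc x
    have h2 := exp_pos (-s * F x)
    nlinarith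

theorem integrable_lip (h : Std μ F) (s : ℝ) {u : EuclideanSpace ℝ (Fin n) → ℝ}
    (hu : ∀ x y, u x - u y ≤ ‖x - y‖) : Integrable u (nu μ F s) := by
  apply integrable_quad h s (lipschitz_of hu).continuous.aestronglyMeasurable (c := |u 0| + 1)
  intro x
  have h1 := lip_bound hu x
  have h2 : ‖x‖ ≤ 1 + ‖x‖ ^ 2 := by nlinarith [sq_nonneg (‖x‖ - 1)]
  have h3 := abs_nonneg (u 0)
  nlinarith [sq_nonneg ‖x‖]

theorem integrable_lip_sq (h : Std μ F) (s : ℝ) {u : EuclideanSpace ℝ (Fin n) → ℝ}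
    (hu : ∀ x y, u x - u y ≤ ‖x - y‖) : Integrable (fun x => u x ^ 2) (nu μ F s) := by
  have hc := (lipschitz_of hu).continuous
  apply integrable_quad h s (by fun_prop : Continuous fun x => u x ^ 2).aestronglyMeasurable
    (c := 2 * (|u 0| ^ 2 + 1))
  intro x
  have h1 := lip_bound hu x
  have h3 := abs_nonneg (u 0)
  have h4 : |u x ^ 2| = |u x| ^ 2 := by rw [abs_pow]
  rw [h4]
  have h5 : |u x| ^ 2 ≤ (|u 0| + ‖x‖) ^ 2 := pow_le_pow_left₀ (abs_nonneg _) h1 2
  nlinarith [sq_nonneg (|u 0| - ‖x‖), sq_nonneg (|u 0| * ‖x‖), sq_nonneg ‖x‖]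

/-- change of the tilt -/
theorem integral_shift (h : Std μ F) (s r : ℝ) (g : EuclideanSpace ℝ (Fin n) → ℝ) :
    ∫ x, exp (-r * F x) * g x ∂(nu μ F s)
      = exp (GG μ F (s + r) - GG μ F s) * ∫ x, g x ∂(nu μ F (s + r)) := by
  rw [integral_nu _ _ h, integral_nu _ _ h, exp_sub, ← mul_assoc]
  have e1 : exp (GG μ F (s + r)) / exp (GG μ F s) * exp (-GG μ F (s + r))
      = exp (-GG μ F s) := by
    rw [exp_neg, exp_neg]; field_simp
  rw [e1]
  congr 1
  apply integral_congr_ae
  refine Eventually.of_forall fun x => ?_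
  simp only
  rw [← mul_assoc, ← exp_add]
  congr 2; ring

theorem integrable_shift (h : Std μ F) (s r : ℝ) {g : EuclideanSpace ℝ (Fin n) → ℝ}
    (hg : Integrable g (nu μ F (s + r))) :
    Integrable (fun x => exp (-r * F x) * g x) (nu μ F s) := by
  rw [integrable_nu_iff _ _ h] at hg ⊢
  refine hg.congr (Eventually.of_forall fun x => ?_)
  simp only
  rw [← mul_assoc, ← exp_add]
  congr 2; ring

theorem integral_exp_shift (h : Std μ F) (s r : ℝ) :
    ∫ x, exp (-r * F x) ∂(nu μ F s) = exp (GG μ F (s + r) - GG μ F s) := by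
  have := h.prob_nu (s + r)
  have h1 := integral_shift h s r (fun _ => 1)
  simpa using h1

theorem integrable_exp_shift (h : Std μ F) (s r : ℝ) :
    Integrable (fun x => exp (-r * F x)) (nu μ F s) := by
  have := h.prob_nu (s + r)
  have h1 := integrable_shift h s r (g := fun _ => 1) (integrable_const _)
  simpa using h1

theorem GG_zero (h : Std μ F) : GG μ F 0 = 0 := by
  have := h.prob
  unfold GG; simp

/-- tangent inequality (Jensen) -/
theorem tangent (h : Std μ F) (s t : ℝ) :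
    GG μ F s - (t - s) * mm μ F s ≤ GG μ F t := by
  have hp := h.prob_nu s
  have h1 : exp (∫ x, -(t - s) * F x ∂(nu μ F s)) ≤ ∫ x, exp (-(t - s) * F x) ∂(nu μ F s) := by
    have := ConvexOn.map_integral_le (μ := nu μ F s) (g := exp) (s := univ)
      (f := fun x => -(t - s) * F x) convexOn_exp continuous_exp.continuousOn isClosed_univ
      (by simp) ((integrable_lip h s h.lip).const_mul _) (by
        exact integrable_exp_shift h s (t - s))
    exact this
  rw [integral_exp_shift h, exp_le_exp, integral_const_mul] at h1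
  have e : s + (t - s) = t := by ring
  rw [e] at h1
  unfold mm
  linarith

theorem mm_anti (h : Std μ F) {s t : ℝ} (hst : s ≤ t) : mm μ F t ≤ mm μ F s := by
  rcases hst.eq_or_lt with h0 | hlt
  · rw [h0]
  have h1 := tangent h s t
  have h2 := tangent h t s
  have h3 : 0 < t - s := by linarith
  by_contra hcon
  push Not at hcon
  nlinarith

end Vale.Agent.P245.H607
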