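import Vale.Agent.P245.H607.InfC
import Vale.Agent.P245.H607.TiltB

open MeasureTheory Real Set Filter Topology
open scoped ENNReal ContDiff

namespace Vale.Agent.P245.H607

variable {n : ℕ} {μ : Measure (EuclideanSpace ℝ (Fin n))} {F : EuclideanSpace ℝ (Fin n) → ℝ}

/-- change of measure against Poincare -/
theorem shift_le (h : Std μ F) {u : EuclideanSpace ℝ (Fin n) → ℝ}
    (hu : ∀ x y, u x - u y ≤ ‖x - y‖) {s r θ : ℝ} (hθ : 0 < θ) :
    ∫ x, u x ∂(nu μ F s) - ∫ x, u x ∂(nu μ F (s + r))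
      ≤ θ / 2 * ((∫ x, u x ^ 2 ∂(nu μ F s)) - (∫ x, u x ∂(nu μ F s)) ^ 2)
        + 1 / (2 * θ) * (exp (GG μ F (s + 2 * r) - 2 * GG μ F (s + r) + GG μ F s) - 1) := by
  have hp := h.prob_nu s
  set ν := nu μ F s with hν
  set m0 := ∫ x, u x ∂ν with hm0
  set c := exp (-(GG μ F (s + r) - GG μ F s)) with hc
  set R : EuclideanSpace ℝ (Fin n) → ℝ := fun x => c * exp (-r * F x) with hR
  have hcc : c * exp (GG μ F (s + r) - GG μ F s) = 1 := by
    rw [hc, ← exp_add]; simp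
  have iR : Integrable R ν := (integrable_exp_shift h s r).const_mul c
  have iR1 : ∫ x, R x ∂ν = 1 := by
    rw [hR, integral_const_mul, integral_exp_shift h, hcc]
  have iuR : Integrable (fun x => u x * R x) ν := by
    have h1 := (integrable_shift h s r (integrable_lip h (s + r) hu)).const_mul c
    refine h1.congr (Eventually.of_forall fun x => ?_)
    simp only [hR]; ring
  have iuR1 : ∫ x, u x * R x ∂ν = ∫ x, u x ∂(nu μ F (s + r)) := by
    have h1 := integral_shift h s r u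
    have h2 : ∫ x, u x * R x ∂ν = c * ∫ x, exp (-r * F x) * u x ∂ν := by
      rw [← integral_const_mul]
      apply integral_congr_ae
      refine Eventually.of_forall fun x => ?_
      simp only [hR]; ring
    rw [h2, h1, ← mul_assoc, hcc, one_mul]
  have e2 : ∀ x, R x ^ 2 = c ^ 2 * exp (-(2 * r) * F x) := by
    intro x
    have h1 : exp (-r * F x) ^ 2 = exp (-(2 * r) * F x) := by
      rw [← exp_nat_mul]; congr 1; push_cast; ring
    simp only [hR]
    rw [mul_pow, h1]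
  have iR2 : Integrable (fun x => R x ^ 2) ν := by
    simp_rw [e2]
    exact (integrable_exp_shift h s (2 * r)).const_mul _
  have iR21 : ∫ x, R x ^ 2 ∂ν
      = exp (GG μ F (s + 2 * r) - 2 * GG μ F (s + r) + GG μ F s) := by
    simp_rw [e2]
    rw [integral_const_mul, integral_exp_shift h, hc, ← exp_nat_mul, ← exp_add]
    congr 1; push_cast; ring
  have iu : Integrable u ν := integrable_lip h s hu
  have iu2 : Integrable (fun x => u x ^ 2) ν := integrable_lip_sq h s hu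
  have key : ∀ x, u x - u x * R x ≤ m0 * (1 - R x)
      + θ / 2 * (u x ^ 2 - 2 * m0 * u x + m0 ^ 2)
      + 1 / (2 * θ) * (1 - 2 * R x + R x ^ 2) := by
    intro x
    have h1 : 0 ≤ θ / 2 * ((u x - m0) - (1 - R x) / θ) ^ 2 := by positivity
    have h2 : θ / 2 * ((u x - m0) - (1 - R x) / θ) ^ 2
        = θ / 2 * (u x ^ 2 - 2 * m0 * u x + m0 ^ 2) + 1 / (2 * θ) * (1 - 2 * R x + R x ^ 2)
          - (u x - m0) * (1 - R x) := by
      field_simp
      ring
    linarith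
  have iRHS : Integrable (fun x => m0 * (1 - R x)
      + θ / 2 * (u x ^ 2 - 2 * m0 * u x + m0 ^ 2)
      + 1 / (2 * θ) * (1 - 2 * R x + R x ^ 2)) ν := by
    refine (Integrable.add (Integrable.add ?_ ?_) ?_)
    · exact ((integrable_const _).sub iR).const_mul _
    · exact (((iu2.sub (iu.const_mul (2 * m0)))).add (integrable_const _)).const_mul _
    · exact (((integrable_const _).sub (iR.const_mul 2)).add iR2).const_mul _
  have h1 : ∫ x, (u x - u x * R x) ∂ν ≤ ∫ x, (m0 * (1 - R x)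
      + θ / 2 * (u x ^ 2 - 2 * m0 * u x + m0 ^ 2)
      + 1 / (2 * θ) * (1 - 2 * R x + R x ^ 2)) ∂ν :=
    integral_mono (iu.sub iuR) iRHS key
  rw [integral_sub iu iuR, iuR1] at h1
  have h2 : ∫ x, (m0 * (1 - R x)
      + θ / 2 * (u x ^ 2 - 2 * m0 * u x + m0 ^ 2)
      + 1 / (2 * θ) * (1 - 2 * R x + R x ^ 2)) ∂ν
      = θ / 2 * ((∫ x, u x ^ 2 ∂ν) - m0 ^ 2)
        + 1 / (2 * θ) * ((∫ x, R x ^ 2 ∂ν) - 1) := by
    have a1 : Integrable (fun x => m0 * (1 - R x)) ν := ((integrable_const _).sub iR).const_mul _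
    have a2 : Integrable (fun x => θ / 2 * (u x ^ 2 - 2 * m0 * u x + m0 ^ 2)) ν :=
      (((iu2.sub (iu.const_mul (2 * m0)))).add (integrable_const _)).const_mul _
    have a3 : Integrable (fun x => 1 / (2 * θ) * (1 - 2 * R x + R x ^ 2)) ν :=
      (((integrable_const _).sub (iR.const_mul 2)).add iR2).const_mul _
    have b1 : ∫ x, m0 * (1 - R x) ∂ν = 0 := by
      rw [integral_const_mul, integral_sub (integrable_const _) iR, iR1]
      simp
    have b2 : ∫ x, θ / 2 * (u x ^ 2 - 2 * m0 * u x + m0 ^ 2) ∂ν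
        = θ / 2 * ((∫ x, u x ^ 2 ∂ν) - m0 ^ 2) := by
      rw [integral_const_mul]
      have : ∫ x, (u x ^ 2 - 2 * m0 * u x + m0 ^ 2) ∂ν = (∫ x, u x ^ 2 ∂ν) - m0 ^ 2 := by
        have c1 : ∫ x, (u x ^ 2 - 2 * m0 * u x + m0 ^ 2) ∂ν
            = ∫ x, (u x ^ 2 - 2 * m0 * u x) ∂ν + ∫ _x, m0 ^ 2 ∂ν :=
          integral_add (iu2.sub (iu.const_mul (2 * m0))) (integrable_const _)
        have c2 : ∫ x, (u x ^ 2 - 2 * m0 * u x) ∂ν = (∫ x, u x ^ 2 ∂ν) - 2 * m0 * m0 := by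
          rw [integral_sub iu2 (iu.const_mul (2 * m0)), integral_const_mul]
        rw [c1, c2, integral_const]
        simp
        ring
      rw [this]
    have b3 : ∫ x, 1 / (2 * θ) * (1 - 2 * R x + R x ^ 2) ∂ν
        = 1 / (2 * θ) * ((∫ x, R x ^ 2 ∂ν) - 1) := by
      rw [integral_const_mul]
      have : ∫ x, (1 - 2 * R x + R x ^ 2) ∂ν = (∫ x, R x ^ 2 ∂ν) - 1 := by
        have c1 : ∫ x, (1 - 2 * R x + R x ^ 2) ∂ν
            = ∫ x, (1 - 2 * R x) ∂ν + ∫ x, R x ^ 2 ∂ν :=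
          integral_add ((integrable_const _).sub (iR.const_mul 2)) iR2
        have c2 : ∫ x, (1 - 2 * R x) ∂ν = 1 - 2 := by
          rw [integral_sub (integrable_const _) (iR.const_mul 2), integral_const_mul, iR1]
          simp
        rw [c1, c2]
        ring
      rw [this]
    have d1 : ∫ x, (m0 * (1 - R x)
      + θ / 2 * (u x ^ 2 - 2 * m0 * u x + m0 ^ 2)
      + 1 / (2 * θ) * (1 - 2 * R x + R x ^ 2)) ∂ν
      = ∫ x, (m0 * (1 - R x) + θ / 2 * (u x ^ 2 - 2 * m0 * u x + m0 ^ 2)) ∂ν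
        + ∫ x, 1 / (2 * θ) * (1 - 2 * R x + R x ^ 2) ∂ν := integral_add (a1.add a2) a3
    have d2 : ∫ x, (m0 * (1 - R x) + θ / 2 * (u x ^ 2 - 2 * m0 * u x + m0 ^ 2)) ∂ν
      = ∫ x, m0 * (1 - R x) ∂ν + ∫ x, θ / 2 * (u x ^ 2 - 2 * m0 * u x + m0 ^ 2) ∂ν :=
      integral_add a1 a2
    rw [d1, d2, b1, b2, b3]
    ring
  rw [h2, iR21] at h1
  exact h1

/-- one step -/
theorem one_step (h : Std μ F) {A : ℝ} (hA : 0 ≤ A) {u : EuclideanSpace ℝ (Fin n) → ℝ}
    (hu : UA A u) {s r C0 τ ε κ : ℝ} (hC0 : 0 < C0) (hτ : 0 < τ) (hε : 0 < ε)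
    (Kop : EuclideanSpace ℝ (Fin n) →L[ℝ] EuclideanSpace ℝ (Fin n))
    (hK0 : ∀ w, 0 ≤ inner ℝ (Kop w) w) (hKκ : ∀ w, ‖Kop w‖ ≤ κ * ‖w‖) (hκ : 0 ≤ κ)
    (hP : (∫ x, u x ^ 2 ∂(nu μ F s)) - (∫ x, u x ∂(nu μ F s)) ^ 2
      ≤ C0 * ∫ x, inner ℝ (Kop (gradient u x)) (gradient u x) ∂(nu μ F s)) :
    ∫ x, step (τ • (Kop + ε • ContinuousLinearMap.id ℝ _)) u x ∂(nu μ F s)
        - ∫ x, u x ∂(nu μ F (s + r))
      ≤ A / 2 * (τ * (κ + ε)) ^ 2
        + C0 / (2 * τ) * (exp (GG μ F (s + 2 * r) - 2 * GG μ F (s + r) + GG μ F s) - 1) := by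
  have hp := h.prob_nu s
  set ν := nu μ F s with hν
  set T := τ • (Kop + ε • ContinuousLinearMap.id ℝ (EuclideanSpace ℝ (Fin n))) with hT
  have hTw : ∀ w, T w = τ • (Kop w + ε • w) := fun w => by
    rw [hT]; rfl
  have hTin : ∀ w, inner ℝ (T w) w = τ * (inner ℝ (Kop w) w + ε * ‖w‖ ^ 2) := by
    intro w
    rw [hTw, inner_smul_left, inner_add_left, inner_smul_left, real_inner_self_eq_norm_sq]
    simp
  have hT1 : ∀ w, τ * ε * ‖w‖ ^ 2 ≤ inner ℝ (T w) w := by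
    intro w
    rw [hTin]
    have := mul_nonneg hτ.le (hK0 w)
    nlinarith
  set q : EuclideanSpace ℝ (Fin n) → ℝ := fun x => inner ℝ (Kop (gradient u x)) (gradient u x)
    with hq
  have hgc : Continuous (fun x => gradient u x) := by
    have h1 := (hu.contDiff hA).continuous_fderiv (by norm_num)
    have h2 : (fun x => gradient u x)
        = fun x => (InnerProductSpace.toDual ℝ (EuclideanSpace ℝ (Fin n))).symm (fderiv ℝ u x) := by
      funext x; rfl
    rw [h2]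
    exact (LinearIsometryEquiv.continuous _).comp h1
  have hqc : Continuous q := (Kop.continuous.comp hgc).inner hgc
  have hq0 : ∀ x, 0 ≤ q x := fun x => hK0 _
  have hq1 : ∀ x, q x ≤ κ := by
    intro x
    have h1 : q x ≤ ‖Kop (gradient u x)‖ * ‖gradient u x‖ := real_inner_le_norm _ _
    have h2 := hKκ (gradient u x)
    have h3 := hu.grad_le x
    have h4 := norm_nonneg (gradient u x)
    have h5 : ‖Kop (gradient u x)‖ ≤ κ := h2.trans (by nlinarith)
    have h6 := norm_nonneg (Kop (gradient u x))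
    nlinarith
  have iq : Integrable q ν := by
    apply Integrable.of_bound hqc.aestronglyMeasurable κ
    refine Eventually.of_forall fun x => ?_
    rw [Real.norm_of_nonneg (hq0 x)]
    exact hq1 x
  have hpt : ∀ x, step T u x ≤ u x - τ / 2 * q x + A / 2 * (τ * (κ + ε)) ^ 2 := by
    intro x
    have h1 := hu.step_le (T := T) (mul_pos hτ hε) hT1 x
    rw [hTin] at h1
    have h2 : ‖T (gradient u x)‖ ≤ τ * (κ + ε) := by
      rw [hTw, norm_smul, Real.norm_of_nonneg hτ.le]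
      apply mul_le_mul_of_nonneg_left _ hτ.le
      have h3 := hKκ (gradient u x)
      have h4 := hu.grad_le x
      have h5 := norm_nonneg (gradient u x)
      calc ‖Kop (gradient u x) + ε • gradient u x‖ ≤ ‖Kop (gradient u x)‖ + ‖ε • gradient u x‖ :=
            norm_add_le _ _
        _ ≤ κ * ‖gradient u x‖ + ε * ‖gradient u x‖ := by
            rw [norm_smul, Real.norm_of_nonneg hε.le]; linarith
        _ ≤ κ + ε := by nlinarith
    have h3 : ‖T (gradient u x)‖ ^ 2 ≤ (τ * (κ + ε)) ^ 2 :=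
      pow_le_pow_left₀ (norm_nonneg _) h2 2
    have h4 : 0 ≤ τ * ε * ‖gradient u x‖ ^ 2 := by positivity
    have h5 : A / 2 * ‖T (gradient u x)‖ ^ 2 ≤ A / 2 * (τ * (κ + ε)) ^ 2 :=
      mul_le_mul_of_nonneg_left h3 (by positivity)
    have h6 : q x = inner ℝ (Kop (gradient u x)) (gradient u x) := rfl
    rw [h6]
    nlinarith
  have iu : Integrable u ν := integrable_lip h s hu.lip
  have is : Integrable (step T u) ν :=
    integrable_lip h s (step_lip hu.lip (mul_pos hτ hε) hT1)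
  have h1 : ∫ x, step T u x ∂ν ≤ ∫ x, (u x - τ / 2 * q x + A / 2 * (τ * (κ + ε)) ^ 2) ∂ν :=
    integral_mono is ((iu.sub (iq.const_mul _)).add (integrable_const _)) hpt
  have h2 : ∫ x, (u x - τ / 2 * q x + A / 2 * (τ * (κ + ε)) ^ 2) ∂ν
      = ∫ x, u x ∂ν - τ / 2 * ∫ x, q x ∂ν + A / 2 * (τ * (κ + ε)) ^ 2 := by
    have c1 : ∫ x, (u x - τ / 2 * q x + A / 2 * (τ * (κ + ε)) ^ 2) ∂ν
        = ∫ x, (u x - τ / 2 * q x) ∂ν + ∫ _x, A / 2 * (τ * (κ + ε)) ^ 2 ∂ν :=
      integral_add (iu.sub (iq.const_mul _)) (integrable_const _)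
    have c2 : ∫ x, (u x - τ / 2 * q x) ∂ν = ∫ x, u x ∂ν - τ / 2 * ∫ x, q x ∂ν := by
      rw [integral_sub iu (iq.const_mul _), integral_const_mul]
    rw [c1, c2, integral_const]
    simp
  have h3 := shift_le h (r := r) (s := s) hu.lip (θ := τ / C0) (by positivity)
  have h4 : τ / C0 / 2 * ((∫ x, u x ^ 2 ∂ν) - (∫ x, u x ∂ν) ^ 2)
      ≤ τ / C0 / 2 * (C0 * ∫ x, q x ∂ν) :=
    mul_le_mul_of_nonneg_left hP (by positivity)
  have h5 : τ / C0 / 2 * (C0 * ∫ x, q x ∂ν) = τ / 2 * ∫ x, q x ∂ν := by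
    field_simp
  have h6 : 1 / (2 * (τ / C0)) = C0 / (2 * τ) := by
    field_simp
  rw [h6] at h3
  linarith

end Vale.Agent.P245.H607
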