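import Vale.Agent.P245.Defs

/-!
# P245, row EXT: a Poincaré type inequality for test functions extends to all `C¹` functions with
bounded gradient when the second moment is finite.
-/

open MeasureTheory Filter
open scoped ENNReal NNReal Topology Convolution ContDiff

noncomputable section

namespace Vale.Agent.P245.H607

variable {n : ℕ}

/-- Euclidean space -/
abbrev E (n : ℕ) := EuclideanSpace ℝ (Fin n)

/-- the inequality, for one function -/
def PQ (μ : Measure (E n)) (C : ℝ) (K : Matrix (Fin n) (Fin n) ℝ) (f : (E n) → ℝ) : Prop :=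
  (∫ x, f x ^ 2 ∂μ) - (∫ x, f x ∂μ) ^ 2
    ≤ C * ∫ x, ∑ i, ∑ j, K i j * (gradient f x i * gradient f x j) ∂μ

lemma grad_i (w : (E n) → ℝ) (x : (E n)) (i : Fin n) :
    gradient w x i = fderiv ℝ w x (EuclideanSpace.single i (1 : ℝ)) := by
  have h := InnerProductSpace.toDual_symm_apply (𝕜 := ℝ)
    (x := (EuclideanSpace.single i (1 : ℝ) : (E n))) (y := fderiv ℝ w x)
  rw [← h]
  unfold gradient
  rw [EuclideanSpace.inner_single_right]
  simp

lemma abs_grad_i_le (w : (E n) → ℝ) (x : (E n)) (i : Fin n) : |gradient w x i| ≤ ‖gradient w x‖ := by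
  have := EuclideanSpace.norm_eq (gradient w x)
  rw [this]
  apply Real.le_sqrt_of_sq_le
  have h := Finset.single_le_sum (f := fun j => ‖gradient w x j‖ ^ 2)
    (fun j _ => sq_nonneg _) (Finset.mem_univ i)
  simpa [Real.norm_eq_abs] using h

lemma norm_grad (w : (E n) → ℝ) (x : (E n)) : ‖gradient w x‖ = ‖fderiv ℝ w x‖ := by
  unfold gradient
  simp

/-- the limit lemma -/
lemma pq_lim {μ : Measure (E n)} [IsProbabilityMeasure μ] (h2 : Integrable (fun x => ‖x‖ ^ 2) μ)
    (C : ℝ) (K : Matrix (Fin n) (Fin n) ℝ) {w : ℕ → (E n) → ℝ} {u : (E n) → ℝ} {A D : ℝ}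
    (_hA : 0 ≤ A) (hD : 0 ≤ D)
    (hw : ∀ m, ContDiff ℝ 1 (w m)) (hq : ∀ m, PQ μ C K (w m))
    (hl : ∀ x, Tendsto (fun m => w m x) atTop (𝓝 (u x)))
    (hl' : ∀ x i, Tendsto (fun m => gradient (w m) x i) atTop (𝓝 (gradient u x i)))
    (hb : ∀ m x, |w m x| ≤ A * (1 + ‖x‖)) (hb' : ∀ m x i, |gradient (w m) x i| ≤ D) :
    PQ μ C K u := by
  have hcont : ∀ m, Continuous (w m) := fun m => (hw m).continuous
  have hgc : ∀ m i, Continuous (fun x => gradient (w m) x i) := by
    intro m i
    have h1 : Continuous (fun x => fderiv ℝ (w m) x (EuclideanSpace.single i (1 : ℝ))) :=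
      ((hw m).continuous_fderiv one_ne_zero).clm_apply continuous_const
    refine h1.congr fun x => ?_
    rw [grad_i]
  have hn : Integrable (fun x : (E n) => (1 + ‖x‖) ^ 2) μ := by
    have h3 : Integrable (fun x : (E n) => 2 * (1 + ‖x‖ ^ 2)) μ :=
      ((integrable_const (1 : ℝ)).add h2).const_mul 2
    refine h3.mono' ?_ ?_
    · exact ((continuous_const.add continuous_norm).pow 2).aestronglyMeasurable
    · refine ae_of_all _ fun x => ?_
      rw [Real.norm_eq_abs, abs_of_nonneg (sq_nonneg _)]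
      nlinarith [sq_nonneg (1 - ‖x‖)]
  have hn1 : Integrable (fun x : (E n) => (1 + ‖x‖)) μ := by
    refine hn.mono' (continuous_const.add continuous_norm).aestronglyMeasurable ?_
    refine ae_of_all _ fun x => ?_
    have h0 := norm_nonneg x
    rw [Real.norm_eq_abs, abs_of_nonneg (by positivity)]
    nlinarith
  have t1 : Tendsto (fun m => ∫ x, w m x ^ 2 ∂μ) atTop (𝓝 (∫ x, u x ^ 2 ∂μ)) := by
    refine tendsto_integral_of_dominated_convergence (fun x => A ^ 2 * (1 + ‖x‖) ^ 2)
      (fun m => ((hcont m).pow 2).aestronglyMeasurable) (hn.const_mul _) ?_ ?_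
    · intro m
      refine ae_of_all _ fun x => ?_
      rw [Real.norm_eq_abs, abs_of_nonneg (sq_nonneg _), ← mul_pow, ← sq_abs]
      exact pow_le_pow_left₀ (abs_nonneg _) (hb m x) 2
    · exact ae_of_all _ fun x => (hl x).pow 2
  have t2 : Tendsto (fun m => ∫ x, w m x ∂μ) atTop (𝓝 (∫ x, u x ∂μ)) := by
    refine tendsto_integral_of_dominated_convergence (fun x => A * (1 + ‖x‖))
      (fun m => (hcont m).aestronglyMeasurable) (hn1.const_mul _) ?_ ?_
    · intro m
      exact ae_of_all _ fun x => hb m x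
    · exact ae_of_all _ fun x => hl x
  have t3 : Tendsto (fun m => ∫ x, ∑ i, ∑ j, K i j * (gradient (w m) x i * gradient (w m) x j) ∂μ)
      atTop (𝓝 (∫ x, ∑ i, ∑ j, K i j * (gradient u x i * gradient u x j) ∂μ)) := by
    refine tendsto_integral_of_dominated_convergence (fun _ => ∑ i, ∑ j, |K i j| * (D * D))
      (fun m => ?_) (integrable_const _) ?_ ?_
    · refine Continuous.aestronglyMeasurable ?_
      exact continuous_finsetSum _ fun i _ => continuous_finsetSum _ fun j _ =>
        continuous_const.mul ((hgc m i).mul (hgc m j))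
    · intro m
      refine ae_of_all _ fun x => ?_
      rw [Real.norm_eq_abs]
      refine (Finset.abs_sum_le_sum_abs _ _).trans (Finset.sum_le_sum fun i _ => ?_)
      refine (Finset.abs_sum_le_sum_abs _ _).trans (Finset.sum_le_sum fun j _ => ?_)
      rw [abs_mul, abs_mul]
      refine mul_le_mul_of_nonneg_left ?_ (abs_nonneg _)
      exact mul_le_mul (hb' m x i) (hb' m x j) (abs_nonneg _) hD
    · refine ae_of_all _ fun x => ?_
      exact tendsto_finsetSum _ fun i _ => tendsto_finsetSum _ fun j _ =>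
        ((hl' x i).mul (hl' x j)).const_mul _
  exact le_of_tendsto_of_tendsto' (t1.sub (t2.pow 2)) (t3.const_mul C) hq

/-- bumps of radius `1 / (m + 1)` -/
def bmp (n m : ℕ) : ContDiffBump (0 : EuclideanSpace ℝ (Fin n)) where
  rIn := 1 / (2 * ((m : ℝ) + 1))
  rOut := 1 / ((m : ℝ) + 1)
  rIn_pos := by positivity
  rIn_lt_rOut := by
    apply one_div_lt_one_div_of_lt (by positivity)
    have : (0 : ℝ) < (m : ℝ) + 1 := by positivity
    linarith

/-- mollified function -/
def mol (f : (E n) → ℝ) (m : ℕ) : (E n) → ℝ :=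
  ((bmp n m).normed volume ⋆[ContinuousLinearMap.lsmul ℝ ℝ, volume] f)

lemma mol_apply (f : (E n) → ℝ) (m : ℕ) (x : (E n)) :
    mol f m x = ∫ t, (bmp n m).normed volume t * f (x - t) := by
  unfold mol
  rw [convolution_def]
  rfl

lemma bmp_rOut_tendsto : Tendsto (fun m => (bmp n m).rOut) atTop (𝓝 0) :=
  tendsto_one_div_add_atTop_nhds_zero_nat

lemma mol_contDiff {f : (E n) → ℝ} (hf : Continuous f) (m : ℕ) : ContDiff ℝ ∞ (mol f m) := by
  unfold mol
  exact (bmp n m).hasCompactSupport_normed.contDiff_convolution_left _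
    (bmp n m).contDiff_normed hf.locallyIntegrable

lemma mol_tendsto {f : (E n) → ℝ} (hf : Continuous f) (x : (E n)) :
    Tendsto (fun m => mol f m x) atTop (𝓝 (f x)) :=
  ContDiffBump.convolution_tendsto_right_of_continuous bmp_rOut_tendsto hf x

lemma mol_supp {f : (E n) → ℝ} (hf : HasCompactSupport f) (m : ℕ) : HasCompactSupport (mol f m) := by
  unfold mol
  exact HasCompactSupport.convolution _ (bmp n m).hasCompactSupport_normed hf

lemma mol_bound {f : (E n) → ℝ} (_hf : Continuous f) {B : ℝ} (hB : ∀ x, |f x| ≤ B) (m : ℕ) (x : (E n)) :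
    |mol f m x| ≤ B := by
  rw [mol_apply]
  calc |∫ t, (bmp n m).normed volume t * f (x - t)|
      ≤ ∫ t, |(bmp n m).normed volume t * f (x - t)| := abs_integral_le_integral_abs
    _ ≤ ∫ t, (bmp n m).normed volume t * B := by
        refine integral_mono_of_nonneg (ae_of_all _ fun t => abs_nonneg _)
          (((bmp n m).integrable_normed).mul_const _) (ae_of_all _ fun t => ?_)
        simp only
        rw [abs_mul, abs_of_nonneg ((bmp n m).nonneg_normed t)]
        exact mul_le_mul_of_nonneg_left (hB _) ((bmp n m).nonneg_normed t)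
    _ = B := by rw [integral_mul_const, (bmp n m).integral_normed, one_mul]

lemma mol_fderiv {f : (E n) → ℝ} (hf : ContDiff ℝ 1 f) (hc : HasCompactSupport f) (m : ℕ) (x e : (E n)) :
    fderiv ℝ (mol f m) x e = mol (fun y => fderiv ℝ f y e) m x := by
  have h1 := HasCompactSupport.hasFDerivAt_convolution_right (𝕜 := ℝ) (μ := (volume : Measure (E n)))
    (ContinuousLinearMap.lsmul ℝ ℝ) (f := (bmp n m).normed volume) (g := f) hc
    ((bmp n m).continuous_normed.locallyIntegrable) hf x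
  have h2 : fderiv ℝ (mol f m) x = _ := h1.fderiv
  rw [h2]
  rw [convolution_precompR_apply _ ((bmp n m).continuous_normed.locallyIntegrable)
    (hc.fderiv (𝕜 := ℝ)) (hf.continuous_fderiv one_ne_zero)]
  rfl

lemma pq_c1c {μ : Measure (E n)} [IsProbabilityMeasure μ] (h2 : Integrable (fun x => ‖x‖ ^ 2) μ)
    (C : ℝ) (K : Matrix (Fin n) (Fin n) ℝ)
    (hP : ∀ f : (E n) → ℝ, ContDiff ℝ ∞ f → HasCompactSupport f → PQ μ C K f)
    {v : (E n) → ℝ} (hv : ContDiff ℝ 1 v) (hc : HasCompactSupport v) : PQ μ C K v := by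
  obtain ⟨B, hB⟩ := hc.exists_bound_of_continuous hv.continuous
  have hB0 : 0 ≤ B := (norm_nonneg _).trans (hB 0)
  have hfc : ∀ e : (E n), Continuous (fun y => fderiv ℝ v y e) := fun e =>
    (hv.continuous_fderiv one_ne_zero).clm_apply continuous_const
  obtain ⟨D, hD⟩ := (hc.fderiv (𝕜 := ℝ)).exists_bound_of_continuous (hv.continuous_fderiv one_ne_zero)
  have hD0 : 0 ≤ D := (norm_nonneg _).trans (hD 0)
  have hfb : ∀ (i : Fin n) (y : (E n)), |fderiv ℝ v y (EuclideanSpace.single i (1 : ℝ))| ≤ D := by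
    intro i y
    have h := (fderiv ℝ v y).le_opNorm (EuclideanSpace.single i (1 : ℝ))
    rw [PiLp.norm_single, norm_one, mul_one] at h
    exact h.trans (hD y)
  refine pq_lim h2 C K (w := fun m => mol v m) (A := B) (D := D) hB0 hD0
    (fun m => (mol_contDiff hv.continuous m).of_le (by exact_mod_cast le_top))
    (fun m => hP _ (mol_contDiff hv.continuous m) (mol_supp hc m))
    (fun x => mol_tendsto hv.continuous x) ?_ ?_ ?_
  · intro x i
    simp only [grad_i, mol_fderiv hv hc]
    exact mol_tendsto (hfc _) x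
  · intro m x
    refine (mol_bound hv.continuous (fun y => hB y) m x).trans ?_
    have := norm_nonneg x
    nlinarith
  · intro m x i
    rw [grad_i, mol_fderiv hv hc]
    exact mol_bound (hfc _) (hfb i) m x

/-- **Row EXT.** -/
theorem ext {n : ℕ} {μ : Measure (EuclideanSpace ℝ (Fin n))} [IsProbabilityMeasure μ]
    (h2 : Integrable (fun x => ‖x‖ ^ 2) μ) (C : ℝ) (K : Matrix (Fin n) (Fin n) ℝ)
    (hP : ∀ f : EuclideanSpace ℝ (Fin n) → ℝ, ContDiff ℝ ∞ f → HasCompactSupport f →
      (∫ x, f x ^ 2 ∂μ) - (∫ x, f x ∂μ) ^ 2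
        ≤ C * ∫ x, ∑ i, ∑ j, K i j * (gradient f x i * gradient f x j) ∂μ)
    {u : EuclideanSpace ℝ (Fin n) → ℝ} (hu : ContDiff ℝ 1 u) {L : ℝ}
    (hL : ∀ x, ‖gradient u x‖ ≤ L) :
    (∫ x, u x ^ 2 ∂μ) - (∫ x, u x ∂μ) ^ 2
      ≤ C * ∫ x, ∑ i, ∑ j, K i j * (gradient u x i * gradient u x j) ∂μ := by
  have hL0 : 0 ≤ L := (norm_nonneg _).trans (hL 0)
  have hlip : ∀ x, |u x| ≤ |u 0| + L * ‖x‖ := by
    intro x
    have h := Convex.norm_image_sub_le_of_norm_fderiv_le (𝕜 := ℝ) (f := u) (C := L)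
      (s := Set.univ) (fun y _ => (hu.differentiable (by norm_num)) y)
      (fun y _ => by rw [← norm_grad]; exact hL y) convex_univ (Set.mem_univ 0) (Set.mem_univ x)
    rw [sub_zero, Real.norm_eq_abs] at h
    have h3 := abs_sub_abs_le_abs_sub (u x) (u 0)
    linarith
  -- the cut-off
  let χ : ContDiffBump (0 : EuclideanSpace ℝ (Fin n)) := ⟨1, 2, one_pos, one_lt_two⟩
  have hχc : HasCompactSupport (χ : EuclideanSpace ℝ (Fin n) → ℝ) := χ.hasCompactSupport
  have hχd : ContDiff ℝ 1 (χ : EuclideanSpace ℝ (Fin n) → ℝ) := χ.contDiff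
  obtain ⟨M, hM⟩ := (hχc.fderiv (𝕜 := ℝ)).exists_bound_of_continuous
    (hχd.continuous_fderiv one_ne_zero)
  have hM0 : 0 ≤ M := (norm_nonneg _).trans (hM 0)
  let R : ℕ → ℝ := fun m => (m : ℝ) + 1
  have hR : ∀ m, 1 ≤ R m := fun m => by simp [R]
  have hR0 : ∀ m, 0 < R m := fun m => lt_of_lt_of_le one_pos (hR m)
  let g : ℕ → EuclideanSpace ℝ (Fin n) → ℝ := fun m x => χ ((R m)⁻¹ • x)
  have hgd : ∀ m, ContDiff ℝ 1 (g m) := fun m => hχd.comp (contDiff_const_smul _)
  have hgf : ∀ m x, fderiv ℝ (g m) x = (R m)⁻¹ • fderiv ℝ (χ : EuclideanSpace ℝ (Fin n) → ℝ) ((R m)⁻¹ • x) := by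
    intro m x
    exact fderiv_comp_smul _
  have hg0 : ∀ m x, 0 ≤ g m x := fun m x => χ.nonneg
  have hg1 : ∀ m x, g m x ≤ 1 := fun m x => χ.le_one
  -- values
  have hsuppf : ∀ m x, 2 * R m < ‖x‖ → fderiv ℝ (g m) x = 0 := by
    intro m x hx
    have hz : g m =ᶠ[𝓝 x] fun _ => 0 := by
      have ho : IsOpen {y : EuclideanSpace ℝ (Fin n) | 2 * R m < ‖y‖} :=
        isOpen_lt continuous_const continuous_norm
      filter_upwards [ho.mem_nhds hx] with y hy
      refine χ.zero_of_le_dist ?_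
      rw [dist_zero_right, norm_smul, norm_inv, Real.norm_eq_abs, abs_of_pos (hR0 m)]
      show (2 : ℝ) ≤ _
      rw [inv_mul_eq_div, le_div_iff₀ (hR0 m)]
      exact le_of_lt hy
    rw [hz.fderiv_eq]
    simp
  have hone : ∀ x, ∀ᶠ m in atTop, (g m =ᶠ[𝓝 x] fun _ => 1) := by
    intro x
    obtain ⟨N, hN⟩ := exists_nat_gt ‖x‖
    filter_upwards [eventually_ge_atTop N] with m hm
    have hlt : ‖x‖ < R m := by
      have : (N : ℝ) ≤ m := by exact_mod_cast hm
      simp only [R]
      linarith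
    have ho : IsOpen {y : EuclideanSpace ℝ (Fin n) | ‖y‖ < R m} :=
      isOpen_lt continuous_norm continuous_const
    filter_upwards [ho.mem_nhds hlt] with y hy
    refine χ.one_of_mem_closedBall ?_
    rw [Metric.mem_closedBall, dist_zero_right, norm_smul, norm_inv, Real.norm_eq_abs,
      abs_of_pos (hR0 m)]
    show _ ≤ (1 : ℝ)
    rw [inv_mul_eq_div, div_le_one (hR0 m)]
    exact le_of_lt hy
  let w : ℕ → EuclideanSpace ℝ (Fin n) → ℝ := fun m x => g m x * u x
  have hwd : ∀ m, ContDiff ℝ 1 (w m) := fun m => (hgd m).mul hu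
  have hwc : ∀ m, HasCompactSupport (w m) := by
    intro m
    refine HasCompactSupport.mul_right ?_
    refine HasCompactSupport.intro (isCompact_closedBall (0 : EuclideanSpace ℝ (Fin n)) (2 * R m)) ?_
    intro x hx
    rw [Metric.mem_closedBall, dist_zero_right, not_le] at hx
    refine χ.zero_of_le_dist ?_
    rw [dist_zero_right, norm_smul, norm_inv, Real.norm_eq_abs, abs_of_pos (hR0 m)]
    show (2 : ℝ) ≤ _
    rw [inv_mul_eq_div, le_div_iff₀ (hR0 m)]
    exact le_of_lt hx
  have hev : ∀ x, ∀ᶠ m in atTop, (w m =ᶠ[𝓝 x] u) := by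
    intro x
    filter_upwards [hone x] with m hm
    filter_upwards [hm] with y hy
    show g m y * u y = u y
    rw [hy, one_mul]
  have hA0 : 0 ≤ |u 0| + L := by positivity
  refine pq_lim h2 C K (w := w) (A := |u 0| + L) (D := L + (|u 0| + 2 * L) * M) hA0
    (by positivity) hwd (fun m => pq_c1c h2 C K hP (hwd m) (hwc m)) ?_ ?_ ?_ ?_
  · intro x
    refine tendsto_const_nhds.congr' ?_
    filter_upwards [hev x] with m hm
    exact hm.self_of_nhds.symm
  · intro x i
    refine tendsto_const_nhds.congr' ?_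
    filter_upwards [hev x] with m hm
    rw [grad_i, grad_i, hm.fderiv_eq]
  · intro m x
    show |g m x * u x| ≤ _
    rw [abs_mul, abs_of_nonneg (hg0 m x)]
    have h1 : g m x * |u x| ≤ 1 * |u x| := mul_le_mul_of_nonneg_right (hg1 m x) (abs_nonneg _)
    have h3 := hlip x
    have h4 := abs_nonneg (u 0)
    have h5 := norm_nonneg x
    nlinarith
  · intro m x i
    refine (abs_grad_i_le _ _ _).trans ?_
    rw [norm_grad]
    have hf : fderiv ℝ (w m) x = g m x • fderiv ℝ u x + u x • fderiv ℝ (g m) x :=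
      fderiv_mul ((hgd m).differentiable (by norm_num) x) (hu.differentiable (by norm_num) x)
    rw [hf]
    refine (norm_add_le _ _).trans (add_le_add ?_ ?_)
    · rw [norm_smul, Real.norm_eq_abs, abs_of_nonneg (hg0 m x), ← norm_grad]
      calc g m x * ‖gradient u x‖ ≤ 1 * ‖gradient u x‖ :=
            mul_le_mul_of_nonneg_right (hg1 m x) (norm_nonneg _)
        _ ≤ L := by rw [one_mul]; exact hL x
    · rw [norm_smul, Real.norm_eq_abs]
      by_cases hx : 2 * R m < ‖x‖
      · rw [hsuppf m x hx, norm_zero, mul_zero]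
        positivity
      · rw [not_lt] at hx
        rw [hgf, norm_smul, norm_inv, Real.norm_eq_abs, abs_of_pos (hR0 m)]
        have h1 : |u x| ≤ (|u 0| + 2 * L) * R m := by
          have h3 := hlip x
          have h4 := abs_nonneg (u 0)
          have h5 := hR m
          nlinarith
        have h6 : (R m)⁻¹ * ‖fderiv ℝ (χ : EuclideanSpace ℝ (Fin n) → ℝ) ((R m)⁻¹ • x)‖ ≤ (R m)⁻¹ * M :=
          mul_le_mul_of_nonneg_left (hM _) (inv_nonneg.mpr (hR0 m).le)
        calc |u x| * ((R m)⁻¹ * ‖fderiv ℝ (χ : EuclideanSpace ℝ (Fin n) → ℝ) ((R m)⁻¹ • x)‖)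
            ≤ ((|u 0| + 2 * L) * R m) * ((R m)⁻¹ * M) :=
              mul_le_mul h1 h6 (by have := (hR0 m).le; positivity) (by have := (hR0 m).le; positivity)
          _ = (|u 0| + 2 * L) * M := by
              have := (hR0 m).ne'
              field_simp

end Vale.Agent.P245.H607
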