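import Mathlib

/-! # P245, row CONC: the covariance operator (helper171) -/

set_option linter.all false

open MeasureTheory

namespace Vale.Agent.P245.H607

theorem norm_of_inner {F : Type*} [NormedAddCommGroup F] [InnerProductSpace ℝ F] (v : F) {A c : ℝ}
    (hA : 0 ≤ A) (hc : 0 ≤ c) (h : ∀ w : F, inner ℝ v w ≤ A * (c * ‖w‖)) : ‖v‖ ≤ A * c := by
  have h1 := h v
  rw [real_inner_self_eq_norm_sq] at h1
  by_cases h0 : ‖v‖ = 0
  · rw [h0]; positivity
  · have hpos : 0 < ‖v‖ := lt_of_le_of_ne (norm_nonneg _) (Ne.symm h0)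
    have h3 : ‖v‖ * ‖v‖ ≤ (A * c) * ‖v‖ := by nlinarith
    exact le_of_mul_le_mul_right h3 hpos

theorem cov {n : ℕ} {nu : Measure (EuclideanSpace ℝ (Fin n))} [IsProbabilityMeasure nu]
    (h2 : Integrable (fun x => ‖x‖ ^ 2) nu) :
    ∃ (b : Fin n → ℝ) (K : Matrix (Fin n) (Fin n) ℝ)
      (T : EuclideanSpace ℝ (Fin n) →L[ℝ] EuclideanSpace ℝ (Fin n)),
      (∀ i, ∫ x, x i ∂nu = b i) ∧
      (∀ i j, ∫ x, (x i - b i) * (x j - b j) ∂nu = K i j) ∧
      (∀ w w' : EuclideanSpace ℝ (Fin n), ∑ i, ∑ j, K i j * (w i * w' j) = inner ℝ (T w) w') ∧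
      (∀ w w' : EuclideanSpace ℝ (Fin n), inner ℝ (T w) w' = inner ℝ w (T w')) ∧
      (∀ w, 0 ≤ inner ℝ (T w) w) ∧
      (∀ w, inner ℝ (T w) w ≤ ∫ x, inner ℝ w x ^ 2 ∂nu) ∧
      (∀ w, ‖T w‖ ≤ (∫ x, ‖x‖ ^ 2 ∂nu) * ‖w‖) := by
  classical
  have hmeas : ∀ i : Fin n, Measurable (fun x : EuclideanSpace ℝ (Fin n) => x i) := by
    intro i
    fun_prop
  have hco : ∀ (x : EuclideanSpace ℝ (Fin n)) (i : Fin n), |x i| ≤ ‖x‖ := by
    intro x i
    have := PiLp.norm_apply_le x i
    rwa [Real.norm_eq_abs] at this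
  have hii : ∀ i j : Fin n, Integrable (fun x : EuclideanSpace ℝ (Fin n) => x i * x j) nu := by
    intro i j
    refine h2.mono' ((hmeas i).mul (hmeas j)).aestronglyMeasurable ?_
    filter_upwards with x
    rw [Real.norm_eq_abs, abs_mul, sq]
    exact mul_le_mul (hco x i) (hco x j) (abs_nonneg _) (norm_nonneg _)
  have hi : ∀ i : Fin n, Integrable (fun x : EuclideanSpace ℝ (Fin n) => x i) nu := by
    intro i
    refine ((integrable_const (1 : ℝ)).add h2).mono' (hmeas i).aestronglyMeasurable ?_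
    filter_upwards with x
    rw [Real.norm_eq_abs]
    have h1 := hco x i
    show |x i| ≤ 1 + ‖x‖ ^ 2
    nlinarith [norm_nonneg x, sq_nonneg (‖x‖ - 1)]
  set b : Fin n → ℝ := fun i => ∫ x, x i ∂nu with hb
  set K : Matrix (Fin n) (Fin n) ℝ := fun i j => ∫ x, (x i - b i) * (x j - b j) ∂nu with hK
  have hbb : ∀ i j : Fin n, Integrable (fun x : EuclideanSpace ℝ (Fin n) => (x i - b i) * (x j - b j)) nu := by
    intro i j
    have : (fun x : EuclideanSpace ℝ (Fin n) => (x i - b i) * (x j - b j)) =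
        fun x => (x i * x j - b j * x i) - (b i * x j - b i * b j) := by funext x; ring
    rw [this]
    exact ((hii i j).sub ((hi i).const_mul _)).sub (((hi j).const_mul _).sub (integrable_const _))
  have hKs : ∀ i j, K i j = K j i := by
    intro i j
    simp only [hK]
    exact integral_congr_ae (Filter.Eventually.of_forall fun x => by ring)
  -- the operator
  let T0 : EuclideanSpace ℝ (Fin n) →ₗ[ℝ] EuclideanSpace ℝ (Fin n) :=
    { toFun := fun w => WithLp.toLp 2 (fun j => ∑ i, K i j * w i)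
      map_add' := by
        intro w w'
        ext j
        show ∑ i, K i j * (w + w') i = ∑ i, K i j * w i + ∑ i, K i j * w' i
        rw [← Finset.sum_add_distrib]
        exact Finset.sum_congr rfl fun i _ => by
          show K i j * (w i + w' i) = _
          ring
      map_smul' := by
        intro c w
        ext j
        show ∑ i, K i j * (c • w) i = c * ∑ i, K i j * w i
        rw [Finset.mul_sum]
        exact Finset.sum_congr rfl fun i _ => by
          show K i j * (c * w i) = _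
          ring }
  let T : EuclideanSpace ℝ (Fin n) →L[ℝ] EuclideanSpace ℝ (Fin n) := LinearMap.toContinuousLinearMap T0
  have hTj : ∀ w j, (T w) j = ∑ i, K i j * w i := fun w j => rfl
  have hT : ∀ w w' : EuclideanSpace ℝ (Fin n),
      ∑ i, ∑ j, K i j * (w i * w' j) = inner ℝ (T w) w' := by
    intro w w'
    rw [PiLp.inner_apply]
    simp only [hTj, RCLike.inner_apply, conj_trivial]
    rw [Finset.sum_comm]
    refine Finset.sum_congr rfl fun j _ => ?_
    rw [Finset.mul_sum]
    exact Finset.sum_congr rfl fun i _ => by ring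
  -- the form as an integral
  have hlin : ∀ w x : EuclideanSpace ℝ (Fin n), inner ℝ w x = ∑ i, w i * x i := by
    intro w x
    rw [PiLp.inner_apply]
    simp only [RCLike.inner_apply, conj_trivial]
    exact Finset.sum_congr rfl fun i _ => by ring
  set bv : EuclideanSpace ℝ (Fin n) := WithLp.toLp 2 b with hbv
  have hfint : ∀ w w' : EuclideanSpace ℝ (Fin n),
      Integrable (fun x => inner ℝ w (x - bv) * inner ℝ w' (x - bv)) nu := by
    intro w w'
    have : (fun x => inner ℝ w (x - bv) * inner ℝ w' (x - bv)) =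
        fun x : EuclideanSpace ℝ (Fin n) => ∑ i, ∑ j, (w i * w' j) * ((x i - b i) * (x j - b j)) := by
      funext x
      rw [hlin, hlin, Finset.sum_mul_sum]
      exact Finset.sum_congr rfl fun i _ => Finset.sum_congr rfl fun j _ => by
        show w i * (x i - b i) * (w' j * (x j - b j)) = _
        ring
    rw [this]
    exact integrable_finset_sum _ fun i _ => integrable_finset_sum _ fun j _ => (hbb i j).const_mul _
  have hform : ∀ w w' : EuclideanSpace ℝ (Fin n),
      inner ℝ (T w) w' = ∫ x, inner ℝ w (x - bv) * inner ℝ w' (x - bv) ∂nu := by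
    intro w w'
    rw [← hT]
    have : (fun x => inner ℝ w (x - bv) * inner ℝ w' (x - bv)) =
        fun x : EuclideanSpace ℝ (Fin n) => ∑ i, ∑ j, (w i * w' j) * ((x i - b i) * (x j - b j)) := by
      funext x
      rw [hlin, hlin, Finset.sum_mul_sum]
      exact Finset.sum_congr rfl fun i _ => Finset.sum_congr rfl fun j _ => by
        show w i * (x i - b i) * (w' j * (x j - b j)) = _
        ring
    rw [this, integral_finset_sum _ fun i _ => integrable_finset_sum _ fun j _ => (hbb i j).const_mul _]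
    refine Finset.sum_congr rfl fun i _ => ?_
    rw [integral_finset_sum _ fun j _ => (hbb i j).const_mul _]
    refine Finset.sum_congr rfl fun j _ => ?_
    rw [integral_const_mul]
    simp only [hK]
    ring
  have hsq : ∀ w : EuclideanSpace ℝ (Fin n), Integrable (fun x => inner ℝ w x ^ 2) nu := by
    intro w
    have : (fun x => inner ℝ w x ^ 2) =
        fun x : EuclideanSpace ℝ (Fin n) => ∑ i, ∑ j, (w i * w j) * (x i * x j) := by
      funext x
      rw [hlin, sq, Finset.sum_mul_sum]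
      exact Finset.sum_congr rfl fun i _ => Finset.sum_congr rfl fun j _ => by ring
    rw [this]
    exact integrable_finset_sum _ fun i _ => integrable_finset_sum _ fun j _ => (hii i j).const_mul _
  have hli : ∀ w : EuclideanSpace ℝ (Fin n), Integrable (fun x => inner ℝ w x) nu := by
    intro w
    have : (fun x => inner ℝ w x) = fun x : EuclideanSpace ℝ (Fin n) => ∑ i, w i * x i := funext (hlin w)
    rw [this]
    exact integrable_finset_sum _ fun i _ => (hi i).const_mul _
  have hmean : ∀ w : EuclideanSpace ℝ (Fin n), ∫ x, inner ℝ w x ∂nu = inner ℝ w bv := by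
    intro w
    have : (fun x => inner ℝ w x) = fun x : EuclideanSpace ℝ (Fin n) => ∑ i, w i * x i := funext (hlin w)
    rw [this, integral_finset_sum _ fun i _ => (hi i).const_mul _, hlin]
    exact Finset.sum_congr rfl fun i _ => by rw [integral_const_mul]
  have hvar : ∀ w : EuclideanSpace ℝ (Fin n),
      inner ℝ (T w) w = ∫ x, inner ℝ w x ^ 2 ∂nu - (inner ℝ w bv) ^ 2 := by
    intro w
    rw [hform]
    have h3 : (fun x => inner ℝ w (x - bv) * inner ℝ w (x - bv)) =
        fun x => inner ℝ w x ^ 2 - ((2 * inner ℝ w bv) * inner ℝ w x - (inner ℝ w bv) ^ 2) := by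
      funext x
      rw [inner_sub_right]; ring
    have hI1 : Integrable (fun x => (2 * inner ℝ w bv) * inner ℝ w x) nu := (hli w).const_mul _
    have hI : Integrable (fun x => (2 * inner ℝ w bv) * inner ℝ w x - (inner ℝ w bv) ^ 2) nu :=
      hI1.sub (integrable_const _)
    have e1 : ∫ x, (inner ℝ w x ^ 2 - ((2 * inner ℝ w bv) * inner ℝ w x - (inner ℝ w bv) ^ 2)) ∂nu =
        ∫ x, inner ℝ w x ^ 2 ∂nu - ∫ x, ((2 * inner ℝ w bv) * inner ℝ w x - (inner ℝ w bv) ^ 2) ∂nu :=
      integral_sub (hsq w) hI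
    have e2 : ∫ x, ((2 * inner ℝ w bv) * inner ℝ w x - (inner ℝ w bv) ^ 2) ∂nu =
        ∫ x, (2 * inner ℝ w bv) * inner ℝ w x ∂nu - ∫ x, (inner ℝ w bv) ^ 2 ∂nu :=
      integral_sub hI1 (integrable_const _)
    have e3 : ∫ x, (inner ℝ w bv) ^ 2 ∂nu = (inner ℝ w bv) ^ 2 := by simp
    rw [h3, e1, e2, integral_const_mul, hmean, e3]
    ring
  have hnint : Integrable (fun x => ‖x - bv‖ ^ 2) nu := by
    have : (fun x => ‖x - bv‖ ^ 2) = fun x => ‖x‖ ^ 2 - 2 * inner ℝ bv x + ‖bv‖ ^ 2 := by
      funext x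
      rw [norm_sub_sq_real, real_inner_comm]
    rw [this]
    exact (h2.sub ((hli bv).const_mul _)).add (integrable_const _)
  have hnle : ∫ x, ‖x - bv‖ ^ 2 ∂nu ≤ ∫ x, ‖x‖ ^ 2 ∂nu := by
    have h3 : (fun x => ‖x - bv‖ ^ 2) = fun x => ‖x‖ ^ 2 - (2 * inner ℝ bv x - ‖bv‖ ^ 2) := by
      funext x
      rw [norm_sub_sq_real, real_inner_comm]; ring
    have hI1 : Integrable (fun x => 2 * inner ℝ bv x) nu := (hli bv).const_mul _
    have hI : Integrable (fun x => 2 * inner ℝ bv x - ‖bv‖ ^ 2) nu := hI1.sub (integrable_const _)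
    have e1 : ∫ x, (‖x‖ ^ 2 - (2 * inner ℝ bv x - ‖bv‖ ^ 2)) ∂nu =
        ∫ x, ‖x‖ ^ 2 ∂nu - ∫ x, (2 * inner ℝ bv x - ‖bv‖ ^ 2) ∂nu := integral_sub h2 hI
    have e2 : ∫ x, (2 * inner ℝ bv x - ‖bv‖ ^ 2) ∂nu =
        ∫ x, 2 * inner ℝ bv x ∂nu - ∫ x, ‖bv‖ ^ 2 ∂nu := integral_sub hI1 (integrable_const _)
    have e3 : ∫ x, ‖bv‖ ^ 2 ∂nu = ‖bv‖ ^ 2 := by simp
    rw [h3, e1, e2, integral_const_mul, hmean, e3, real_inner_self_eq_norm_sq]
    nlinarith [sq_nonneg ‖bv‖]
  refine ⟨b, K, T, fun i => rfl, fun i j => rfl, hT, ?_, ?_, ?_, ?_⟩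
  · intro w w'
    rw [hform, real_inner_comm, hform]
    exact integral_congr_ae (Filter.Eventually.of_forall fun x => by
      show _ * _ = _ * _
      ring)
  · intro w
    rw [hform]
    exact integral_nonneg fun x => mul_self_nonneg _
  · intro w
    rw [hvar]
    have := sq_nonneg (inner ℝ w bv)
    linarith
  · intro w
    refine norm_of_inner (T w) (integral_nonneg fun x => by positivity) (norm_nonneg _) ?_
    intro w'
    rw [hform]
    have hm : ∫ x, inner ℝ w (x - bv) * inner ℝ w' (x - bv) ∂nu ≤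
        ∫ x, ‖x - bv‖ ^ 2 * (‖w‖ * ‖w'‖) ∂nu := by
      refine integral_mono (hfint w w') (hnint.mul_const _) fun x => ?_
      show inner ℝ w (x - bv) * inner ℝ w' (x - bv) ≤ ‖x - bv‖ ^ 2 * (‖w‖ * ‖w'‖)
      refine (le_abs_self _).trans ?_
      rw [abs_mul]
      refine (mul_le_mul (abs_real_inner_le_norm _ _) (abs_real_inner_le_norm _ _)
        (abs_nonneg _) (by positivity)).trans (le_of_eq ?_)
      ring
    refine hm.trans ?_
    rw [integral_mul_const]
    exact mul_le_mul_of_nonneg_right hnle (by positivity)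

end Vale.Agent.P245.H607
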