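import Mathlib

open Set Filter Topology

namespace Vale.Agent.P245.H607

variable {n : ℕ}

/-- convex, `1`-Lipschitz, `A`-semiconcave functions -/
structure UA (A : ℝ) (u : EuclideanSpace ℝ (Fin n) → ℝ) : Prop where
  conv : ConvexOn ℝ univ u
  lip : ∀ x y, u x - u y ≤ ‖x - y‖
  semi : ∀ x, ∃ p : EuclideanSpace ℝ (Fin n), ∀ w, u (x + w) ≤ u x + inner ℝ p w + A / 2 * ‖w‖ ^ 2

/-- symmetric operators `≥ ε`, one step of the inf-convolution: existence of a minimiser -/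
theorem exists_min {u : EuclideanSpace ℝ (Fin n) → ℝ} (hlip : ∀ x y, u x - u y ≤ ‖x - y‖)
    (T : EuclideanSpace ℝ (Fin n) →L[ℝ] EuclideanSpace ℝ (Fin n)) {ε : ℝ} (hε : 0 < ε)
    (hT : ∀ w, ε * ‖w‖ ^ 2 ≤ inner ℝ (T w) w) (x : EuclideanSpace ℝ (Fin n)) :
    ∃ w, ∀ w', u (x - T w) + inner ℝ (T w) w / 2 ≤ u (x - T w') + inner ℝ (T w') w' / 2 := by
  have hcont : Continuous u := by
    have : LipschitzWith 1 u := by
      apply LipschitzWith.of_dist_le_mul
      intro x y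
      rw [Real.dist_eq, dist_eq_norm, NNReal.coe_one, one_mul, abs_le]
      constructor
      · have := hlip y x
        rw [norm_sub_rev] at this
        linarith
      · exact hlip x y
    exact this.continuous
  have hc : Continuous fun w => u (x - T w) + inner ℝ (T w) w / 2 := by fun_prop
  obtain ⟨w, hw⟩ := hc.exists_forall_le (f := fun w => u (x - T w) + inner ℝ (T w) w / 2) (by
    -- coercive
    apply tendsto_atTop_mono (f := fun w => u x - ‖T‖ * ‖w‖ + ε / 2 * ‖w‖ ^ 2)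
    · intro w
      have h1 := hlip x (x - T w)
      have h2 : ‖x - (x - T w)‖ = ‖T w‖ := by congr 1; abel
      have h3 := T.le_opNorm w
      have h4 := hT w
      rw [h2] at h1
      linarith
    · have h1 : Tendsto (fun w : EuclideanSpace ℝ (Fin n) => ‖w‖) (cocompact _) atTop :=
        tendsto_norm_cocompact_atTop
      have h2 : Tendsto (fun t : ℝ => u x - ‖T‖ * t + ε / 2 * t ^ 2) atTop atTop := by
        have h3 : Tendsto (fun t : ℝ => t * (ε / 2 * t - ‖T‖)) atTop atTop := by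
          apply Tendsto.atTop_mul_atTop₀ tendsto_id
          apply tendsto_atTop_add_const_right
          exact Tendsto.const_mul_atTop (by positivity) tendsto_id
        have h4 := tendsto_atTop_add_const_left atTop (u x) h3
        refine h4.congr fun t => ?_
        ring
      exact h2.comp h1)
  exact ⟨w, hw⟩

/-- one step of the inf-convolution -/
noncomputable def step (T : EuclideanSpace ℝ (Fin n) →L[ℝ] EuclideanSpace ℝ (Fin n))
    (u : EuclideanSpace ℝ (Fin n) → ℝ) (x : EuclideanSpace ℝ (Fin n)) : ℝ :=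
  ⨅ w, (u (x - T w) + inner ℝ (T w) w / 2)

variable {u : EuclideanSpace ℝ (Fin n) → ℝ}
  {T : EuclideanSpace ℝ (Fin n) →L[ℝ] EuclideanSpace ℝ (Fin n)} {ε : ℝ}

theorem step_min (hlip : ∀ x y, u x - u y ≤ ‖x - y‖) (hε : 0 < ε)
    (hT : ∀ w, ε * ‖w‖ ^ 2 ≤ inner ℝ (T w) w) (x : EuclideanSpace ℝ (Fin n)) :
    ∃ w, step T u x = u (x - T w) + inner ℝ (T w) w / 2 ∧
      ∀ w', step T u x ≤ u (x - T w') + inner ℝ (T w') w' / 2 := by
  obtain ⟨w, hw⟩ := exists_min hlip T hε hT x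
  have hb : BddBelow (range fun w => u (x - T w) + inner ℝ (T w) w / 2) :=
    ⟨_, by rintro _ ⟨w', rfl⟩; exact hw w'⟩
  have h1 : ∀ w', step T u x ≤ u (x - T w') + inner ℝ (T w') w' / 2 := fun w' => ciInf_le hb w'
  refine ⟨w, le_antisymm (h1 w) (le_ciInf hw), h1⟩

theorem step_lip (hlip : ∀ x y, u x - u y ≤ ‖x - y‖) (hε : 0 < ε)
    (hT : ∀ w, ε * ‖w‖ ^ 2 ≤ inner ℝ (T w) w) (x y : EuclideanSpace ℝ (Fin n)) :
    step T u x - step T u y ≤ ‖x - y‖ := by
  obtain ⟨w, hw, -⟩ := step_min hlip hε hT y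
  obtain ⟨-, -, h⟩ := step_min hlip hε hT x
  have h1 := h w
  have h2 := hlip (x - T w) (y - T w)
  have h3 : (x - T w) - (y - T w) = x - y := by abel
  rw [h3] at h2
  linarith

theorem step_conv (hconv : ConvexOn ℝ univ u) (hlip : ∀ x y, u x - u y ≤ ‖x - y‖) (hε : 0 < ε)
    (hT : ∀ w, ε * ‖w‖ ^ 2 ≤ inner ℝ (T w) w) : ConvexOn ℝ univ (step T u) := by
  refine ⟨convex_univ, fun x _ y _ s t hs ht hst => ?_⟩
  obtain ⟨w, hw, -⟩ := step_min hlip hε hT x
  obtain ⟨v, hv, -⟩ := step_min hlip hε hT y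
  obtain ⟨-, -, h⟩ := step_min hlip hε hT (s • x + t • y)
  have h1 := h (s • w + t • v)
  have e1 : s • x + t • y - T (s • w + t • v) = s • (x - T w) + t • (y - T v) := by
    rw [map_add, map_smul, map_smul, smul_sub, smul_sub]; abel
  have h2 := hconv.2 (mem_univ (x - T w)) (mem_univ (y - T v)) hs ht hst
  rw [e1] at h1
  have h3 : inner ℝ (T (s • w + t • v)) (s • w + t • v)
      ≤ s * inner ℝ (T w) w + t * inner ℝ (T v) v := by
    have h4 := hT (w - v)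
    have h5 : 0 ≤ inner ℝ (T (w - v)) (w - v) :=
      le_trans (mul_nonneg hε.le (sq_nonneg _)) h4
    have ht' : t = 1 - s := by linarith
    subst ht'
    simp only [map_add, map_sub, map_smul, inner_add_left, inner_add_right, inner_sub_left,
      inner_sub_right, inner_smul_left, inner_smul_right, RCLike.conj_to_real] at h5 ⊢
    nlinarith [mul_nonneg (mul_nonneg hs ht) h5]
  rw [hw, hv]
  simp only [smul_eq_mul] at h2 ⊢
  nlinarith

theorem step_semi {A : ℝ} (hlip : ∀ x y, u x - u y ≤ ‖x - y‖) (hε : 0 < ε)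
    (hT : ∀ w, ε * ‖w‖ ^ 2 ≤ inner ℝ (T w) w)
    (hs : ∀ x, ∃ p : EuclideanSpace ℝ (Fin n), ∀ w,
      u (x + w) ≤ u x + inner ℝ p w + A / 2 * ‖w‖ ^ 2) (x : EuclideanSpace ℝ (Fin n)) :
    ∃ p : EuclideanSpace ℝ (Fin n), ∀ w,
      step T u (x + w) ≤ step T u x + inner ℝ p w + A / 2 * ‖w‖ ^ 2 := by
  obtain ⟨w, hw, -⟩ := step_min hlip hε hT x
  obtain ⟨p, hp⟩ := hs (x - T w)
  refine ⟨p, fun z => ?_⟩
  obtain ⟨-, -, h⟩ := step_min hlip hε hT (x + z)
  have h1 := h w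
  have h2 := hp z
  have e : x + z - T w = x - T w + z := by abel
  rw [e] at h1
  linarith

theorem UA.step {A : ℝ} (hu : UA A u) (hε : 0 < ε)
    (hT : ∀ w, ε * ‖w‖ ^ 2 ≤ inner ℝ (T w) w) : UA A (step T u) :=
  ⟨step_conv hu.conv hu.lip hε hT, step_lip hu.lip hε hT, step_semi hu.lip hε hT hu.semi⟩

/-- the first step, with `T = A⁻¹`, creates semiconcavity -/
theorem UA_first {A : ℝ} (hA : 0 < A) (hconv : ConvexOn ℝ univ u)
    (hlip : ∀ x y, u x - u y ≤ ‖x - y‖) :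
    UA A (Vale.Agent.P245.H607.step ((A⁻¹ : ℝ) • ContinuousLinearMap.id ℝ _) u) := by
  have hT : ∀ w : EuclideanSpace ℝ (Fin n), A⁻¹ * ‖w‖ ^ 2
      ≤ inner ℝ (((A⁻¹ : ℝ) • ContinuousLinearMap.id ℝ (EuclideanSpace ℝ (Fin n))) w) w := by
    intro w
    rw [_root_.smul_apply, ContinuousLinearMap.id_apply, inner_smul_left,
      real_inner_self_eq_norm_sq]
    simp
  have hA' : 0 < A⁻¹ := inv_pos.2 hA
  refine ⟨step_conv hconv hlip hA' hT, step_lip hlip hA' hT, fun x => ?_⟩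
  obtain ⟨w, hw, -⟩ := step_min hlip hA' hT x
  refine ⟨w, fun z => ?_⟩
  obtain ⟨-, -, h⟩ := step_min hlip hA' hT (x + z)
  have h1 := h (w + A • z)
  have e : x + z - ((A⁻¹ : ℝ) • ContinuousLinearMap.id ℝ (EuclideanSpace ℝ (Fin n))) (w + A • z)
      = x - ((A⁻¹ : ℝ) • ContinuousLinearMap.id ℝ (EuclideanSpace ℝ (Fin n))) w := by
    simp only [_root_.smul_apply, ContinuousLinearMap.id_apply, smul_add, smul_smul,
      inv_mul_cancel₀ hA.ne', one_smul]
    abel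
  rw [e] at h1
  rw [hw]
  have e2 : inner ℝ (((A⁻¹ : ℝ) • ContinuousLinearMap.id ℝ (EuclideanSpace ℝ (Fin n)))
      (w + A • z)) (w + A • z) / 2
      = inner ℝ (((A⁻¹ : ℝ) • ContinuousLinearMap.id ℝ (EuclideanSpace ℝ (Fin n))) w) w / 2
        + inner ℝ w z + A / 2 * ‖z‖ ^ 2 := by
    simp only [_root_.smul_apply, ContinuousLinearMap.id_apply, inner_smul_left,
      inner_add_left, inner_add_right, inner_smul_right, real_inner_self_eq_norm_sq,
      RCLike.conj_to_real]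
    rw [real_inner_comm w z]
    field_simp
    ring
  rw [e2] at h1
  linarith

/-- two-sided expansion -/
theorem UA.two {A : ℝ} (hu : UA A u) (x : EuclideanSpace ℝ (Fin n)) :
    ∃ p : EuclideanSpace ℝ (Fin n), ∀ w,
      |u (x + w) - u x - inner ℝ p w| ≤ A / 2 * ‖w‖ ^ 2 := by
  obtain ⟨p, hp⟩ := hu.semi x
  refine ⟨p, fun w => ?_⟩
  have h1 := hp w
  have h2 := hp (-w)
  have h3 := hu.conv.2 (mem_univ (x + w)) (mem_univ (x + -w)) (by norm_num : (0 : ℝ) ≤ 1 / 2)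
    (by norm_num : (0 : ℝ) ≤ 1 / 2) (by norm_num)
  have e : (1 / 2 : ℝ) • (x + w) + (1 / 2 : ℝ) • (x + -w) = x := by
    rw [← smul_add]
    have : x + w + (x + -w) = (2 : ℝ) • x := by rw [two_smul]; abel
    rw [this, smul_smul]; norm_num
  rw [e] at h3
  rw [inner_neg_right, norm_neg] at h2
  simp only [smul_eq_mul] at h3
  rw [abs_le]
  constructor <;> linarith

theorem UA.lipschitz {A : ℝ} (hu : UA A u) : LipschitzWith 1 u := by
  apply LipschitzWith.of_dist_le_mul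
  intro x y
  rw [Real.dist_eq, dist_eq_norm, NNReal.coe_one, one_mul, abs_le]
  constructor
  · have := hu.lip y x
    rw [norm_sub_rev] at this
    linarith
  · exact hu.lip x y

theorem hasGradientAt_of_sq {A : ℝ} {x p : EuclideanSpace ℝ (Fin n)}
    (hp : ∀ w, |u (x + w) - u x - inner ℝ p w| ≤ A / 2 * ‖w‖ ^ 2) : HasGradientAt u p x := by
  rw [hasGradientAt_iff_isLittleO_nhds_zero]
  have h1 : (fun w : EuclideanSpace ℝ (Fin n) => u (x + w) - u x - inner ℝ p w)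
      =O[𝓝 0] fun w => ‖w‖ ^ 2 := by
    apply Asymptotics.IsBigO.of_bound (A / 2)
    refine Eventually.of_forall fun w => ?_
    rw [Real.norm_eq_abs, Real.norm_of_nonneg (by positivity)]
    exact hp w
  exact h1.trans_isLittleO (Asymptotics.isLittleO_norm_pow_id one_lt_two)

theorem UA.grad {A : ℝ} (hu : UA A u) (x : EuclideanSpace ℝ (Fin n)) :
    HasGradientAt u (gradient u x) x ∧
      ∀ w, |u (x + w) - u x - inner ℝ (gradient u x) w| ≤ A / 2 * ‖w‖ ^ 2 := by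
  obtain ⟨p, hp⟩ := hu.two x
  have h := hasGradientAt_of_sq hp
  rw [h.gradient]
  exact ⟨h, hp⟩

theorem UA.grad_le {A : ℝ} (hu : UA A u) (x : EuclideanSpace ℝ (Fin n)) :
    ‖gradient u x‖ ≤ 1 := by
  have h := norm_fderiv_le_of_lipschitz ℝ (x₀ := x) hu.lipschitz
  rw [gradient, LinearIsometryEquiv.norm_map]
  simpa using h

theorem UA.grad_lip {A : ℝ} (hA : 0 ≤ A) (hu : UA A u) (x y : EuclideanSpace ℝ (Fin n)) :
    ‖gradient u y - gradient u x‖ ≤ 3 * A * ‖y - x‖ := by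
  set q := gradient u y - gradient u x with hq
  rcases eq_or_ne q 0 with h0 | h0
  · rw [h0, norm_zero]; positivity
  have hqp : 0 < ‖q‖ := norm_pos_iff.2 h0
  rcases eq_or_ne y x with hyx | hyx
  · exfalso; apply h0; rw [hq, hyx, sub_self]
  have hd : 0 < ‖y - x‖ := norm_pos_iff.2 (sub_ne_zero.2 hyx)
  set d := y - x with hdd
  set w : EuclideanSpace ℝ (Fin n) := (‖d‖ / ‖q‖) • q with hw
  have hwn : ‖w‖ = ‖d‖ := by
    rw [hw, norm_smul, Real.norm_of_nonneg (by positivity)]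
    field_simp
  have h1 := abs_le.1 ((hu.grad x).2 (d + w))
  have h2 := abs_le.1 ((hu.grad x).2 d)
  have h3 := abs_le.1 ((hu.grad y).2 w)
  have e1 : x + (d + w) = y + w := by rw [hdd]; abel
  have e2 : x + d = y := by rw [hdd]; abel
  rw [e1] at h1
  rw [e2] at h2
  rw [inner_add_right] at h1
  have h4 : ‖d + w‖ ≤ 2 * ‖d‖ := by
    calc ‖d + w‖ ≤ ‖d‖ + ‖w‖ := norm_add_le _ _
      _ = 2 * ‖d‖ := by rw [hwn]; ring
  have h5 : ‖d + w‖ ^ 2 ≤ 4 * ‖d‖ ^ 2 := by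
    have := pow_le_pow_left₀ (norm_nonneg _) h4 2
    nlinarith
  have h6 : inner ℝ q w = ‖d‖ * ‖q‖ := by
    rw [hw, inner_smul_right, real_inner_self_eq_norm_sq]
    field_simp
  have h7 : inner ℝ q w = inner ℝ (gradient u y) w - inner ℝ (gradient u x) w := by
    rw [hq, inner_sub_left]
  rw [hwn] at h3
  have h8 : ‖d‖ * ‖q‖ ≤ 3 * A * ‖d‖ * ‖d‖ := by
    have h9 : A / 2 * ‖d + w‖ ^ 2 ≤ A / 2 * (4 * ‖d‖ ^ 2) :=
      mul_le_mul_of_nonneg_left h5 (by positivity)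
    nlinarith [h1.1, h1.2, h2.1, h2.2, h3.1, h3.2]
  have h10 : ‖d‖ * ‖q‖ ≤ ‖d‖ * (3 * A * ‖d‖) := by linarith
  exact le_of_mul_le_mul_left h10 hd

theorem UA.contDiff {A : ℝ} (hA : 0 ≤ A) (hu : UA A u) : ContDiff ℝ 1 u := by
  rw [contDiff_one_iff_fderiv]
  constructor
  · intro x
    exact (hu.grad x).1.differentiableAt
  · have h1 : Continuous (fun x => gradient u x) := by
      have : LipschitzWith (Real.toNNReal (3 * A)) fun x => gradient u x := by
        apply LipschitzWith.of_dist_le_mul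
        intro x y
        rw [dist_eq_norm, dist_eq_norm, Real.coe_toNNReal _ (by positivity)]
        exact hu.grad_lip hA y x
      exact this.continuous
    have h2 : fderiv ℝ u
        = fun x => InnerProductSpace.toDual ℝ (EuclideanSpace ℝ (Fin n)) (gradient u x) := by
      funext x
      rw [gradient, LinearIsometryEquiv.apply_symm_apply]
    rw [h2]
    exact (LinearIsometryEquiv.continuous _).comp h1

/-- the pointwise decrease in one step -/
theorem UA.step_le {A : ℝ} (hu : UA A u) (hε : 0 < ε)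
    (hT : ∀ w, ε * ‖w‖ ^ 2 ≤ inner ℝ (T w) w) (x : EuclideanSpace ℝ (Fin n)) :
    Vale.Agent.P245.H607.step T u x ≤ u x - inner ℝ (T (gradient u x)) (gradient u x) / 2
      + A / 2 * ‖T (gradient u x)‖ ^ 2 := by
  obtain ⟨-, -, h⟩ := step_min hu.lip hε hT x
  have h1 := h (gradient u x)
  have h2 := (abs_le.1 ((hu.grad x).2 (-(T (gradient u x))))).2
  rw [inner_neg_right, norm_neg, ← sub_eq_add_neg] at h2
  rw [real_inner_comm] at h2
  linarith

/-- the iteration -/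
noncomputable def U (T : ℕ → (EuclideanSpace ℝ (Fin n) →L[ℝ] EuclideanSpace ℝ (Fin n)))
    (v : EuclideanSpace ℝ (Fin n) → ℝ) : ℕ → (EuclideanSpace ℝ (Fin n) → ℝ)
  | 0 => v
  | k + 1 => step (T k) (U T v k)

variable {v : EuclideanSpace ℝ (Fin n) → ℝ}
  {TT : ℕ → (EuclideanSpace ℝ (Fin n) →L[ℝ] EuclideanSpace ℝ (Fin n))}

theorem U_lip (hlip : ∀ x y, v x - v y ≤ ‖x - y‖)
    (hT : ∀ k, ∃ ε, 0 < ε ∧ ∀ w, ε * ‖w‖ ^ 2 ≤ inner ℝ (TT k w) w) (k : ℕ) :
    ∀ x y, U TT v k x - U TT v k y ≤ ‖x - y‖ := by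
  induction k with
  | zero => exact hlip
  | succ k ih =>
    obtain ⟨ε, hε, h⟩ := hT k
    exact step_lip ih hε h

theorem U_UA {A : ℝ} (hA : 0 < A) (hconv : ConvexOn ℝ univ v) (hlip : ∀ x y, v x - v y ≤ ‖x - y‖)
    (hT : ∀ k, ∃ ε, 0 < ε ∧ ∀ w, ε * ‖w‖ ^ 2 ≤ inner ℝ (TT k w) w)
    (hT0 : TT 0 = (A⁻¹ : ℝ) • ContinuousLinearMap.id ℝ _) (k : ℕ) :
    UA A (U TT v (k + 1)) := by
  induction k with
  | zero =>
    change UA A (step (TT 0) v)
    rw [hT0]
    exact UA_first hA hconv hlip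
  | succ k ih =>
    obtain ⟨ε, hε, h⟩ := hT (k + 1)
    exact ih.step hε h

theorem U_le (hlip : ∀ x y, v x - v y ≤ ‖x - y‖)
    (hT : ∀ k, ∃ ε, 0 < ε ∧ ∀ w, ε * ‖w‖ ^ 2 ≤ inner ℝ (TT k w) w) (k : ℕ)
    (x : EuclideanSpace ℝ (Fin n)) : U TT v k x ≤ v x := by
  induction k generalizing x with
  | zero => exact le_rfl
  | succ k ih =>
    obtain ⟨ε, hε, h⟩ := hT k
    obtain ⟨-, -, h1⟩ := step_min (U_lip hlip hT k) hε h x
    have h2 := h1 0
    simp only [map_zero, sub_zero, inner_zero_left, zero_div, add_zero] at h2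
    exact h2.trans (ih x)

theorem U_disp (hlip : ∀ x y, v x - v y ≤ ‖x - y‖)
    (hT : ∀ k, ∃ ε, 0 < ε ∧ ∀ w, ε * ‖w‖ ^ 2 ≤ inner ℝ (TT k w) w)
    (hsymm : ∀ k, ∀ w w', inner ℝ (TT k w) w' = inner ℝ w (TT k w')) (k : ℕ)
    (x : EuclideanSpace ℝ (Fin n)) :
    ∃ (z : EuclideanSpace ℝ (Fin n)) (Q : ℝ), U TT v k x = v (x - z) + Q ∧
      ∀ e, inner ℝ e z ≤ (∑ j ∈ Finset.range k, inner ℝ (TT j e) e) / 2 + Q := by
  induction k generalizing x with
  | zero => exact ⟨0, 0, by simp [U], fun e => by simp⟩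
  | succ k ih =>
    obtain ⟨ε, hε, h⟩ := hT k
    obtain ⟨w, hw, -⟩ := step_min (U_lip hlip hT k) hε h x
    obtain ⟨z, Q, hz, hQ⟩ := ih (x - TT k w)
    refine ⟨TT k w + z, Q + inner ℝ (TT k w) w / 2, ?_, fun e => ?_⟩
    · change step (TT k) (U TT v k) x = _
      rw [hw, hz]
      have : x - TT k w - z = x - (TT k w + z) := by abel
      rw [this]; ring
    · have h1 := hQ e
      have h2 := h (e - w)
      have h3 : 0 ≤ inner ℝ (TT k (e - w)) (e - w) :=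
        le_trans (mul_nonneg hε.le (sq_nonneg _)) h2
      have h4 : inner ℝ (TT k (e - w)) (e - w)
          = inner ℝ (TT k e) e + inner ℝ (TT k w) w - 2 * inner ℝ e (TT k w) := by
        simp only [map_sub, inner_sub_left, inner_sub_right]
        rw [hsymm k e w, real_inner_comm e (TT k w)]
        ring
      rw [Finset.sum_range_succ, inner_add_right]
      linarith

theorem U_ge {F : EuclideanSpace ℝ (Fin n) → ℝ} (hF : ∀ x y, F x - F y ≤ ‖x - y‖)
    (pr : EuclideanSpace ℝ (Fin n) →L[ℝ] EuclideanSpace ℝ (Fin n))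
    (hpr : ∀ x, ‖pr x‖ ≤ ‖x‖) (hpr2 : ∀ x, pr (pr x) = pr x)
    (hprs : ∀ x y, inner ℝ (pr x) y = inner ℝ x (pr y))
    (hT : ∀ k, ∃ ε, 0 < ε ∧ ∀ w, ε * ‖w‖ ^ 2 ≤ inner ℝ (TT k w) w)
    (hsymm : ∀ k, ∀ w w', inner ℝ (TT k w) w' = inner ℝ w (TT k w')) (k : ℕ) {c : ℝ}
    (hc0 : 0 ≤ c)
    (hc : ∀ e, ‖e‖ = 1 → pr e = e → (∑ j ∈ Finset.range k, inner ℝ (TT j e) e) / 2 ≤ c)
    (x : EuclideanSpace ℝ (Fin n)) :
    F (pr x) - c ≤ U TT (fun x => F (pr x)) k x := by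
  have hlip : ∀ x y, F (pr x) - F (pr y) ≤ ‖x - y‖ := fun x y => by
    refine (hF _ _).trans ?_
    rw [← map_sub]; exact hpr _
  obtain ⟨z, Q, hz, hQ⟩ := U_disp (v := fun x => F (pr x)) hlip hT hsymm k x
  rw [hz]
  have h1 : F (pr x) - F (pr (x - z)) ≤ ‖pr z‖ := by
    refine (hF _ _).trans (le_of_eq ?_)
    rw [← map_sub]; congr 2; abel
  have h0 := hQ 0
  simp only [map_zero, inner_zero_left, Finset.sum_const_zero, zero_div, zero_add] at h0
  suffices h : ‖pr z‖ ≤ c + Q by linarith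
  rcases eq_or_ne (pr z) 0 with hz0 | hz0
  · rw [hz0, norm_zero]; linarith
  have hp : 0 < ‖pr z‖ := norm_pos_iff.2 hz0
  set e : EuclideanSpace ℝ (Fin n) := (‖pr z‖⁻¹ : ℝ) • pr z with he
  have he1 : ‖e‖ = 1 := by
    rw [he, norm_smul, norm_inv, norm_norm, inv_mul_cancel₀ hp.ne']
  have he2 : pr e = e := by rw [he, map_smul, hpr2]
  have h2 := hQ e
  have h3 := hc e he1 he2
  have h4 : inner ℝ e z = ‖pr z‖ := by
    rw [he, inner_smul_left]
    have : inner ℝ (pr z) z = ‖pr z‖ ^ 2 := by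
      rw [← real_inner_self_eq_norm_sq, hprs z (pr z), hpr2, ← hprs, real_inner_comm]
    rw [this, RCLike.conj_to_real]
    field_simp
  linarith

end Vale.Agent.P245.H607
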