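import Mathlib

/-! # P245, row CONC: spectral projection of a symmetric map (helper171) -/

set_option linter.all false

namespace Vale.Agent.P245.H607


theorem spec {n : ℕ} (B : EuclideanSpace ℝ (Fin n) →L[ℝ] EuclideanSpace ℝ (Fin n))
    (hB : ∀ x y, inner ℝ (B x) y = inner ℝ x (B y)) (M : ℝ) :
    ∃ (v : Fin n → EuclideanSpace ℝ (Fin n)) (S : Finset (Fin n))
      (pr : EuclideanSpace ℝ (Fin n) →L[ℝ] EuclideanSpace ℝ (Fin n)),
      Orthonormal ℝ v ∧ (∀ i ∈ S, M ≤ inner ℝ (B (v i)) (v i)) ∧ (∀ x, ‖pr x‖ ≤ ‖x‖) ∧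
      (∀ x, pr (pr x) = pr x) ∧ (∀ x y, inner ℝ (pr x) y = inner ℝ x (pr y)) ∧
      (∀ e, ‖e‖ = 1 → pr e = e → inner ℝ (B e) e ≤ M) ∧
      (∀ x, ‖x - pr x‖ ^ 2 = ∑ i ∈ S, inner ℝ (v i) x ^ 2) := by
  classical
  have hsym : (B : EuclideanSpace ℝ (Fin n) →ₗ[ℝ] EuclideanSpace ℝ (Fin n)).IsSymmetric :=
    fun x y => hB x y
  have hn : Module.finrank ℝ (EuclideanSpace ℝ (Fin n)) = n := by simp
  set b := hsym.eigenvectorBasis hn with hb
  set ev := hsym.eigenvalues hn with hev
  have hBv : ∀ i, B (b i) = (ev i) • b i := fun i => hsym.apply_eigenvectorBasis hn i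
  have hon : Orthonormal ℝ (fun i => b i) := b.orthonormal
  have hin : ∀ i j, inner ℝ (b i) (b j) = if i = j then (1 : ℝ) else 0 :=
    fun i j => orthonormal_iff_ite.1 hon i j
  set S : Finset (Fin n) := Finset.univ.filter (fun i => M ≤ ev i) with hS
  set q : EuclideanSpace ℝ (Fin n) →L[ℝ] EuclideanSpace ℝ (Fin n) :=
    ∑ i ∈ S, (innerSL ℝ (b i)).smulRight (b i) with hq
  have hqx : ∀ x, q x = ∑ i ∈ S, inner ℝ (b i) x • b i := by
    intro x
    simp [hq, ContinuousLinearMap.sum_apply]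
  have hbq : ∀ x j, inner ℝ (b j) (q x) = if j ∈ S then inner ℝ (b j) x else (0 : ℝ) := by
    intro x j
    rw [hqx, inner_sum]
    simp only [inner_smul_right, hin]
    simp
  have hbp : ∀ x j, inner ℝ (b j) (x - q x) = if j ∈ S then (0 : ℝ) else inner ℝ (b j) x := by
    intro x j
    rw [inner_sub_right, hbq]
    split_ifs <;> simp
  have hpars : ∀ x y : EuclideanSpace ℝ (Fin n), inner ℝ x y = ∑ j, inner ℝ (b j) x * inner ℝ (b j) y := by
    intro x y
    rw [← b.sum_inner_mul_inner x y]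
    exact Finset.sum_congr rfl fun j _ => by rw [real_inner_comm]
  refine ⟨fun i => b i, S, ContinuousLinearMap.id ℝ _ - q, hon, ?_, ?_, ?_, ?_, ?_, ?_⟩
  · intro i hi
    rw [hBv, inner_smul_left, hin]
    simp only [if_true, mul_one]
    exact (Finset.mem_filter.1 hi).2
  · intro x
    have h1 : ‖x - q x‖ ^ 2 ≤ ‖x‖ ^ 2 := by
      rw [← real_inner_self_eq_norm_sq, ← real_inner_self_eq_norm_sq, hpars, hpars x x]
      refine Finset.sum_le_sum fun j _ => ?_
      rw [hbp]
      split_ifs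
      · rw [zero_mul]; exact mul_self_nonneg _
      · exact le_rfl
    exact (sq_le_sq₀ (norm_nonneg _) (norm_nonneg _)).1 h1
  · intro x
    show (x - q x) - q (x - q x) = x - q x
    have : q (x - q x) = 0 := by
      rw [hqx]
      refine Finset.sum_eq_zero fun i hi => ?_
      rw [hbp, if_pos hi, zero_smul]
    rw [this, sub_zero]
  · intro x y
    show inner ℝ (x - q x) y = inner ℝ x (y - q y)
    rw [hpars, hpars x]
    refine Finset.sum_congr rfl fun j _ => ?_
    rw [hbp, hbp]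
    split_ifs <;> simp
  · intro e he hpe
    have hpe' : e - q e = e := hpe
    have h0 : ∀ j ∈ S, inner ℝ (b j) e = (0 : ℝ) := by
      intro j hj
      have := hbp e j
      rw [hpe', if_pos hj] at this
      exact this
    have h1 : inner ℝ (B e) e = ∑ j, ev j * (inner ℝ (b j) e) ^ 2 := by
      rw [hpars]
      refine Finset.sum_congr rfl fun j _ => ?_
      have : inner ℝ (b j) (B e) = ev j * inner ℝ (b j) e := by
        rw [← hB, hBv, inner_smul_left]; rfl
      rw [this]; ring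
    have h2 : ∑ j, (inner ℝ (b j) e) ^ 2 = (1 : ℝ) := by
      have := hpars e e
      rw [real_inner_self_eq_norm_sq, he] at this
      rw [show (1 : ℝ) = 1 ^ 2 by norm_num, this]
      exact Finset.sum_congr rfl fun j _ => by ring
    rw [h1, ← mul_one M, ← h2, Finset.mul_sum]
    refine Finset.sum_le_sum fun j _ => ?_
    by_cases hj : j ∈ S
    · rw [h0 j hj]; simp
    · have : ev j ≤ M := by
        by_contra hlt
        exact hj (Finset.mem_filter.2 ⟨Finset.mem_univ _, (not_le.1 hlt).le⟩)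
      exact mul_le_mul_of_nonneg_right this (sq_nonneg _)
  · intro x
    show ‖x - (x - q x)‖ ^ 2 = _
    rw [sub_sub_cancel, ← real_inner_self_eq_norm_sq, hpars]
    simp only [hbq]
    rw [← Finset.sum_filter_add_sum_filter_not Finset.univ (fun j => j ∈ S)]
    have e1 : ∑ x_1 ∈ Finset.univ.filter (fun j => ¬ j ∈ S), ((if x_1 ∈ S then inner ℝ (b x_1) x else (0:ℝ)) *
        if x_1 ∈ S then inner ℝ (b x_1) x else 0) = 0 :=
      Finset.sum_eq_zero fun j hj => by rw [if_neg (Finset.mem_filter.1 hj).2]; ring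
    rw [e1, add_zero]
    have e2 : Finset.univ.filter (fun j => j ∈ S) = S := by ext j; simp
    rw [e2]
    refine Finset.sum_congr rfl fun j hj => ?_
    rw [if_pos hj]; ring

end Vale.Agent.P245.H607
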