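import Vale.Agent.P245.Defs

/-! P245: the inequality of Q1 for functions whose high part is rare (helper607) -/

open MeasureTheory Real Set Filter Topology
open scoped ENNReal ContDiff

namespace Vale.Agent.P245.H607.Rare

variable {n : ℕ} {μ : Measure (EuclideanSpace ℝ (Fin n))}

theorem st_bound : ∃ M : ℝ, 0 ≤ M ∧ (∀ s : ℝ, |deriv Real.smoothTransition s| ≤ M) ∧
    ∀ s : ℝ, 1 < s → deriv Real.smoothTransition s = 0 := by
  have hc : Continuous (deriv Real.smoothTransition) :=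
    (Real.smoothTransition.contDiff (n := 1)).continuous_deriv le_rfl
  have h1 : ∀ s : ℝ, 1 < s → deriv Real.smoothTransition s = 0 := by
    intro s hs
    have : Real.smoothTransition =ᶠ[𝓝 s] fun _ => (1 : ℝ) := by
      filter_upwards [Ioi_mem_nhds hs] with y hy
      exact Real.smoothTransition.one_of_one_le (le_of_lt hy)
    rw [this.deriv_eq, deriv_const]
  have h0 : ∀ s : ℝ, s < 0 → deriv Real.smoothTransition s = 0 := by
    intro s hs
    have : Real.smoothTransition =ᶠ[𝓝 s] fun _ => (0 : ℝ) := by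
      filter_upwards [Iio_mem_nhds hs] with y hy
      exact Real.smoothTransition.zero_of_nonpos (le_of_lt hy)
    rw [this.deriv_eq, deriv_const]
  obtain ⟨M, hM⟩ := (isCompact_Icc (a := (0 : ℝ)) (b := 1)).exists_bound_of_continuousOn
    hc.continuousOn
  refine ⟨max M 0, le_max_right _ _, fun s => ?_, h1⟩
  by_cases hs : s ∈ Icc (0 : ℝ) 1
  · have := hM s hs
    rw [Real.norm_eq_abs] at this
    exact this.trans (le_max_left _ _)
  · have h2 : deriv Real.smoothTransition s = 0 := by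
      rw [mem_Icc, not_and_or, not_le, not_le] at hs
      rcases hs with hs | hs
      · exact h0 s hs
      · exact h1 s hs
    rw [h2, abs_zero]; exact le_max_right _ _

/-- the truncation -/
noncomputable def cut (c v : ℝ) : ℝ := v * Real.smoothTransition (v ^ 2 / c - 1)

theorem cut_zero {c v : ℝ} (hc : 0 < c) (h : v ^ 2 ≤ c) : cut c v = 0 := by
  unfold cut
  rw [Real.smoothTransition.zero_of_nonpos, mul_zero]
  have : v ^ 2 / c ≤ 1 := (div_le_one hc).2 h
  linarith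

theorem cut_id {c v : ℝ} (hc : 0 < c) (h : 2 * c ≤ v ^ 2) : cut c v = v := by
  unfold cut
  rw [Real.smoothTransition.one_of_one_le, mul_one]
  have : 2 ≤ v ^ 2 / c := (le_div_iff₀ hc).2 h
  linarith

theorem cut_sq_le (c v : ℝ) : cut c v ^ 2 ≤ v ^ 2 := by
  unfold cut
  rw [mul_pow]
  have h0 := Real.smoothTransition.nonneg (v ^ 2 / c - 1)
  have h1 := Real.smoothTransition.le_one (v ^ 2 / c - 1)
  have h2 : Real.smoothTransition (v ^ 2 / c - 1) ^ 2 ≤ 1 := by nlinarith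
  nlinarith [sq_nonneg v]

theorem cut_contDiff (c : ℝ) : ContDiff ℝ ∞ (cut c) := by
  unfold cut
  exact contDiff_id.mul (Real.smoothTransition.contDiff.comp
    (((contDiff_id.pow 2).div_const c).sub contDiff_const))

theorem cut_deriv {c : ℝ} (hc : 0 < c) {M : ℝ} (hM0 : 0 ≤ M)
    (hM : ∀ s : ℝ, |deriv Real.smoothTransition s| ≤ M)
    (hM1 : ∀ s : ℝ, 1 < s → deriv Real.smoothTransition s = 0) (v : ℝ) :
    ∃ d : ℝ, HasDerivAt (cut c) d v ∧ |d| ≤ 1 + 4 * M := by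
  have hθ : HasDerivAt Real.smoothTransition
      (deriv Real.smoothTransition (v ^ 2 / c - 1)) (v ^ 2 / c - 1) :=
    ((Real.smoothTransition.contDiff (n := 1)).differentiable (by norm_num) _).hasDerivAt
  have h1 : HasDerivAt (fun y : ℝ => y ^ 2 / c - 1) (2 * v / c) v := by
    have := ((hasDerivAt_pow 2 v).div_const c).sub_const 1
    simpa using this
  have h2 := (hasDerivAt_id v).mul (hθ.comp v h1)
  refine ⟨_, h2, ?_⟩
  have e0 := Real.smoothTransition.nonneg (v ^ 2 / c - 1)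
  have e1 := Real.smoothTransition.le_one (v ^ 2 / c - 1)
  have key : |v * (deriv Real.smoothTransition (v ^ 2 / c - 1) * (2 * v / c))| ≤ 4 * M := by
    by_cases hv : 1 < v ^ 2 / c - 1
    · rw [hM1 _ hv, zero_mul, mul_zero, abs_zero]; positivity
    · push Not at hv
      have e2 : v * (deriv Real.smoothTransition (v ^ 2 / c - 1) * (2 * v / c))
          = deriv Real.smoothTransition (v ^ 2 / c - 1) * (2 * (v ^ 2 / c)) := by ring
      have e3 : 0 ≤ v ^ 2 / c := by positivity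
      rw [e2, abs_mul, abs_of_nonneg (by positivity : 0 ≤ 2 * (v ^ 2 / c))]
      have e4 := hM (v ^ 2 / c - 1)
      have e5 : 2 * (v ^ 2 / c) ≤ 4 := by linarith
      calc |deriv Real.smoothTransition (v ^ 2 / c - 1)| * (2 * (v ^ 2 / c))
          ≤ M * 4 := mul_le_mul e4 e5 (by positivity) hM0
        _ = 4 * M := by ring
  have e6 : |(1 : ℝ) * Real.smoothTransition (v ^ 2 / c - 1)| ≤ 1 := by
    rw [one_mul, abs_of_nonneg e0]; exact e1
  exact (abs_add_le _ _).trans (add_le_add e6 key)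

theorem norm_gradient (f : EuclideanSpace ℝ (Fin n) → ℝ) (x : EuclideanSpace ℝ (Fin n)) :
    ‖gradient f x‖ = ‖fderiv ℝ f x‖ := by
  unfold gradient
  exact LinearIsometryEquiv.norm_map _ _

theorem grad_cut {c : ℝ} (hc : 0 < c) {M : ℝ} (hM0 : 0 ≤ M)
    (hM : ∀ s : ℝ, |deriv Real.smoothTransition s| ≤ M)
    (hM1 : ∀ s : ℝ, 1 < s → deriv Real.smoothTransition s = 0)
    {f : EuclideanSpace ℝ (Fin n) → ℝ} (hf : ContDiff ℝ ∞ f) (x : EuclideanSpace ℝ (Fin n)) :
    ‖gradient (fun y => cut c (f y)) x‖ ≤ (1 + 4 * M) * ‖gradient f x‖ := by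
  obtain ⟨d, hd, hd1⟩ := cut_deriv hc hM0 hM hM1 (f x)
  have hf1 : HasFDerivAt f (fderiv ℝ f x) x :=
    (hf.differentiable (by simp) x).hasFDerivAt
  have h1 := hd.comp_hasFDerivAt x hf1
  have h2 : fderiv ℝ (fun y => cut c (f y)) x = d • fderiv ℝ f x := h1.fderiv
  rw [norm_gradient, norm_gradient, h2, norm_smul, Real.norm_eq_abs]
  exact mul_le_mul_of_nonneg_right hd1 (norm_nonneg _)

theorem ylog {y z : ℝ} (hy : 0 ≤ y) (hz : 0 < z) : y * log z + y - z ≤ y * log y := by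
  rcases hy.eq_or_lt with h | h
  · rw [← h]; simp; exact hz.le
  · have h1 : log (z / y) ≤ z / y - 1 := log_le_sub_one_of_pos (by positivity)
    rw [log_div hz.ne' h.ne'] at h1
    have h2 := mul_le_mul_of_nonneg_left h1 h.le
    have h3 : y * (z / y - 1) = z - y := by field_simp
    rw [h3] at h2
    linarith

theorem int_sq [IsProbabilityMeasure μ] {h : EuclideanSpace ℝ (Fin n) → ℝ} (hc : Continuous h)
    (hs : HasCompactSupport h) : Integrable (fun x => h x ^ 2) μ := by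
  have h1 : HasCompactSupport ((fun y : ℝ => y ^ 2) ∘ h) := hs.comp_left (by simp)
  have h2 : Continuous ((fun y : ℝ => y ^ 2) ∘ h) := (continuous_pow 2).comp hc
  exact h2.integrable_of_hasCompactSupport h1

theorem int_sqlog [IsProbabilityMeasure μ] {h : EuclideanSpace ℝ (Fin n) → ℝ} (hc : Continuous h)
    (hs : HasCompactSupport h) : Integrable (fun x => h x ^ 2 * log (h x ^ 2)) μ := by
  have h1 : HasCompactSupport ((fun y : ℝ => y ^ 2 * log (y ^ 2)) ∘ h) :=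
    hs.comp_left (by simp)
  have h2 : Continuous ((fun y : ℝ => y ^ 2 * log (y ^ 2)) ∘ h) :=
    (Real.continuous_mul_log.comp (continuous_pow 2)).comp hc
  exact h2.integrable_of_hasCompactSupport h1

theorem int_abs [IsProbabilityMeasure μ] {h : EuclideanSpace ℝ (Fin n) → ℝ} (hc : Continuous h)
    (hs : HasCompactSupport h) : Integrable (fun x => |h x|) μ := by
  have h1 : HasCompactSupport ((fun y : ℝ => |y|) ∘ h) := hs.comp_left (by simp)
  have h2 : Continuous ((fun y : ℝ => |y|) ∘ h) := continuous_abs.comp hc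
  exact h2.integrable_of_hasCompactSupport h1

theorem int_grad [IsProbabilityMeasure μ] {f : EuclideanSpace ℝ (Fin n) → ℝ}
    (hf : ContDiff ℝ ∞ f) (hfc : HasCompactSupport f) :
    Integrable (fun x => ‖gradient f x‖ ^ 2) μ := by
  have e : (fun x => ‖gradient f x‖ ^ 2) = (fun y => ‖y‖ ^ 2) ∘ (fderiv ℝ f) := by
    funext x; simp only [Function.comp, norm_gradient]
  rw [e]
  have h1 : HasCompactSupport ((fun y => ‖y‖ ^ 2) ∘ (fderiv ℝ f)) :=
    (hfc.fderiv (𝕜 := ℝ)).comp_left (by simp)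
  have h2 : Continuous ((fun y => ‖y‖ ^ 2) ∘ (fderiv ℝ f)) :=
    ((continuous_norm).pow 2).comp (hf.continuous_fderiv (by simp))
  exact h2.integrable_of_hasCompactSupport h1

theorem ent_zero [IsProbabilityMeasure μ] {h : EuclideanSpace ℝ (Fin n) → ℝ} (hc : Continuous h)
    (hs : HasCompactSupport h) (h0 : ∫ x, h x ^ 2 ∂μ = 0) : Entropy μ (fun x => h x ^ 2) = 0 := by
  have h1 := (integral_eq_zero_iff_of_nonneg (fun x => sq_nonneg (h x)) (int_sq hc hs)).1 h0
  unfold Entropy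
  rw [h0, zero_mul, sub_zero]
  have h2 : (fun x => h x ^ 2 * log (h x ^ 2)) =ᵐ[μ] fun _ => (0 : ℝ) := by
    filter_upwards [h1] with x hx
    have : h x ^ 2 = 0 := hx
    rw [this, zero_mul]
  rw [integral_congr_ae h2, integral_zero]

theorem ent_lower [IsProbabilityMeasure μ] {h : EuclideanSpace ℝ (Fin n) → ℝ}
    (hc : Continuous h) (hs : HasCompactSupport h) {L : ℝ}
    (hμ : μ.real {x | h x ≠ 0} ≤ exp (-L)) :
    L * ∫ x, h x ^ 2 ∂μ ≤ Entropy μ (fun x => h x ^ 2) := by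
  set G := ∫ x, h x ^ 2 ∂μ with hG
  have hG0 : 0 ≤ G := integral_nonneg fun x => sq_nonneg _
  rcases hG0.eq_or_lt with h0 | hpos
  · rw [ent_zero hc hs h0.symm, ← h0, mul_zero]
  · set c := G * exp L with hcd
    have hcp : 0 < c := by positivity
    have hm : MeasurableSet {x | h x ≠ 0} :=
      (isOpen_ne_fun hc continuous_const).measurableSet
    have hpt : ∀ x, h x ^ 2 * log c + h x ^ 2 - {x | h x ≠ 0}.indicator (fun _ => c) x
        ≤ h x ^ 2 * log (h x ^ 2) := by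
      intro x
      by_cases hx : h x = 0
      · have e : x ∉ {x | h x ≠ 0} := by simpa using hx
        rw [indicator_of_notMem e, hx]; simp
      · have e : x ∈ {x | h x ≠ 0} := hx
        rw [indicator_of_mem e]
        exact ylog (sq_nonneg _) hcp
    have i2 := int_sq (μ := μ) hc hs
    have i3 := int_sqlog (μ := μ) hc hs
    have i4 : Integrable ({x | h x ≠ 0}.indicator fun _ => c) μ :=
      (integrable_const c).indicator hm
    have h1 : ∫ x, (h x ^ 2 * log c + h x ^ 2 - {x | h x ≠ 0}.indicator (fun _ => c) x) ∂μ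
        ≤ ∫ x, h x ^ 2 * log (h x ^ 2) ∂μ :=
      integral_mono (((i2.mul_const _).add i2).sub i4) i3 hpt
    have e1 : ∫ x, (h x ^ 2 * log c + h x ^ 2 - {x | h x ≠ 0}.indicator (fun _ => c) x) ∂μ
        = G * log c + G - μ.real {x | h x ≠ 0} * c := by
      have a1 : ∫ x, (h x ^ 2 * log c + h x ^ 2 - {x | h x ≠ 0}.indicator (fun _ => c) x) ∂μ
          = ∫ x, (h x ^ 2 * log c + h x ^ 2) ∂μ
            - ∫ x, {x | h x ≠ 0}.indicator (fun _ => c) x ∂μ :=
        integral_sub ((i2.mul_const _).add i2) i4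
      rw [a1, integral_add (i2.mul_const _) i2, integral_mul_const,
        integral_indicator_const c hm, smul_eq_mul]
    rw [e1] at h1
    have h2 : μ.real {x | h x ≠ 0} * c ≤ G := by
      calc μ.real {x | h x ≠ 0} * c ≤ exp (-L) * c := mul_le_mul_of_nonneg_right hμ hcp.le
        _ = G * (exp (-L) * exp L) := by rw [hcd]; ring
        _ = G := by rw [← exp_add]; simp
    have h3 : log c = log G + L := by
      rw [hcd, log_mul hpos.ne' (exp_pos _).ne', log_exp]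
    rw [h3] at h1
    unfold Entropy
    rw [← hG]
    nlinarith

theorem point {N T v h : ℝ} (hN : 0 < N) (hT : 2 ≤ T)
    (h1 : v ^ 2 ≤ T ^ 2 * N ^ 2 → h = 0) (h2 : 2 * (T ^ 2 * N ^ 2) ≤ v ^ 2 → h = v) :
    v ^ 2 * log (v ^ 2) - v ^ 2 * log (N ^ 2) - v ^ 2 + N ^ 2 ≤
      (9 + 8 * log T) * (|v| - N) ^ 2 + (h ^ 2 * log (h ^ 2) - h ^ 2 * log (N ^ 2)) := by
  have hu : v ^ 2 = |v| ^ 2 := (sq_abs v).symm
  set u := |v| with hud
  have hu0 : 0 ≤ u := abs_nonneg v
  have hlT : 0 ≤ log T := log_nonneg (by linarith)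
  have hN2 : 0 < N ^ 2 := by positivity
  have hsq : 0 ≤ (u - N) ^ 2 := sq_nonneg _
  rw [hu]
  rw [hu] at h1 h2
  by_cases c1 : u ^ 2 ≤ T ^ 2 * N ^ 2
  · rw [h1 c1]
    have e0 : (0 : ℝ) ^ 2 * log (0 ^ 2) - 0 ^ 2 * log (N ^ 2) = 0 := by simp
    rw [e0, add_zero]
    by_cases c2 : u ≤ 2 * N
    · rcases hu0.eq_or_lt with h0 | hpos
      · rw [← h0]
        have : (0 : ℝ) ^ 2 * log (0 ^ 2) - 0 ^ 2 * log (N ^ 2) - 0 ^ 2 + N ^ 2 = N ^ 2 := by simp
        rw [this]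
        have : (0 - N) ^ 2 = N ^ 2 := by ring
        rw [this]
        nlinarith
      · have e1 : log (u ^ 2) - log (N ^ 2) = 2 * log (u / N) := by
          rw [log_pow, log_pow, log_div hpos.ne' hN.ne']; push_cast; ring
        have e2 : log (u / N) ≤ u / N - 1 := log_le_sub_one_of_pos (by positivity)
        have e3 : u ^ 2 * log (u ^ 2) - u ^ 2 * log (N ^ 2) = u ^ 2 * (2 * log (u / N)) := by
          rw [← e1]; ring
        have e4 : u ^ 2 * (2 * log (u / N)) ≤ u ^ 2 * (2 * (u / N - 1)) := by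
          apply mul_le_mul_of_nonneg_left _ (sq_nonneg _); linarith
        have e5 : u ^ 2 * (2 * (u / N - 1)) - u ^ 2 + N ^ 2 = (2 * (u / N) + 1) * (u - N) ^ 2 := by
          field_simp; ring
        have e6 : u / N ≤ 2 := (div_le_iff₀ hN).2 c2
        have e7 : (2 * (u / N) + 1) * (u - N) ^ 2 ≤ (9 + 8 * log T) * (u - N) ^ 2 := by
          apply mul_le_mul_of_nonneg_right _ hsq; linarith
        linarith
    · push Not at c2
      have hpos : 0 < u := by linarith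
      have e1 : log (u ^ 2) ≤ log (T ^ 2 * N ^ 2) := log_le_log (by positivity) c1
      have e0' : log (T ^ 2) = 2 * log T := by rw [log_pow]; push_cast; ring
      rw [log_mul (by positivity) hN2.ne', e0'] at e1
      have e2 : u ^ 2 * log (u ^ 2) - u ^ 2 * log (N ^ 2) ≤ u ^ 2 * (2 * log T) := by
        have : u ^ 2 * (log (u ^ 2) - log (N ^ 2)) ≤ u ^ 2 * (2 * log T) := by
          apply mul_le_mul_of_nonneg_left _ (sq_nonneg _)
          linarith
        linarith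
      have e3 : u ^ 2 ≤ 4 * (u - N) ^ 2 := by nlinarith
      have e4 : u ^ 2 * (2 * log T) ≤ 4 * (u - N) ^ 2 * (2 * log T) :=
        mul_le_mul_of_nonneg_right e3 (by linarith)
      have e5 : N ^ 2 ≤ u ^ 2 := by nlinarith
      nlinarith
  · push Not at c1
    have hTN : T * N < u := by
      by_contra hcon
      push Not at hcon
      have : u ^ 2 ≤ (T * N) ^ 2 := pow_le_pow_left₀ hu0 hcon 2
      rw [mul_pow] at this
      linarith
    have h2N : 2 * N < u := by nlinarith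
    have e5 : N ^ 2 ≤ u ^ 2 := by nlinarith
    by_cases c3 : 2 * (T ^ 2 * N ^ 2) ≤ u ^ 2
    · rw [h2 c3, hu]
      have : 0 ≤ (9 + 8 * log T) * (u - N) ^ 2 := by positivity
      linarith
    · push Not at c3
      have hpos : 0 < u := by linarith
      have e1 : log (u ^ 2) ≤ log (2 * (T ^ 2 * N ^ 2)) := log_le_log (by positivity) c3.le
      have e0' : log (T ^ 2) = 2 * log T := by rw [log_pow]; push_cast; ring
      rw [log_mul (by norm_num) (by positivity), log_mul (by positivity) hN2.ne', e0'] at e1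
      have e6 : log 2 ≤ 1 := by have := Real.log_two_lt_d9; linarith
      have e2 : u ^ 2 * log (u ^ 2) - u ^ 2 * log (N ^ 2) ≤ u ^ 2 * (1 + 2 * log T) := by
        have : u ^ 2 * (log (u ^ 2) - log (N ^ 2)) ≤ u ^ 2 * (1 + 2 * log T) := by
          apply mul_le_mul_of_nonneg_left _ (sq_nonneg _)
          linarith
        linarith
      have e3 : u ^ 2 ≤ 4 * (u - N) ^ 2 := by nlinarith
      have e4 : u ^ 2 * (1 + 2 * log T) ≤ 4 * (u - N) ^ 2 * (1 + 2 * log T) :=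
        mul_le_mul_of_nonneg_right e3 (by linarith)
      have e7 := ylog (sq_nonneg h) hN2
      have e8 : N ^ 2 ≤ (u - N) ^ 2 := by nlinarith
      have e9 : 0 ≤ h ^ 2 := sq_nonneg h
      nlinarith

/-- the variance bound -/
theorem var_le [IsProbabilityMeasure μ] {V : ℝ} {f : EuclideanSpace ℝ (Fin n) → ℝ}
    (hcf : Continuous f) (hfc : HasCompactSupport f)
    (hV : (∫ x, f x ^ 2 ∂μ) - (∫ x, f x ∂μ) ^ 2 ≤ V) {N : ℝ} (hN : 0 ≤ N)
    (hN2 : N ^ 2 = ∫ x, f x ^ 2 ∂μ) :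
    Integrable (fun x => (|f x| - N) ^ 2) μ ∧ ∫ x, (|f x| - N) ^ 2 ∂μ ≤ 2 * V := by
  have i2 := int_sq (μ := μ) hcf hfc
  have ia := int_abs (μ := μ) hcf hfc
  have ex : ∀ s : ℝ, (fun x => (|f x| - s) ^ 2) = fun x => f x ^ 2 - 2 * s * |f x| + s ^ 2 := by
    intro s
    funext x
    have := sq_abs (f x)
    linear_combination this
  have hint : ∀ s : ℝ, Integrable (fun x => (|f x| - s) ^ 2) μ := by
    intro s
    rw [ex s]
    exact (i2.sub (ia.const_mul _)).add (integrable_const _)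
  refine ⟨hint N, ?_⟩
  set m := ∫ x, |f x| ∂μ with hm
  have hm0 : 0 ≤ m := integral_nonneg fun x => abs_nonneg _
  have e1 : ∀ s : ℝ, ∫ x, (|f x| - s) ^ 2 ∂μ = (∫ x, f x ^ 2 ∂μ) - 2 * s * m + s ^ 2 := by
    intro s
    rw [ex s]
    have a1 : ∫ x, (f x ^ 2 - 2 * s * |f x| + s ^ 2) ∂μ
        = (∫ x, (f x ^ 2 - 2 * s * |f x|) ∂μ) + ∫ _x, s ^ 2 ∂μ :=
      integral_add (i2.sub (ia.const_mul _)) (integrable_const _)
    rw [a1, integral_sub i2 (ia.const_mul _), integral_const_mul, integral_const]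
    simp [← hm]
  have e2 : 0 ≤ (∫ x, f x ^ 2 ∂μ) - 2 * m * m + m ^ 2 := by
    rw [← e1 m]; exact integral_nonneg fun x => sq_nonneg _
  rw [← hN2] at e2
  have e3 : m ≤ N := by
    by_contra hcon
    push Not at hcon
    nlinarith
  have e4 : (∫ x, f x ∂μ) ^ 2 ≤ m ^ 2 := by
    have h1 : |∫ x, f x ∂μ| ≤ m := by
      have := norm_integral_le_integral_norm (μ := μ) f
      simpa only [Real.norm_eq_abs] using this
    rw [← sq_abs]
    exact pow_le_pow_left₀ (abs_nonneg _) h1 2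
  rw [e1 N, ← hN2]
  rw [← hN2] at hV
  nlinarith

/-- the entropy of `f²` is controlled by the variance and the entropy of the high part -/
theorem low [IsProbabilityMeasure μ] {f h : EuclideanSpace ℝ (Fin n) → ℝ}
    (hcf : Continuous f) (hfc : HasCompactSupport f) (hch : Continuous h)
    (hhc : HasCompactSupport h) {N T : ℝ} (hN : 0 < N) (hT : 2 ≤ T)
    (hN2 : N ^ 2 = ∫ x, f x ^ 2 ∂μ) (hle : ∀ x, h x ^ 2 ≤ f x ^ 2)
    (h1 : ∀ x, f x ^ 2 ≤ T ^ 2 * N ^ 2 → h x = 0)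
    (h2 : ∀ x, 2 * (T ^ 2 * N ^ 2) ≤ f x ^ 2 → h x = f x)
    (iq : Integrable (fun x => (|f x| - N) ^ 2) μ) :
    Entropy μ (fun x => f x ^ 2) ≤
      (9 + 8 * log T) * (∫ x, (|f x| - N) ^ 2 ∂μ) + Entropy μ (fun x => h x ^ 2) := by
  have i2 := int_sq (μ := μ) hcf hfc
  have i3 := int_sqlog (μ := μ) hcf hfc
  have j2 := int_sq (μ := μ) hch hhc
  have j3 := int_sqlog (μ := μ) hch hhc
  have hGF : ∫ x, h x ^ 2 ∂μ ≤ ∫ x, f x ^ 2 ∂μ := integral_mono j2 i2 hle
  have hG0 : 0 ≤ ∫ x, h x ^ 2 ∂μ := integral_nonneg fun x => sq_nonneg _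
  rw [← hN2] at hGF
  have hpt : ∀ x, f x ^ 2 * log (f x ^ 2) - f x ^ 2 * log (N ^ 2) - f x ^ 2 + N ^ 2 ≤
      (9 + 8 * log T) * (|f x| - N) ^ 2
        + (h x ^ 2 * log (h x ^ 2) - h x ^ 2 * log (N ^ 2)) :=
    fun x => point hN hT (h1 x) (h2 x)
  have hint := integral_mono
    (((i3.sub (i2.mul_const (log (N ^ 2)))).sub i2).add (integrable_const (N ^ 2)))
    ((iq.const_mul (9 + 8 * log T)).add (j3.sub (j2.mul_const (log (N ^ 2))))) hpt
  have eL : ∫ x, (f x ^ 2 * log (f x ^ 2) - f x ^ 2 * log (N ^ 2) - f x ^ 2 + N ^ 2) ∂μ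
      = (∫ x, f x ^ 2 * log (f x ^ 2) ∂μ) - N ^ 2 * log (N ^ 2) := by
    have a1 : ∫ x, (f x ^ 2 * log (f x ^ 2) - f x ^ 2 * log (N ^ 2) - f x ^ 2 + N ^ 2) ∂μ
        = (∫ x, (f x ^ 2 * log (f x ^ 2) - f x ^ 2 * log (N ^ 2) - f x ^ 2) ∂μ)
          + ∫ _x, N ^ 2 ∂μ :=
      integral_add ((i3.sub (i2.mul_const _)).sub i2) (integrable_const _)
    have a2 : ∫ x, (f x ^ 2 * log (f x ^ 2) - f x ^ 2 * log (N ^ 2) - f x ^ 2) ∂μ
        = (∫ x, (f x ^ 2 * log (f x ^ 2) - f x ^ 2 * log (N ^ 2)) ∂μ) - ∫ x, f x ^ 2 ∂μ :=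
      integral_sub (i3.sub (i2.mul_const _)) i2
    have a3 : ∫ x, (f x ^ 2 * log (f x ^ 2) - f x ^ 2 * log (N ^ 2)) ∂μ
        = (∫ x, f x ^ 2 * log (f x ^ 2) ∂μ) - (∫ x, f x ^ 2 ∂μ) * log (N ^ 2) := by
      rw [integral_sub i3 (i2.mul_const _), integral_mul_const]
    have a4 : ∫ _x : EuclideanSpace ℝ (Fin n), N ^ 2 ∂μ = N ^ 2 := by simp
    rw [a1, a2, a3, a4, ← hN2]
    ring
  have eR : ∫ x, ((9 + 8 * log T) * (|f x| - N) ^ 2
        + (h x ^ 2 * log (h x ^ 2) - h x ^ 2 * log (N ^ 2))) ∂μ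
      = (9 + 8 * log T) * (∫ x, (|f x| - N) ^ 2 ∂μ)
        + ((∫ x, h x ^ 2 * log (h x ^ 2) ∂μ) - (∫ x, h x ^ 2 ∂μ) * log (N ^ 2)) := by
    have a1 : ∫ x, ((9 + 8 * log T) * (|f x| - N) ^ 2
        + (h x ^ 2 * log (h x ^ 2) - h x ^ 2 * log (N ^ 2))) ∂μ
        = (∫ x, (9 + 8 * log T) * (|f x| - N) ^ 2 ∂μ)
          + ∫ x, (h x ^ 2 * log (h x ^ 2) - h x ^ 2 * log (N ^ 2)) ∂μ :=
      integral_add (iq.const_mul _) (j3.sub (j2.mul_const _))
    rw [a1, integral_const_mul, integral_sub j3 (j2.mul_const _), integral_mul_const]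
  have hint' : (∫ x, f x ^ 2 * log (f x ^ 2) ∂μ) - N ^ 2 * log (N ^ 2)
      ≤ (9 + 8 * log T) * (∫ x, (|f x| - N) ^ 2 ∂μ)
        + ((∫ x, h x ^ 2 * log (h x ^ 2) ∂μ) - (∫ x, h x ^ 2 ∂μ) * log (N ^ 2)) := by
    rw [← eL, ← eR]; exact hint
  have hlog : (∫ x, h x ^ 2 ∂μ) * log (∫ x, h x ^ 2 ∂μ) ≤ (∫ x, h x ^ 2 ∂μ) * log (N ^ 2) := by
    rcases hG0.eq_or_lt with h0 | hp
    · rw [← h0]; simp
    · exact mul_le_mul_of_nonneg_left (log_le_log hp hGF) hG0
  unfold Entropy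
  rw [← hN2]
  linarith

/-- the high part -/
theorem high {B W M L G Ih I Eh : ℝ} (hB0 : 0 ≤ B) (hW : 0 ≤ W) (hL : 0 < L) (hG0 : 0 ≤ G)
    (hI : Ih ≤ (1 + 4 * M) ^ 2 * I) (hI0 : 0 ≤ I) (hlow : L * G ≤ Eh)
    (hup : ∀ k : ℝ, 1 ≤ k → Eh ≤ B * k * Ih + W * exp (-k) * G) :
    Eh ≤ 4 * B * (1 + 4 * M) ^ 2 * (1 + log (1 + W / L)) * I := by
  set k := 1 + log (1 + 2 * W / L) with hk
  have hz : 0 ≤ 2 * W / L := by positivity
  have hk1 : 1 ≤ k := by
    have : 0 ≤ log (1 + 2 * W / L) := log_nonneg (by linarith)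
    linarith
  have hup := hup k hk1
  have hek : W * exp (-k) ≤ L / 2 := by
    have e1 : exp (-k) = exp (-1) * (1 + 2 * W / L)⁻¹ := by
      rw [hk, neg_add, exp_add, exp_neg (log _), exp_log (by linarith)]
    have e2 : exp (-1 : ℝ) ≤ 1 := exp_le_one_iff.2 (by norm_num)
    have e3 : exp (-k) ≤ (1 + 2 * W / L)⁻¹ := by
      rw [e1]
      have : 0 ≤ (1 + 2 * W / L)⁻¹ := by positivity
      nlinarith
    have e4 : W * (1 + 2 * W / L)⁻¹ ≤ L / 2 := by
      rw [← div_eq_mul_inv, div_le_iff₀ (by linarith)]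
      have : L / 2 * (1 + 2 * W / L) = L / 2 + W := by field_simp
      rw [this]; linarith
    exact (mul_le_mul_of_nonneg_left e3 hW).trans e4
  have h5 : W * exp (-k) * G ≤ Eh / 2 := by
    have := mul_le_mul_of_nonneg_right hek hG0
    linarith
  have h6 : Eh ≤ 2 * (B * k * ((1 + 4 * M) ^ 2 * I)) := by
    have : B * k * Ih ≤ B * k * ((1 + 4 * M) ^ 2 * I) :=
      mul_le_mul_of_nonneg_left hI (by positivity)
    linarith
  have hk2 : k ≤ 2 * (1 + log (1 + W / L)) := by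
    have e2 : 0 ≤ W / L := by positivity
    have e1 : 1 + 2 * W / L ≤ 2 * (1 + W / L) := by
      have : 2 * W / L = 2 * (W / L) := by ring
      rw [this]; linarith
    have e3 := log_le_log (by linarith) e1
    rw [log_mul (by norm_num) (by linarith)] at e3
    have e4 : log 2 ≤ 1 := by have := Real.log_two_lt_d9; linarith
    have e5 : 0 ≤ log (1 + W / L) := log_nonneg (by linarith)
    linarith
  have h7 : B * k * ((1 + 4 * M) ^ 2 * I)
      ≤ B * (2 * (1 + log (1 + W / L))) * ((1 + 4 * M) ^ 2 * I) := by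
    have h8 : 0 ≤ (1 + 4 * M) ^ 2 * I := by positivity
    exact mul_le_mul_of_nonneg_right (mul_le_mul_of_nonneg_left hk2 hB0) h8
  linarith

/-- the inequality of Q1 with a logarithm of the rarity of the high part only -/
theorem rare [IsProbabilityMeasure μ] {P B W M : ℝ} (hP0 : 0 ≤ P) (hB0 : 0 ≤ B) (hW : 0 ≤ W)
    (hM0 : 0 ≤ M) (hM : ∀ s : ℝ, |deriv Real.smoothTransition s| ≤ M)
    (hM1 : ∀ s : ℝ, 1 < s → deriv Real.smoothTransition s = 0)
    (hP : ∀ f : EuclideanSpace ℝ (Fin n) → ℝ, ContDiff ℝ ∞ f → HasCompactSupport f →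
      (∫ x, f x ^ 2 ∂μ) - (∫ x, f x ∂μ) ^ 2 ≤ P * ∫ x, ‖gradient f x‖ ^ 2 ∂μ)
    (hA : ∀ f : EuclideanSpace ℝ (Fin n) → ℝ, ContDiff ℝ ∞ f → HasCompactSupport f →
      ∀ k : ℝ, 1 ≤ k → Entropy μ (fun x => f x ^ 2) ≤
        B * k * ∫ x, ‖gradient f x‖ ^ 2 ∂μ + W * exp (-k) * ∫ x, f x ^ 2 ∂μ)
    {f : EuclideanSpace ℝ (Fin n) → ℝ} (hf : ContDiff ℝ ∞ f) (hfc : HasCompactSupport f)
    {T L : ℝ} (hT : 2 ≤ T) (hL : 0 < L)
    (hr : μ.real {x | T ^ 2 * ∫ y, f y ^ 2 ∂μ < f x ^ 2} ≤ exp (-L)) :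
    Entropy μ (fun x => f x ^ 2) ≤
      (2 * P * (9 + 8 * log T) + 4 * B * (1 + 4 * M) ^ 2 * (1 + log (1 + W / L)))
        * ∫ x, ‖gradient f x‖ ^ 2 ∂μ := by
  have hI0 : 0 ≤ ∫ x, ‖gradient f x‖ ^ 2 ∂μ := integral_nonneg fun x => sq_nonneg _
  have hF0 : 0 ≤ ∫ x, f x ^ 2 ∂μ := integral_nonneg fun x => sq_nonneg _
  have hlT : 0 ≤ log T := log_nonneg (by linarith)
  have hlW : 0 ≤ log (1 + W / L) := by
    apply log_nonneg
    have : 0 ≤ W / L := by positivity
    linarith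
  have hcf : Continuous f := hf.continuous
  rcases hF0.eq_or_lt with h0 | hFpos
  · rw [ent_zero hcf hfc h0.symm]
    positivity
  · obtain ⟨N, hNd⟩ : ∃ N : ℝ, N = √(∫ x, f x ^ 2 ∂μ) := ⟨_, rfl⟩
    have hN : 0 < N := by rw [hNd]; exact sqrt_pos.2 hFpos
    have hN2 : N ^ 2 = ∫ x, f x ^ 2 ∂μ := by rw [hNd]; exact sq_sqrt hF0
    rw [← hN2] at hr
    obtain ⟨c, hcd⟩ : ∃ c : ℝ, c = T ^ 2 * N ^ 2 := ⟨_, rfl⟩
    have hc : 0 < c := by rw [hcd]; positivity
    rw [← hcd] at hr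
    have hsm : ContDiff ℝ ∞ (fun x => cut c (f x)) := (cut_contDiff c).comp hf
    have hhc : HasCompactSupport (fun x => cut c (f x)) :=
      hfc.comp_left (g := cut c) (by simp [cut])
    have hch : Continuous (fun x => cut c (f x)) := hsm.continuous
    have hgrad : ∫ x, ‖gradient (fun y => cut c (f y)) x‖ ^ 2 ∂μ
        ≤ (1 + 4 * M) ^ 2 * ∫ x, ‖gradient f x‖ ^ 2 ∂μ := by
      rw [← integral_const_mul]
      apply integral_mono (int_grad hsm hhc) ((int_grad hf hfc).const_mul _)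
      intro x
      have h3 := pow_le_pow_left₀ (norm_nonneg _) (grad_cut hc hM0 hM hM1 hf x) 2
      rw [mul_pow] at h3
      exact h3
    have hsupp : μ.real {x | cut c (f x) ≠ 0} ≤ exp (-L) := by
      refine (measureReal_mono (fun x hx => ?_) (measure_ne_top _ _)).trans hr
      change c < f x ^ 2
      by_contra hcon
      push Not at hcon
      exact hx (cut_zero hc hcon)
    have hlow := ent_lower hch hhc hsupp
    have h7 := high hB0 hW hL (integral_nonneg fun x => sq_nonneg _) hgrad hI0 hlow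
      (fun k hk => hA _ hsm hhc k hk)
    obtain ⟨iq, hv⟩ := var_le hcf hfc (hP f hf hfc) hN.le hN2
    have h9 := low hcf hfc hch hhc hN hT hN2 (fun x => cut_sq_le c (f x))
      (fun x hx => cut_zero hc (by rw [hcd]; exact hx))
      (fun x hx => cut_id hc (by rw [hcd]; exact hx)) iq
    have h8 := mul_le_mul_of_nonneg_left hv (by positivity : 0 ≤ 9 + 8 * log T)
    calc Entropy μ (fun x => f x ^ 2)
        ≤ (9 + 8 * log T) * (2 * (P * ∫ x, ‖gradient f x‖ ^ 2 ∂μ))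
          + 4 * B * (1 + 4 * M) ^ 2 * (1 + log (1 + W / L))
            * ∫ x, ‖gradient f x‖ ^ 2 ∂μ := by linarith
      _ = _ := by ring

end Vale.Agent.P245.H607.Rare
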