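import Vale.Agent.P245.H607.Rare
import Vale.Agent.P245.N.Eff

/-! P245: functions with a rare high part, final form (helper607) -/

open MeasureTheory Real Set Filter Topology
open scoped ENNReal ContDiff

namespace Vale.Agent.P245

/-- The logarithmic Sobolev inequality for functions whose high part is rare: if
`f ^ 2 > T ^ 2 * E f ^ 2` has probability at most `exp (-L)`, the constant is
`C (1 + log T + log (1 + n / L))`, and `n` may be replaced by the effective dimension
`W ≥ log E exp (|X|²/(2a²))`. -/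
def RareLogSobolev {n : ℕ} (μ : Measure (EuclideanSpace ℝ (Fin n))) (C a : ℝ) : Prop :=
  ∀ f : EuclideanSpace ℝ (Fin n) → ℝ, ContDiff ℝ ∞ f → HasCompactSupport f →
    ∀ T L : ℝ, 2 ≤ T → 0 < L →
    μ.real {x | T ^ 2 * ∫ y, f y ^ 2 ∂μ < f x ^ 2} ≤ Real.exp (-L) →
    Entropy μ (fun x => f x ^ 2) ≤
      C * (1 + Real.log T + Real.log (1 + n / L)) * a ^ 2 * ∫ x, ‖gradient f x‖ ^ 2 ∂μ ∧
    ∀ W : ℝ, 1 ≤ W →
      ∫⁻ x, ENNReal.ofReal (Real.exp (‖x‖ ^ 2 / (2 * a ^ 2))) ∂μ
        ≤ ENNReal.ofReal (Real.exp W) →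
      Entropy μ (fun x => f x ^ 2) ≤
        C * (1 + Real.log T + Real.log (1 + W / L)) * a ^ 2 * ∫ x, ‖gradient f x‖ ^ 2 ∂μ

namespace H607

theorem entropy_dim_zero (μ : Measure (EuclideanSpace ℝ (Fin 0))) [IsProbabilityMeasure μ]
    (f : EuclideanSpace ℝ (Fin 0) → ℝ) : Entropy μ (fun x => f x ^ 2) = 0 := by
  have h : (fun x => f x ^ 2) = fun _ => f 0 ^ 2 := by
    funext x
    rw [Subsingleton.elim x 0]
  rw [h]
  unfold Entropy
  simp

theorem rareLogSobolev : ∃ c : ℝ, 0 < c ∧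
    ∀ (n : ℕ) (μ : Measure (EuclideanSpace ℝ (Fin n))) [IsProbabilityMeasure μ],
      HasLogConcaveDensity μ → ∀ a : ℝ, 0 < a → LinearlySubgaussian μ a →
      ∀ P : ℝ, 0 ≤ P →
      (∀ f : EuclideanSpace ℝ (Fin n) → ℝ, ContDiff ℝ ∞ f → HasCompactSupport f →
        (∫ x, f x ^ 2 ∂μ) - (∫ x, f x ∂μ) ^ 2 ≤ P * a ^ 2 * ∫ x, ‖gradient f x‖ ^ 2 ∂μ) →
      ∀ C : ℝ, c * (1 + P) ≤ C → RareLogSobolev μ C a := by
  obtain ⟨B, hB, h⟩ := N.effectiveDimension_all
  obtain ⟨M, hM0, hM, hM1⟩ := Rare.st_bound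
  refine ⟨36 + 8 * B * (1 + 4 * M) ^ 2, by positivity, ?_⟩
  intro n μ _ hlc a ha hsub P hP0 hP C hC
  have key : ∀ f : EuclideanSpace ℝ (Fin n) → ℝ, ContDiff ℝ ∞ f → HasCompactSupport f →
      ∀ T L : ℝ, 2 ≤ T → 0 < L →
      μ.real {x | T ^ 2 * ∫ y, f y ^ 2 ∂μ < f x ^ 2} ≤ Real.exp (-L) →
      ∀ W : ℝ, 1 ≤ W →
      ∫⁻ x, ENNReal.ofReal (Real.exp (‖x‖ ^ 2 / (2 * a ^ 2))) ∂μ
        ≤ ENNReal.ofReal (Real.exp W) →
      Entropy μ (fun x => f x ^ 2) ≤
        (18 + 4 * B * (1 + 4 * M) ^ 2) * (1 + P) * (1 + log T + log (1 + W / L)) * a ^ 2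
          * ∫ x, ‖gradient f x‖ ^ 2 ∂μ := by
    intro f hf hfc T L hT hL hr W hW hexp
    have hI0 : 0 ≤ ∫ x, ‖gradient f x‖ ^ 2 ∂μ := integral_nonneg fun x => sq_nonneg _
    have hlT : 0 ≤ log T := log_nonneg (by linarith)
    have hW0 : 0 ≤ W := by linarith
    have hlW : 0 ≤ log (1 + W / L) := by
      apply log_nonneg
      have : 0 ≤ W / L := by positivity
      linarith
    rcases Nat.eq_zero_or_pos n with hn | hn
    · subst hn
      rw [entropy_dim_zero]
      positivity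
    · obtain ⟨h1, _, _⟩ := h n hn μ hlc a ha hsub
      have hA : ∀ f : EuclideanSpace ℝ (Fin n) → ℝ, ContDiff ℝ ∞ f → HasCompactSupport f →
          ∀ k : ℝ, 1 ≤ k → Entropy μ (fun x => f x ^ 2) ≤
            B * a ^ 2 * k * ∫ x, ‖gradient f x‖ ^ 2 ∂μ + W * exp (-k) * ∫ x, f x ^ 2 ∂μ := by
        intro g hg hgc k hk
        have := (h1 W hW hexp g hg hgc).1 k hk
        have e : B * a ^ 2 * k = B * k * a ^ 2 := by ring
        rw [e]; exact this
      have h2 := Rare.rare (P := P * a ^ 2) (B := B * a ^ 2) (W := W) (by positivity)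
        (by positivity) hW0 hM0 hM hM1 hP hA hf hfc hT hL hr
      refine h2.trans ?_
      apply mul_le_mul_of_nonneg_right _ hI0
      have ha2 : 0 ≤ a ^ 2 := sq_nonneg a
      have e1 : 2 * (P * a ^ 2) * (9 + 8 * log T)
          + 4 * (B * a ^ 2) * (1 + 4 * M) ^ 2 * (1 + log (1 + W / L))
          = (2 * P * (9 + 8 * log T)
            + 4 * B * (1 + 4 * M) ^ 2 * (1 + log (1 + W / L))) * a ^ 2 := by ring
      rw [e1]
      apply mul_le_mul_of_nonneg_right _ ha2
      obtain ⟨Q, hQ⟩ : ∃ Q : ℝ, Q = 4 * B * (1 + 4 * M) ^ 2 := ⟨_, rfl⟩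
      have hQ0 : 0 ≤ Q := by rw [hQ]; positivity
      rw [← hQ]
      have f1 : 0 ≤ P * log T := by positivity
      have f2 : 0 ≤ P * log (1 + W / L) := by positivity
      have f3 : 0 ≤ Q * P := by positivity
      have f4 : 0 ≤ Q * log T := by positivity
      have f5 : 0 ≤ Q * P * log T := by positivity
      have f6 : 0 ≤ Q * P * log (1 + W / L) := by positivity
      nlinarith
  have hcC : (18 + 4 * B * (1 + 4 * M) ^ 2) * (1 + P) ≤ C := by
    refine le_trans ?_ hC
    apply mul_le_mul_of_nonneg_right _ (by linarith)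
    have : 0 ≤ B * (1 + 4 * M) ^ 2 := by positivity
    linarith
  intro f hf hfc T L hT hL hr
  have hI0 : 0 ≤ ∫ x, ‖gradient f x‖ ^ 2 ∂μ := integral_nonneg fun x => sq_nonneg _
  have hlT : 0 ≤ log T := log_nonneg (by linarith)
  have hln : 0 ≤ log (1 + n / L) := by
    apply log_nonneg
    have : (0 : ℝ) ≤ n / L := by positivity
    linarith
  have hC0 : 0 ≤ C := by
    refine le_trans ?_ hC
    positivity
  refine ⟨?_, fun W hW hexp => ?_⟩
  · rcases Nat.eq_zero_or_pos n with hn | hn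
    · subst hn
      rw [entropy_dim_zero]
      positivity
    · have hn1 : (1 : ℝ) ≤ n := by exact_mod_cast hn
      obtain ⟨_, _, h3⟩ := h n hn μ hlc a ha hsub
      have h4 := key f hf hfc T L hT hL hr (2 * n) (by linarith) h3
      refine h4.trans ?_
      apply mul_le_mul_of_nonneg_right _ hI0
      apply mul_le_mul_of_nonneg_right _ (sq_nonneg a)
      have e1 : log (1 + 2 * n / L) ≤ 1 + log (1 + n / L) := by
        have hz : (0 : ℝ) ≤ n / L := by positivity
        have e2 : 1 + 2 * n / L ≤ 2 * (1 + n / L) := by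
          have : 2 * (n : ℝ) / L = 2 * (n / L) := by ring
          rw [this]; linarith
        have hz2 : (0 : ℝ) ≤ 2 * n / L := by positivity
        have e3 := log_le_log (by linarith) e2
        rw [log_mul (by norm_num) (by linarith)] at e3
        have e4 : log 2 ≤ 1 := by have := Real.log_two_lt_d9; linarith
        linarith
      have e5 : 1 + log T + log (1 + 2 * n / L) ≤ 2 * (1 + log T + log (1 + n / L)) := by
        linarith
      have e6 : 0 ≤ 1 + log T + log (1 + n / L) := by linarith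
      have e7 : 0 ≤ (18 + 4 * B * (1 + 4 * M) ^ 2) * (1 + P) := by positivity
      calc (18 + 4 * B * (1 + 4 * M) ^ 2) * (1 + P) * (1 + log T + log (1 + 2 * n / L))
          ≤ (18 + 4 * B * (1 + 4 * M) ^ 2) * (1 + P) * (2 * (1 + log T + log (1 + n / L))) :=
            mul_le_mul_of_nonneg_left e5 e7
        _ = ((36 + 8 * B * (1 + 4 * M) ^ 2) * (1 + P)) * (1 + log T + log (1 + n / L)) := by
            ring
        _ ≤ C * (1 + log T + log (1 + n / L)) := by
            apply mul_le_mul_of_nonneg_right _ e6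
            refine le_trans ?_ hC
            apply mul_le_mul_of_nonneg_right _ (by linarith)
            exact le_rfl
  · have hlW : 0 ≤ log (1 + W / L) := by
      apply log_nonneg
      have : 0 ≤ W / L := by positivity
      linarith
    refine (key f hf hfc T L hT hL hr W hW hexp).trans ?_
    apply mul_le_mul_of_nonneg_right _ hI0
    apply mul_le_mul_of_nonneg_right _ (sq_nonneg a)
    apply mul_le_mul_of_nonneg_right hcC
    linarith

end H607

end Vale.Agent.P245
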