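import Vale.Agent.P245.H607.RareF

/-! P245: high part, general form (helper607) -/

open MeasureTheory Real Set Filter Topology
open scoped ENNReal ContDiff

namespace Vale.Agent.P245

/-- Logarithmic Sobolev inequalities in which the dimension `n` (or any effective dimension
`W ≥ log E exp (|X|²/(2a²))`) is only paid on the high part `f ^ 2 > T ^ 2 * E f ^ 2` of `f`. -/
def HighPartLogSobolev {n : ℕ} (μ : Measure (EuclideanSpace ℝ (Fin n))) (C a : ℝ) : Prop :=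
  ∀ f : EuclideanSpace ℝ (Fin n) → ℝ, ContDiff ℝ ∞ f → HasCompactSupport f →
    ∀ T : ℝ, 2 ≤ T → ∀ W : ℝ, (W = n ∨ 1 ≤ W ∧
      ∫⁻ x, ENNReal.ofReal (Real.exp (‖x‖ ^ 2 / (2 * a ^ 2))) ∂μ
        ≤ ENNReal.ofReal (Real.exp W)) →
      (∀ k : ℝ, 1 ≤ k → Entropy μ (fun x => f x ^ 2) ≤
        C * (k + Real.log T) * a ^ 2 * ∫ x, ‖gradient f x‖ ^ 2 ∂μ
          + W * Real.exp (-k) *
            ∫ x in {x | T ^ 2 * ∫ y, f y ^ 2 ∂μ < f x ^ 2}, f x ^ 2 ∂μ) ∧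
      (∀ L : ℝ, 0 < L → μ.real {x | T ^ 2 * ∫ y, f y ^ 2 ∂μ < f x ^ 2} ≤ Real.exp (-L) →
        Entropy μ (fun x => f x ^ 2) ≤
          C * (1 + Real.log T + Real.log (1 + W / L)) * a ^ 2
            * ∫ x, ‖gradient f x‖ ^ 2 ∂μ)

end Vale.Agent.P245

namespace Vale.Agent.P245.H607

/-- only the mass of the high part enters -/
theorem Rare.gen {n : ℕ} {μ : Measure (EuclideanSpace ℝ (Fin n))} [IsProbabilityMeasure μ]
    {P B W M : ℝ} (hP0 : 0 ≤ P) (hB0 : 0 ≤ B) (hW : 0 ≤ W)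
    (hM0 : 0 ≤ M) (hM : ∀ s : ℝ, |deriv Real.smoothTransition s| ≤ M)
    (hM1 : ∀ s : ℝ, 1 < s → deriv Real.smoothTransition s = 0)
    (hP : ∀ f : EuclideanSpace ℝ (Fin n) → ℝ, ContDiff ℝ ∞ f → HasCompactSupport f →
      (∫ x, f x ^ 2 ∂μ) - (∫ x, f x ∂μ) ^ 2 ≤ P * ∫ x, ‖gradient f x‖ ^ 2 ∂μ)
    (hA : ∀ f : EuclideanSpace ℝ (Fin n) → ℝ, ContDiff ℝ ∞ f → HasCompactSupport f →
      ∀ k : ℝ, 1 ≤ k → Entropy μ (fun x => f x ^ 2) ≤
        B * k * ∫ x, ‖gradient f x‖ ^ 2 ∂μ + W * exp (-k) * ∫ x, f x ^ 2 ∂μ)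
    {f : EuclideanSpace ℝ (Fin n) → ℝ} (hf : ContDiff ℝ ∞ f) (hfc : HasCompactSupport f)
    {T : ℝ} (hT : 2 ≤ T) {k : ℝ} (hk : 1 ≤ k) :
    Entropy μ (fun x => f x ^ 2) ≤
      (2 * P * (9 + 8 * log T) + B * k * (1 + 4 * M) ^ 2) * ∫ x, ‖gradient f x‖ ^ 2 ∂μ
        + W * exp (-k) * ∫ x in {x | T ^ 2 * ∫ y, f y ^ 2 ∂μ < f x ^ 2}, f x ^ 2 ∂μ := by
  have hI0 : 0 ≤ ∫ x, ‖gradient f x‖ ^ 2 ∂μ := integral_nonneg fun x => sq_nonneg _
  have hF0 : 0 ≤ ∫ x, f x ^ 2 ∂μ := integral_nonneg fun x => sq_nonneg _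
  have hS0 : 0 ≤ ∫ x in {x | T ^ 2 * ∫ y, f y ^ 2 ∂μ < f x ^ 2}, f x ^ 2 ∂μ :=
    integral_nonneg fun x => sq_nonneg _
  have hlT : 0 ≤ log T := log_nonneg (by linarith)
  have hk0 : 0 ≤ k := by linarith
  have hcf : Continuous f := hf.continuous
  rcases hF0.eq_or_lt with h0 | hFpos
  · rw [Rare.ent_zero hcf hfc h0.symm]
    positivity
  · obtain ⟨N, hNd⟩ : ∃ N : ℝ, N = √(∫ x, f x ^ 2 ∂μ) := ⟨_, rfl⟩
    have hN : 0 < N := by rw [hNd]; exact sqrt_pos.2 hFpos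
    have hN2 : N ^ 2 = ∫ x, f x ^ 2 ∂μ := by rw [hNd]; exact sq_sqrt hF0
    rw [← hN2]
    obtain ⟨c, hcd⟩ : ∃ c : ℝ, c = T ^ 2 * N ^ 2 := ⟨_, rfl⟩
    have hc : 0 < c := by rw [hcd]; positivity
    rw [← hcd]
    have hsm : ContDiff ℝ ∞ (fun x => Rare.cut c (f x)) := (Rare.cut_contDiff c).comp hf
    have hhc : HasCompactSupport (fun x => Rare.cut c (f x)) :=
      hfc.comp_left (g := Rare.cut c) (by simp [Rare.cut])
    have hch : Continuous (fun x => Rare.cut c (f x)) := hsm.continuous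
    have hgrad : ∫ x, ‖gradient (fun y => Rare.cut c (f y)) x‖ ^ 2 ∂μ
        ≤ (1 + 4 * M) ^ 2 * ∫ x, ‖gradient f x‖ ^ 2 ∂μ := by
      rw [← integral_const_mul]
      apply integral_mono (Rare.int_grad hsm hhc) ((Rare.int_grad hf hfc).const_mul _)
      intro x
      have h3 := pow_le_pow_left₀ (norm_nonneg _) (Rare.grad_cut hc hM0 hM hM1 hf x) 2
      rw [mul_pow] at h3
      exact h3
    have hG : ∫ x, Rare.cut c (f x) ^ 2 ∂μ ≤ ∫ x in {x | c < f x ^ 2}, f x ^ 2 ∂μ := by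
      have e : ∫ x in {x | c < f x ^ 2}, Rare.cut c (f x) ^ 2 ∂μ
          = ∫ x, Rare.cut c (f x) ^ 2 ∂μ := by
        apply setIntegral_eq_integral_of_forall_compl_eq_zero
        intro x hx
        have hx' : f x ^ 2 ≤ c := not_lt.1 hx
        rw [Rare.cut_zero hc hx']
        simp
      rw [← e]
      exact setIntegral_mono (Rare.int_sq hch hhc).integrableOn
        (Rare.int_sq hcf hfc).integrableOn fun x => Rare.cut_sq_le c (f x)
    have h7 := hA _ hsm hhc k hk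
    obtain ⟨iq, hv⟩ := Rare.var_le hcf hfc (hP f hf hfc) hN.le hN2
    have h9 := Rare.low hcf hfc hch hhc hN hT hN2 (fun x => Rare.cut_sq_le c (f x))
      (fun x hx => Rare.cut_zero hc (by rw [hcd]; exact hx))
      (fun x hx => Rare.cut_id hc (by rw [hcd]; exact hx)) iq
    have h8 := mul_le_mul_of_nonneg_left hv (by positivity : 0 ≤ 9 + 8 * log T)
    have h10 := mul_le_mul_of_nonneg_left hgrad (by positivity : 0 ≤ B * k)
    have h11 := mul_le_mul_of_nonneg_left hG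
      (mul_nonneg hW (exp_pos (-k)).le)
    calc Entropy μ (fun x => f x ^ 2)
        ≤ (9 + 8 * log T) * (2 * (P * ∫ x, ‖gradient f x‖ ^ 2 ∂μ))
          + (B * k * ((1 + 4 * M) ^ 2 * ∫ x, ‖gradient f x‖ ^ 2 ∂μ)
            + W * exp (-k) * ∫ x in {x | c < f x ^ 2}, f x ^ 2 ∂μ) := by linarith
      _ = _ := by ring

theorem highPart : ∃ c : ℝ, 0 < c ∧
    ∀ (n : ℕ) (μ : Measure (EuclideanSpace ℝ (Fin n))) [IsProbabilityMeasure μ],
      HasLogConcaveDensity μ → ∀ a : ℝ, 0 < a → LinearlySubgaussian μ a →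
      ∀ P : ℝ, 0 ≤ P →
      (∀ f : EuclideanSpace ℝ (Fin n) → ℝ, ContDiff ℝ ∞ f → HasCompactSupport f →
        (∫ x, f x ^ 2 ∂μ) - (∫ x, f x ∂μ) ^ 2 ≤ P * a ^ 2 * ∫ x, ‖gradient f x‖ ^ 2 ∂μ) →
      ∀ C : ℝ, c * (1 + P) ≤ C →
      ∀ f : EuclideanSpace ℝ (Fin n) → ℝ, ContDiff ℝ ∞ f → HasCompactSupport f →
      ∀ T : ℝ, 2 ≤ T → ∀ W : ℝ, (W = n ∨ 1 ≤ W ∧
        ∫⁻ x, ENNReal.ofReal (exp (‖x‖ ^ 2 / (2 * a ^ 2))) ∂μ ≤ ENNReal.ofReal (exp W)) →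
        (∀ k : ℝ, 1 ≤ k → Entropy μ (fun x => f x ^ 2) ≤
          C * (k + log T) * a ^ 2 * ∫ x, ‖gradient f x‖ ^ 2 ∂μ
            + W * exp (-k) *
              ∫ x in {x | T ^ 2 * ∫ y, f y ^ 2 ∂μ < f x ^ 2}, f x ^ 2 ∂μ) ∧
        (∀ L : ℝ, 0 < L → μ.real {x | T ^ 2 * ∫ y, f y ^ 2 ∂μ < f x ^ 2} ≤ exp (-L) →
          Entropy μ (fun x => f x ^ 2) ≤
            C * (1 + log T + log (1 + W / L)) * a ^ 2 * ∫ x, ‖gradient f x‖ ^ 2 ∂μ) := by
  obtain ⟨B, hB, h⟩ := N.effectiveDimension_all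
  obtain ⟨M, hM0, hM, hM1⟩ := Rare.st_bound
  obtain ⟨c1, hc1, h1⟩ := rareLogSobolev
  refine ⟨c1 + (36 + 2 * B * (1 + 4 * M) ^ 2), by positivity, ?_⟩
  intro n μ _ hlc a ha hsub P hP0 hP C hC f hf hfc T hT W hW
  have hQ0 : 0 ≤ B * (1 + 4 * M) ^ 2 := by positivity
  have hC1 : c1 * (1 + P) ≤ C := by nlinarith
  have hC2 : (36 + 2 * B * (1 + 4 * M) ^ 2) * (1 + P) ≤ C := by nlinarith
  have hrare := h1 n μ hlc a ha hsub P hP0 hP C hC1
  have hI0 : 0 ≤ ∫ x, ‖gradient f x‖ ^ 2 ∂μ := integral_nonneg fun x => sq_nonneg _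
  have hS0 : 0 ≤ ∫ x in {x | T ^ 2 * ∫ y, f y ^ 2 ∂μ < f x ^ 2}, f x ^ 2 ∂μ :=
    integral_nonneg fun x => sq_nonneg _
  have hlT : 0 ≤ log T := log_nonneg (by linarith)
  -- the inequality with `k`, effective dimension
  have key : 1 ≤ n → ∀ W : ℝ, 1 ≤ W →
      ∫⁻ x, ENNReal.ofReal (exp (‖x‖ ^ 2 / (2 * a ^ 2))) ∂μ ≤ ENNReal.ofReal (exp W) →
      ∀ k : ℝ, 1 ≤ k → Entropy μ (fun x => f x ^ 2) ≤
        (18 + B * (1 + 4 * M) ^ 2) * (1 + P) * (k + log T) * a ^ 2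
            * ∫ x, ‖gradient f x‖ ^ 2 ∂μ
          + W * exp (-k) *
            ∫ x in {x | T ^ 2 * ∫ y, f y ^ 2 ∂μ < f x ^ 2}, f x ^ 2 ∂μ := by
    intro hn W hW1 hexp k hk
    obtain ⟨h2, _, _⟩ := h n hn μ hlc a ha hsub
    have hA : ∀ f : EuclideanSpace ℝ (Fin n) → ℝ, ContDiff ℝ ∞ f → HasCompactSupport f →
        ∀ k : ℝ, 1 ≤ k → Entropy μ (fun x => f x ^ 2) ≤
          B * a ^ 2 * k * ∫ x, ‖gradient f x‖ ^ 2 ∂μ + W * exp (-k) * ∫ x, f x ^ 2 ∂μ := by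
      intro g hg hgc k hk
      have := (h2 W hW1 hexp g hg hgc).1 k hk
      have e : B * a ^ 2 * k = B * k * a ^ 2 := by ring
      rw [e]; exact this
    have h3 := Rare.gen (P := P * a ^ 2) (B := B * a ^ 2) (W := W) (by positivity)
      (by positivity) (by linarith) hM0 hM hM1 hP hA hf hfc hT hk
    refine h3.trans ?_
    have hk0 : 0 ≤ k := by linarith
    have e1 : 2 * (P * a ^ 2) * (9 + 8 * log T) + B * a ^ 2 * k * (1 + 4 * M) ^ 2
        = (2 * P * (9 + 8 * log T) + B * (1 + 4 * M) ^ 2 * k) * a ^ 2 := by ring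
    have e2 : 2 * P * (9 + 8 * log T) + B * (1 + 4 * M) ^ 2 * k
        ≤ (18 + B * (1 + 4 * M) ^ 2) * (1 + P) * (k + log T) := by
      obtain ⟨Q, hQ⟩ : ∃ Q : ℝ, Q = B * (1 + 4 * M) ^ 2 := ⟨_, rfl⟩
      rw [← hQ] at hQ0 ⊢
      have f1 : 0 ≤ P * log T := by positivity
      have f2 : P * 1 ≤ P * k := mul_le_mul_of_nonneg_left hk hP0
      have f3 : 0 ≤ Q * log T := by positivity
      have f4 : 0 ≤ Q * P * log T := by positivity
      have f5 : 0 ≤ Q * P * k := by positivity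
      nlinarith
    rw [e1]
    have e3 := mul_le_mul_of_nonneg_right (mul_le_mul_of_nonneg_right e2 (sq_nonneg a)) hI0
    linarith
  have up : ∀ s x : ℝ, 0 ≤ s → (18 + B * (1 + 4 * M) ^ 2) * (1 + P) * s ≤ x →
      (18 + B * (1 + 4 * M) ^ 2) * (1 + P) * s * a ^ 2 * ∫ x, ‖gradient f x‖ ^ 2 ∂μ
        ≤ x * a ^ 2 * ∫ x, ‖gradient f x‖ ^ 2 ∂μ := by
    intro s x hs hx
    exact mul_le_mul_of_nonneg_right (mul_le_mul_of_nonneg_right hx (sq_nonneg a)) hI0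
  constructor
  · intro k hk
    rcases Nat.eq_zero_or_pos n with hn | hn
    · subst hn
      rw [entropy_dim_zero]
      have hW0 : 0 ≤ W := by
        rcases hW with hW | ⟨hW, _⟩
        · rw [hW]; simp
        · linarith
      have hk0 : 0 ≤ k := by linarith
      have hC0 : 0 ≤ C := by
        refine le_trans ?_ hC2
        positivity
      positivity
    · rcases hW with hW | ⟨hW1, hexp⟩
      · obtain ⟨_, _, h3⟩ := h n hn μ hlc a ha hsub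
        have hn1 : (1 : ℝ) ≤ n := by exact_mod_cast hn
        have hl2 : 0 ≤ log 2 := (log_pos (by norm_num)).le
        have hl2' : log 2 ≤ 1 := by have := Real.log_two_lt_d9; linarith
        have h4 := key hn (2 * n) (by linarith) h3 (k + log 2) (by linarith)
        have e1 : 2 * (n : ℝ) * exp (-(k + log 2)) = n * exp (-k) := by
          rw [neg_add, exp_add, exp_neg (log 2), exp_log (by norm_num)]; ring
        rw [e1] at h4
        rw [hW]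
        refine h4.trans (add_le_add ?_ le_rfl)
        apply up _ _ (by linarith)
        have e2 : k + log 2 + log T ≤ 2 * (k + log T) := by linarith
        have e3 : 0 ≤ (18 + B * (1 + 4 * M) ^ 2) * (1 + P) := by positivity
        have e4 : 0 ≤ k + log T := by linarith
        calc (18 + B * (1 + 4 * M) ^ 2) * (1 + P) * (k + log 2 + log T)
            ≤ (18 + B * (1 + 4 * M) ^ 2) * (1 + P) * (2 * (k + log T)) :=
              mul_le_mul_of_nonneg_left e2 e3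
          _ = (36 + 2 * B * (1 + 4 * M) ^ 2) * (1 + P) * (k + log T) := by ring
          _ ≤ C * (k + log T) := mul_le_mul_of_nonneg_right hC2 e4
      · refine (key hn W hW1 hexp k hk).trans (add_le_add ?_ le_rfl)
        apply up _ _ (by linarith)
        apply mul_le_mul_of_nonneg_right _ (by linarith)
        refine le_trans ?_ hC2
        apply mul_le_mul_of_nonneg_right _ (by linarith)
        linarith
  · intro L hL hr
    obtain ⟨g1, g2⟩ := hrare f hf hfc T L hT hL hr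
    rcases hW with hW | ⟨hW1, hexp⟩
    · rw [hW]; exact g1
    · exact g2 W hW1 hexp

theorem highPartLogSobolev : ∃ c : ℝ, 0 < c ∧
    ∀ (n : ℕ) (μ : Measure (EuclideanSpace ℝ (Fin n))) [IsProbabilityMeasure μ],
      HasLogConcaveDensity μ → ∀ a : ℝ, 0 < a → LinearlySubgaussian μ a →
      ∀ P : ℝ, 0 ≤ P →
      (∀ f : EuclideanSpace ℝ (Fin n) → ℝ, ContDiff ℝ ∞ f → HasCompactSupport f →
        (∫ x, f x ^ 2 ∂μ) - (∫ x, f x ∂μ) ^ 2 ≤ P * a ^ 2 * ∫ x, ‖gradient f x‖ ^ 2 ∂μ) →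
      ∀ C : ℝ, c * (1 + P) ≤ C → HighPartLogSobolev μ C a := by
  obtain ⟨c, hc, h⟩ := highPart
  exact ⟨c, hc, fun n μ _ hlc a ha hsub P hP0 hP C hC f hf hfc T hT W hW =>
    h n μ hlc a ha hsub P hP0 hP C hC f hf hfc T hT W hW⟩

end Vale.Agent.P245.H607
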