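import Mathlib
import Vale.Agent.P245.Defs

/-! # P245: tilts of a subgaussian law by Lipschitz functions -/

open MeasureTheory Set
open scoped ContDiff

namespace Vale.Agent.P245.H607

open Vale.Agent.P245

variable {n : ℕ}


theorem exp_norm_sq_le {a : ℝ} (ha : 0 < a) (x : EuclideanSpace ℝ (Fin n)) :
    Real.exp (‖x‖ ^ 2 / (((n : ℝ) + 1) * a ^ 2)) ≤
      1 + ∑ i : Fin n, Real.exp (x i ^ 2 / a ^ 2) := by
  have hn1 : (0 : ℝ) < (n : ℝ) + 1 := by positivity
  have ha2 : 0 < a ^ 2 := by positivity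
  by_cases h : ∃ i : Fin n, ‖x‖ ^ 2 / ((n : ℝ) + 1) ≤ x i ^ 2
  · obtain ⟨i, hi⟩ := h
    have h1 : ‖x‖ ^ 2 / (((n : ℝ) + 1) * a ^ 2) ≤ x i ^ 2 / a ^ 2 := by
      rw [← div_div]
      exact div_le_div_of_nonneg_right hi ha2.le
    have h2 : Real.exp (x i ^ 2 / a ^ 2) ≤ ∑ j : Fin n, Real.exp (x j ^ 2 / a ^ 2) :=
      Finset.single_le_sum (f := fun j => Real.exp (x j ^ 2 / a ^ 2))
        (fun j _ => (Real.exp_pos _).le) (Finset.mem_univ i)
    have h3 := Real.exp_le_exp.2 h1
    linarith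
  · push Not at h
    have h1 : ‖x‖ ^ 2 = ∑ i : Fin n, x i ^ 2 := by
      rw [EuclideanSpace.norm_sq_eq]
      simp
    have h2 : ∑ i : Fin n, x i ^ 2 ≤ ∑ _i : Fin n, ‖x‖ ^ 2 / ((n : ℝ) + 1) :=
      Finset.sum_le_sum fun i _ => (h i).le
    rw [← h1, Finset.sum_const, Finset.card_univ, Fintype.card_fin, nsmul_eq_mul] at h2
    have h4 : ‖x‖ ^ 2 * ((n : ℝ) + 1) ≤ (n : ℝ) * ‖x‖ ^ 2 := by
      have := mul_le_mul_of_nonneg_right h2 hn1.le
      have e : (n : ℝ) * (‖x‖ ^ 2 / ((n : ℝ) + 1)) * ((n : ℝ) + 1) = (n : ℝ) * ‖x‖ ^ 2 := by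
        field_simp
      rw [e] at this
      exact this
    have h5 : ‖x‖ ^ 2 ≤ 0 := by nlinarith
    have h6 : ‖x‖ ^ 2 = 0 := le_antisymm h5 (by positivity)
    rw [h6, zero_div, Real.exp_zero]
    have h7 : 0 ≤ ∑ i : Fin n, Real.exp (x i ^ 2 / a ^ 2) :=
      Finset.sum_nonneg fun j _ => (Real.exp_pos _).le
    linarith

theorem integrable_exp_norm_sq {mu : Measure (EuclideanSpace ℝ (Fin n))} [IsProbabilityMeasure mu]
    {a : ℝ} (ha : 0 < a) (hsub : LinearlySubgaussian mu a) :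
    Integrable (fun x => Real.exp (‖x‖ ^ 2 / (((n : ℝ) + 1) * a ^ 2))) mu := by
  have hc : ∀ i : Fin n, Integrable (fun x : EuclideanSpace ℝ (Fin n) =>
      Real.exp (x i ^ 2 / a ^ 2)) mu := by
    intro i
    have hcont : Continuous (fun x : EuclideanSpace ℝ (Fin n) => Real.exp (x i ^ 2 / a ^ 2)) := by
      fun_prop
    refine ⟨hcont.aestronglyMeasurable, ?_⟩
    rw [hasFiniteIntegral_iff_ofReal (Filter.Eventually.of_forall fun x => (Real.exp_pos _).le)]
    have h1 := hsub (EuclideanSpace.single i (1 : ℝ)) (by simp)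
    refine lt_of_le_of_lt (le_of_eq ?_) (lt_of_le_of_lt h1 (by norm_num))
    apply lintegral_congr
    intro x
    simp [EuclideanSpace.inner_single_right]
  have hs : Integrable (fun x : EuclideanSpace ℝ (Fin n) =>
      1 + ∑ i : Fin n, Real.exp (x i ^ 2 / a ^ 2)) mu :=
    (integrable_const _).add (integrable_finsetSum _ fun i _ => hc i)
  have hcont : Continuous (fun x : EuclideanSpace ℝ (Fin n) =>
      Real.exp (‖x‖ ^ 2 / (((n : ℝ) + 1) * a ^ 2))) := by
    fun_prop
  refine hs.mono' hcont.aestronglyMeasurable (Filter.Eventually.of_forall fun x => ?_)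
  rw [Real.norm_eq_abs, abs_of_pos (Real.exp_pos _)]
  exact exp_norm_sq_le ha x

theorem exp_lin_le {D c r : ℝ} (hD : 0 < D) :
    Real.exp (c * r) ≤ Real.exp (c ^ 2 * D / 4) * Real.exp (r ^ 2 / D) := by
  rw [← Real.exp_add]
  apply Real.exp_le_exp.2
  have h : c * r = c ^ 2 * D / 4 + r ^ 2 / D - (c * D / 2 - r) ^ 2 / D := by
    field_simp
    ring
  rw [h]
  have : 0 ≤ (c * D / 2 - r) ^ 2 / D := by positivity
  linarith

/-- functions of exponential growth are integrable -/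
theorem integrable_of_growth {mu : Measure (EuclideanSpace ℝ (Fin n))} [IsProbabilityMeasure mu]
    {a : ℝ} (ha : 0 < a) (hsub : LinearlySubgaussian mu a) {g : EuclideanSpace ℝ (Fin n) → ℝ}
    (hg : Continuous g) (M c : ℝ) (hM : ∀ x, |g x| ≤ M * Real.exp (c * ‖x‖)) :
    Integrable g mu := by
  have hD : (0 : ℝ) < ((n : ℝ) + 1) * a ^ 2 := by positivity
  have h0 : 0 ≤ M := by
    have h := hM 0
    simp only [norm_zero, mul_zero, Real.exp_zero, mul_one] at h
    exact (abs_nonneg _).trans h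
  have hI := ((integrable_exp_norm_sq ha hsub).const_mul
    (M * Real.exp (c ^ 2 * (((n : ℝ) + 1) * a ^ 2) / 4)))
  refine hI.mono' hg.aestronglyMeasurable (Filter.Eventually.of_forall fun x => ?_)
  rw [Real.norm_eq_abs]
  refine (hM x).trans ?_
  have h1 := exp_lin_le (c := c) (r := ‖x‖) hD
  calc M * Real.exp (c * ‖x‖) ≤ M * (Real.exp (c ^ 2 * (((n : ℝ) + 1) * a ^ 2) / 4) *
        Real.exp (‖x‖ ^ 2 / (((n : ℝ) + 1) * a ^ 2))) := mul_le_mul_of_nonneg_left h1 h0
    _ = _ := by ring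

theorem abs_le_of_lip {F : EuclideanSpace ℝ (Fin n) → ℝ} (hF : LipschitzWith 1 F)
    (x : EuclideanSpace ℝ (Fin n)) : |F x| ≤ |F 0| + ‖x‖ := by
  have h := hF.dist_le_mul x 0
  rw [Real.dist_eq, dist_zero_right] at h
  simp only [NNReal.coe_one, one_mul] at h
  have h2 : |F x| ≤ |F x - F 0| + |F 0| := by
    have := abs_add_le (F x - F 0) (F 0)
    simpa using this
  linarith

theorem exp_tilt_le {F : EuclideanSpace ℝ (Fin n) → ℝ} (hF : LipschitzWith 1 F) {s S : ℝ}
    (hs : |s| ≤ S) (x : EuclideanSpace ℝ (Fin n)) :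
    Real.exp (-s * F x) ≤ Real.exp (S * |F 0|) * Real.exp (S * ‖x‖) := by
  rw [← Real.exp_add]
  apply Real.exp_le_exp.2
  have h1 : -s * F x ≤ |s| * |F x| := by
    calc -s * F x ≤ |-s * F x| := le_abs_self _
      _ = |s| * |F x| := by rw [abs_mul, abs_neg]
  have h2 := abs_le_of_lip hF x
  have hS : 0 ≤ S := (abs_nonneg s).trans hs
  calc -s * F x ≤ |s| * |F x| := h1
    _ ≤ S * (|F 0| + ‖x‖) := mul_le_mul hs h2 (abs_nonneg _) hS
    _ = _ := by ring

theorem sq_le_exp {r : ℝ} (hr : 0 ≤ r) : r ^ 2 ≤ 2 * Real.exp r := by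
  have h := Real.quadratic_le_exp_of_nonneg hr
  nlinarith

theorem continuous_tilt {F : EuclideanSpace ℝ (Fin n) → ℝ} (hF : LipschitzWith 1 F) (s : ℝ) :
    Continuous fun x => Real.exp (-s * F x) := by
  have := hF.continuous
  fun_prop

/-- (T1) -/
theorem tilt_integrable {mu : Measure (EuclideanSpace ℝ (Fin n))} [IsProbabilityMeasure mu]
    {a : ℝ} (ha : 0 < a) (hsub : LinearlySubgaussian mu a)
    {F : EuclideanSpace ℝ (Fin n) → ℝ} (hF : LipschitzWith 1 F) (s : ℝ) :
    Integrable (fun x => Real.exp (-s * F x)) mu :=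
  integrable_of_growth ha hsub (continuous_tilt hF s) (Real.exp (|s| * |F 0|)) |s| fun x => by
    rw [abs_of_pos (Real.exp_pos _)]
    exact exp_tilt_le hF le_rfl x

/-- (T1) -/
theorem tilt_integrable_sq {mu : Measure (EuclideanSpace ℝ (Fin n))} [IsProbabilityMeasure mu]
    {a : ℝ} (ha : 0 < a) (hsub : LinearlySubgaussian mu a)
    {F : EuclideanSpace ℝ (Fin n) → ℝ} (hF : LipschitzWith 1 F) (s : ℝ) :
    Integrable (fun x => ‖x‖ ^ 2 * Real.exp (-s * F x)) mu := by
  have hc := (continuous_tilt hF s)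
  refine integrable_of_growth ha hsub (by fun_prop) (2 * Real.exp (|s| * |F 0|)) (|s| + 1)
    fun x => ?_
  rw [abs_of_nonneg (by positivity)]
  have h1 := exp_tilt_le hF (le_refl |s|) x
  have h2 := sq_le_exp (norm_nonneg x)
  calc ‖x‖ ^ 2 * Real.exp (-s * F x)
      ≤ (2 * Real.exp ‖x‖) * (Real.exp (|s| * |F 0|) * Real.exp (|s| * ‖x‖)) :=
        mul_le_mul h2 h1 (Real.exp_pos _).le (by positivity)
    _ = 2 * Real.exp (|s| * |F 0|) * (Real.exp (|s| * ‖x‖) * Real.exp ‖x‖) := by ring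
    _ = 2 * Real.exp (|s| * |F 0|) * Real.exp ((|s| + 1) * ‖x‖) := by
        rw [← Real.exp_add]
        ring_nf

/-- `F` times the tilt is integrable -/
theorem tilt_integrable_mul {mu : Measure (EuclideanSpace ℝ (Fin n))} [IsProbabilityMeasure mu]
    {a : ℝ} (ha : 0 < a) (hsub : LinearlySubgaussian mu a)
    {F : EuclideanSpace ℝ (Fin n) → ℝ} (hF : LipschitzWith 1 F) (s : ℝ) :
    Integrable (fun x => Real.exp (-s * F x) * F x) mu := by
  have hc := (continuous_tilt hF s)
  have hFc := hF.continuous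
  refine integrable_of_growth ha hsub (by fun_prop) ((|F 0| + 1) * Real.exp (|s| * |F 0|))
    (|s| + 1) fun x => ?_
  rw [abs_mul, abs_of_pos (Real.exp_pos _)]
  have h1 := exp_tilt_le hF (le_refl |s|) x
  have h2 := abs_le_of_lip hF x
  have h3 : |F 0| + ‖x‖ ≤ (|F 0| + 1) * Real.exp ‖x‖ := by
    have h4 := Real.add_one_le_exp ‖x‖
    have h5 : 1 ≤ Real.exp ‖x‖ := Real.one_le_exp (norm_nonneg x)
    nlinarith [abs_nonneg (F 0), norm_nonneg x]
  calc Real.exp (-s * F x) * |F x|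
      ≤ (Real.exp (|s| * |F 0|) * Real.exp (|s| * ‖x‖)) * ((|F 0| + 1) * Real.exp ‖x‖) :=
        mul_le_mul h1 (h2.trans h3) (abs_nonneg _) (by positivity)
    _ = (|F 0| + 1) * Real.exp (|s| * |F 0|) * (Real.exp (|s| * ‖x‖) * Real.exp ‖x‖) := by ring
    _ = (|F 0| + 1) * Real.exp (|s| * |F 0|) * Real.exp ((|s| + 1) * ‖x‖) := by
        rw [← Real.exp_add]
        ring_nf

/-- (T2) -/
theorem tilt_logconcave {mu : Measure (EuclideanSpace ℝ (Fin n))} [IsProbabilityMeasure mu]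
    {a : ℝ} (ha : 0 < a) (hsub : LinearlySubgaussian mu a) (hlc : HasLogConcaveDensity mu)
    {F : EuclideanSpace ℝ (Fin n) → ℝ} (hF : LipschitzWith 1 F) (hconv : ConvexOn ℝ univ F)
    {s : ℝ} (hs : 0 ≤ s) : HasLogConcaveDensity (mu.tilted (fun x => -s * F x)) := by
  have hZ : 0 < ∫ x, Real.exp (-s * F x) ∂mu := integral_exp_pos (tilt_integrable ha hsub hF s)
  set Z := ∫ x, Real.exp (-s * F x) ∂mu with hZdef
  obtain ⟨ρ, hρm, hρ0, hρc, hρ⟩ := hlc
  have hcont := (continuous_tilt hF s)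
  have hset : {x | 0 < ρ x * (Real.exp (-s * F x) / Z)} = {x | 0 < ρ x} := by
    ext x
    have hp : 0 < Real.exp (-s * F x) / Z := div_pos (Real.exp_pos _) hZ
    constructor
    · intro h
      exact (pos_iff_pos_of_mul_pos h).2 hp
    · intro h
      exact mul_pos h hp
  refine ⟨fun x => ρ x * (Real.exp (-s * F x) / Z), ?_, ?_, ?_, ?_⟩
  · exact hρm.mul (hcont.measurable.div_const _)
  · intro x
    exact mul_nonneg (hρ0 x) (div_pos (Real.exp_pos _) hZ).le
  · rw [hset]
    have h1 : ConcaveOn ℝ {x | 0 < ρ x} (fun x => Real.log (ρ x) + (-s * F x + - Real.log Z)) := by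
      refine hρc.add ?_
      have h2 : ConcaveOn ℝ {x | 0 < ρ x} (fun x => -s * F x) := by
        have h3 : ConvexOn ℝ {x | 0 < ρ x} F := hconv.subset (subset_univ _) hρc.1
        have h4 := (h3.smul hs).neg
        refine h4.congr ?_
        intro x _
        simp [smul_eq_mul]
      exact h2.add_const _
    refine h1.congr ?_
    intro x hx
    have hx' : 0 < ρ x := hx
    simp only
    rw [Real.log_mul hx'.ne' (div_pos (Real.exp_pos _) hZ).ne', Real.log_div (Real.exp_pos _).ne'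
      hZ.ne', Real.log_exp]
    ring
  · have hm1 : Measurable fun x => ENNReal.ofReal (ρ x) := hρm.ennreal_ofReal
    have hm2 : Measurable fun x => ENNReal.ofReal (Real.exp (-s * F x) / Z) :=
      (hcont.measurable.div_const _).ennreal_ofReal
    have h1 : mu.tilted (fun x => -s * F x) =
        mu.withDensity (fun x => ENNReal.ofReal (Real.exp (-s * F x) / Z)) := rfl
    rw [h1]
    conv_lhs => rw [hρ]
    rw [← withDensity_mul _ hm1 hm2]
    congr 1
    ext x
    simp only [Pi.mul_apply]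
    rw [← ENNReal.ofReal_mul (hρ0 x)]

theorem continuous_num {mu : Measure (EuclideanSpace ℝ (Fin n))} [IsProbabilityMeasure mu]
    {a : ℝ} (ha : 0 < a) (hsub : LinearlySubgaussian mu a)
    {F : EuclideanSpace ℝ (Fin n) → ℝ} (hF : LipschitzWith 1 F) {g : EuclideanSpace ℝ (Fin n) → ℝ}
    (hg : Continuous g) {M c : ℝ} (hM : ∀ x, |g x| ≤ M * Real.exp (c * ‖x‖)) :
    Continuous fun s : ℝ => ∫ x, Real.exp (-s * F x) * g x ∂mu := by
  rw [continuous_iff_continuousAt]
  intro s0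
  have h0 : 0 ≤ M := by
    have h := hM 0
    simp only [norm_zero, mul_zero, Real.exp_zero, mul_one] at h
    exact (abs_nonneg _).trans h
  have hFc := hF.continuous
  have hb : Integrable (fun x : EuclideanSpace ℝ (Fin n) =>
      (Real.exp ((|s0| + 1) * |F 0|) * Real.exp ((|s0| + 1) * ‖x‖)) * (M * Real.exp (c * ‖x‖)))
      mu := by
    refine integrable_of_growth ha hsub (by fun_prop) (Real.exp ((|s0| + 1) * |F 0|) * M)
      ((|s0| + 1) + c) fun x => ?_
    rw [abs_of_nonneg (by positivity)]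
    apply le_of_eq
    rw [show ((|s0| + 1) + c) * ‖x‖ = (|s0| + 1) * ‖x‖ + c * ‖x‖ by ring,
      Real.exp_add ((|s0| + 1) * ‖x‖) (c * ‖x‖)]
    ring
  refine continuousAt_of_dominated (bound := fun x : EuclideanSpace ℝ (Fin n) =>
      (Real.exp ((|s0| + 1) * |F 0|) * Real.exp ((|s0| + 1) * ‖x‖)) * (M * Real.exp (c * ‖x‖)))
      ?_ ?_ hb ?_
  · refine Filter.Eventually.of_forall fun s => ?_
    have hc := continuous_tilt hF s
    exact (hc.mul hg).aestronglyMeasurable
  · have hn : Metric.ball s0 1 ∈ nhds s0 := Metric.ball_mem_nhds _ one_pos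
    filter_upwards [hn] with s hs
    refine Filter.Eventually.of_forall fun x => ?_
    rw [norm_mul, Real.norm_eq_abs, Real.norm_eq_abs, abs_of_pos (Real.exp_pos _)]
    have hs1 : |s| ≤ |s0| + 1 := by
      have h1 : |s - s0| < 1 := by
        have := Metric.mem_ball.1 hs
        rwa [Real.dist_eq] at this
      have h2 : |s| ≤ |s - s0| + |s0| := by
        have := abs_add_le (s - s0) s0
        simpa using this
      linarith
    exact mul_le_mul (exp_tilt_le hF hs1 x) (hM x) (abs_nonneg _) (by positivity)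
  · refine Filter.Eventually.of_forall fun x => ?_
    have : Continuous fun s : ℝ => Real.exp (-s * F x) * g x := by fun_prop
    exact this.continuousAt

/-- (T4) -/
theorem tilt_continuous {mu : Measure (EuclideanSpace ℝ (Fin n))} [IsProbabilityMeasure mu]
    {a : ℝ} (ha : 0 < a) (hsub : LinearlySubgaussian mu a)
    {F : EuclideanSpace ℝ (Fin n) → ℝ} (hF : LipschitzWith 1 F) :
    Continuous (fun s : ℝ => ∫ x, F x ∂(mu.tilted (fun x => -s * F x))) := by
  have h1 : (fun s : ℝ => ∫ x, F x ∂(mu.tilted (fun x => -s * F x))) = fun s : ℝ =>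
      (∫ x, Real.exp (-s * F x) * F x ∂mu) / (∫ x, Real.exp (-s * F x) * 1 ∂mu) := by
    ext s
    rw [integral_tilted]
    simp only [mul_one, smul_eq_mul]
    rw [← integral_div]
    congr 1
    ext x
    ring
  rw [h1]
  have hA : Continuous fun s : ℝ => ∫ x, Real.exp (-s * F x) * F x ∂mu := by
    refine continuous_num ha hsub hF hF.continuous (M := |F 0| + 1) (c := 1) fun x => ?_
    have h2 := abs_le_of_lip hF x
    have h4 := Real.add_one_le_exp ‖x‖
    have h5 : 1 ≤ Real.exp ‖x‖ := Real.one_le_exp (norm_nonneg x)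
    rw [one_mul]
    nlinarith [abs_nonneg (F 0), norm_nonneg x]
  have hB : Continuous fun s : ℝ => ∫ x, Real.exp (-s * F x) * 1 ∂mu := by
    refine continuous_num ha hsub hF continuous_const (M := 1) (c := 0) fun x => ?_
    simp
  refine hA.div hB fun s => ?_
  simp only [mul_one]
  exact (integral_exp_pos (tilt_integrable ha hsub hF s)).ne'

end Vale.Agent.P245.H607
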